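import Mathlib

set_option autoImplicit false

open MeasureTheory Module
open scoped ENNReal

namespace Crest.Agent.H1

/-- The linear map `ℝ² → E` with the given images of the basis vectors. -/
noncomputable def planeMap {E : Type*} [NormedAddCommGroup E] [InnerProductSpace ℝ E] (a b : E) :
    EuclideanSpace ℝ (Fin 2) →ₗ[ℝ] E where
  toFun x := x 0 • a + x 1 • b
  map_add' x y := by simp [add_smul]; abel
  map_smul' c x := by simp [mul_smul]

@[simp] theorem planeMap_apply {E : Type*} [NormedAddCommGroup E] [InnerProductSpace ℝ E] (a b : E)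
    (x : EuclideanSpace ℝ (Fin 2)) : planeMap a b x = x 0 • a + x 1 • b := rfl

/-- The Gram area `√(‖a‖²‖b‖² - ⟪a,b⟫²)`. -/
noncomputable def gramArea {E : Type*} [NormedAddCommGroup E] [InnerProductSpace ℝ E] (a b : E) : ℝ :=
  Real.sqrt (‖a‖ ^ 2 * ‖b‖ ^ 2 - inner ℝ a b ^ 2)

theorem planeMap_det (a b : EuclideanSpace ℝ (Fin 2)) :
    LinearMap.det (planeMap a b) = a 0 * b 1 - a 1 * b 0 := by
  have h := LinearMap.det_toMatrix (EuclideanSpace.basisFun (Fin 2) ℝ).toBasis (planeMap a b)
  rw [← h, Matrix.det_fin_two]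
  simp [LinearMap.toMatrix_apply]
  ring

theorem gramArea_fin_two (a b : EuclideanSpace ℝ (Fin 2)) :
    gramArea a b = |a 0 * b 1 - a 1 * b 0| := by
  rw [gramArea, ← Real.sqrt_sq_eq_abs]
  congr 1
  simp only [EuclideanSpace.real_norm_sq_eq, Fin.sum_univ_two, PiLp.inner_apply, RCLike.inner_apply,
    conj_trivial]
  ring

variable {E : Type*} [NormedAddCommGroup E] [InnerProductSpace ℝ E] [MeasurableSpace E] [BorelSpace E]

theorem muHE_image_planeMap_of_isometry {a b : E} (ι : EuclideanSpace ℝ (Fin 2) →ₗᵢ[ℝ] E)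
    {a' b' : EuclideanSpace ℝ (Fin 2)} (ha : ι a' = a) (hb : ι b' = b)
    (S : Set (EuclideanSpace ℝ (Fin 2))) :
    μHE[2] ((fun x : EuclideanSpace ℝ (Fin 2) => x 0 • a + x 1 • b) '' S)
      = ENNReal.ofReal (gramArea a b) * volume S := by
  have h1 : (fun x : EuclideanSpace ℝ (Fin 2) => x 0 • a + x 1 • b) '' S
      = ι '' (planeMap a' b' '' S) := by
    rw [← Set.image_comp]
    apply Set.image_congr
    intro x _
    simp [← ha, ← hb]
  rw [h1, ι.isometry.euclideanHausdorffMeasure_image, EuclideanSpace.euclideanHausdorffMeasure_eq_volume,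
    Measure.addHaar_image_linearMap]
  congr 2
  rw [planeMap_det, ← gramArea_fin_two, gramArea, gramArea, ← ha, ← hb]
  simp

theorem muHE_image_planeMap (a b : E) (S : Set (EuclideanSpace ℝ (Fin 2))) :
    μHE[2] ((fun x : EuclideanSpace ℝ (Fin 2) => x 0 • a + x 1 • b) '' S)
      = ENNReal.ofReal (gramArea a b) * volume S := by
  by_cases hab : LinearIndependent ℝ ![a, b]
  · -- independent
    set P : Submodule ℝ E := Submodule.span ℝ (Set.range ![a, b]) with hP
    have : FiniteDimensional ℝ P := FiniteDimensional.span_of_finite ℝ (Set.finite_range _)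
    have hfr : finrank ℝ P = 2 := by
      rw [hP, finrank_span_eq_card hab]; simp
    let bs := (stdOrthonormalBasis ℝ P).reindex (finCongr hfr)
    let ι : EuclideanSpace ℝ (Fin 2) →ₗᵢ[ℝ] E := P.subtypeₗᵢ.comp bs.repr.symm.toLinearIsometry
    have haP : a ∈ P := Submodule.subset_span ⟨0, by simp⟩
    have hbP : b ∈ P := Submodule.subset_span ⟨1, by simp⟩
    exact muHE_image_planeMap_of_isometry ι (a' := bs.repr ⟨a, haP⟩) (b' := bs.repr ⟨b, hbP⟩)
      (by simp [ι]) (by simp [ι]) S
  · -- dependent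
    have hdep : ∃ c : E, ∃ s t : ℝ, a = s • c ∧ b = t • c := by
      rw [LinearIndependent.pair_iff] at hab
      push Not at hab
      obtain ⟨s, t, hst, hne⟩ := hab
      by_cases hs : s = 0
      · have ht : t ≠ 0 := hne hs
        refine ⟨a, 1, 0, by simp, ?_⟩
        rw [hs, zero_smul, zero_add] at hst
        simpa [ht] using hst
      · refine ⟨b, -t / s, 1, ?_, by simp⟩
        have : s • a = -t • b := by
          rw [neg_smul]; exact eq_neg_of_add_eq_zero_left hst
        calc a = s⁻¹ • (s • a) := by rw [smul_smul, inv_mul_cancel₀ hs, one_smul]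
          _ = _ := by rw [this, smul_smul]; congr 1; field_simp
    obtain ⟨c, s, t, rfl, rfl⟩ := hdep
    have hg : gramArea (s • c) (t • c) = 0 := by
      rw [gramArea]
      have : ‖s • c‖ ^ 2 * ‖t • c‖ ^ 2 - inner ℝ (s • c) (t • c) ^ 2 = 0 := by
        rw [norm_smul, norm_smul, real_inner_smul_left, real_inner_smul_right,
          real_inner_self_eq_norm_sq]
        simp only [mul_pow, Real.norm_eq_abs, sq_abs]
        ring
      rw [this, Real.sqrt_zero]
    rw [hg, ENNReal.ofReal_zero, zero_mul]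
    have hsub : (fun x : EuclideanSpace ℝ (Fin 2) => x 0 • s • c + x 1 • t • c) '' S
        ⊆ (fun r : ℝ => r • c) '' Set.univ := by
      rintro _ ⟨x, _, rfl⟩
      refine ⟨x 0 * s + x 1 * t, trivial, ?_⟩
      simp [add_smul, mul_smul]
    have hlip : LipschitzWith ‖c‖₊ (fun r : ℝ => r • c) := by
      apply LipschitzWith.of_dist_le_mul
      intro x y
      rw [dist_eq_norm, ← sub_smul, norm_smul, dist_eq_norm, mul_comm]
      rfl
    have hdim : dimH ((fun r : ℝ => r • c) '' Set.univ) ≤ 1 := by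
      refine (hlip.dimH_image_le _).trans ?_
      simp [Real.dimH_univ]
    have h0 : μH[(2 : ℕ)] ((fun r : ℝ => r • c) '' Set.univ) = 0 := by
      have : dimH ((fun r : ℝ => r • c) '' Set.univ) < ((2 : ℕ) : NNReal) := by
        refine lt_of_le_of_lt hdim ?_
        norm_num
      simpa using hausdorffMeasure_of_dimH_lt this
    have h1 : μHE[2] ((fun r : ℝ => r • c) '' Set.univ) = 0 := by
      rw [Measure.euclideanHausdorffMeasure_def, Measure.smul_apply, h0, smul_zero]
    exact measure_mono_null hsub h1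

/-- The equivalence of `EuclideanSpace ℝ (Fin 2)` with `ℝ × ℝ`, volume preserving. -/
theorem volume_preserving_fstsnd :
    MeasurePreserving (fun x : EuclideanSpace ℝ (Fin 2) => (x 0, x 1)) volume volume :=
  (volume_preserving_finTwoArrow ℝ).comp (PiLp.volume_preserving_ofLp (Fin 2))

theorem volume_stdTriangle :
    volume {x : EuclideanSpace ℝ (Fin 2) | 0 ≤ x 0 ∧ 0 ≤ x 1 ∧ x 0 + x 1 ≤ 1} = ENNReal.ofReal (1 / 2) := by
  have hclosed : IsClosed {p : ℝ × ℝ | 0 ≤ p.1 ∧ 0 ≤ p.2 ∧ p.1 + p.2 ≤ 1} := by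
    apply IsClosed.inter (isClosed_le continuous_const continuous_fst)
    apply IsClosed.inter (isClosed_le continuous_const continuous_snd)
    exact isClosed_le (continuous_fst.add continuous_snd) continuous_const
  have h := volume_preserving_fstsnd.measure_preimage
    (s := {p : ℝ × ℝ | 0 ≤ p.1 ∧ 0 ≤ p.2 ∧ p.1 + p.2 ≤ 1}) hclosed.measurableSet.nullMeasurableSet
  have h2 : (volume : Measure (ℝ × ℝ)) {p : ℝ × ℝ | 0 ≤ p.1 ∧ 0 ≤ p.2 ∧ p.1 + p.2 ≤ 1}
      = ENNReal.ofReal (1 / 2) := by
    rw [Measure.volume_eq_prod, Measure.prod_apply hclosed.measurableSet]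
    have hsl : ∀ x : ℝ, volume (Prod.mk x ⁻¹' {p : ℝ × ℝ | 0 ≤ p.1 ∧ 0 ≤ p.2 ∧ p.1 + p.2 ≤ 1})
        = (Set.Icc (0:ℝ) 1).indicator (fun x => ENNReal.ofReal (1 - x)) x := by
      intro x
      by_cases hx : x ∈ Set.Icc (0:ℝ) 1
      · rw [Set.indicator_of_mem hx]
        have : (Prod.mk x ⁻¹' {p : ℝ × ℝ | 0 ≤ p.1 ∧ 0 ≤ p.2 ∧ p.1 + p.2 ≤ 1}) = Set.Icc 0 (1 - x) := by
          ext y
          simp only [Set.mem_preimage, Set.mem_ofPred_eq, Set.mem_Icc]
          constructor
          · rintro ⟨_, h1, h2⟩; exact ⟨h1, by linarith⟩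
          · rintro ⟨h1, h2⟩; exact ⟨hx.1, h1, by linarith⟩
        rw [this, Real.volume_Icc, sub_zero]
      · rw [Set.indicator_of_notMem hx]
        have : (Prod.mk x ⁻¹' {p : ℝ × ℝ | 0 ≤ p.1 ∧ 0 ≤ p.2 ∧ p.1 + p.2 ≤ 1}) = ∅ := by
          ext y
          simp only [Set.mem_preimage, Set.mem_ofPred_eq, Set.mem_empty_iff_false, iff_false]
          rintro ⟨h0, h1, h2⟩
          exact hx ⟨h0, by linarith⟩
        rw [this, measure_empty]
    simp_rw [hsl]
    rw [lintegral_indicator measurableSet_Icc, ← ofReal_integral_eq_lintegral_ofReal]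
    · congr 1
      rw [integral_Icc_eq_integral_Ioc, ← intervalIntegral.integral_of_le zero_le_one]
      rw [intervalIntegral.integral_sub (by simp) (by simp)]
      simp only [intervalIntegral.integral_const, sub_zero, smul_eq_mul, mul_one, integral_id]
      norm_num
    · exact (continuous_const.sub continuous_id).integrableOn_Icc
    · filter_upwards [ae_restrict_mem measurableSet_Icc] with x hx
      simp only [Pi.zero_apply]
      linarith [hx.2]
  rw [← h2, ← h]
  rfl

theorem volume_unitSquare :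
    volume {x : EuclideanSpace ℝ (Fin 2) | x 0 ∈ Set.Icc (0 : ℝ) 1 ∧ x 1 ∈ Set.Icc (0 : ℝ) 1} = 1 := by
  have h := volume_preserving_fstsnd.measure_preimage
    (s := Set.Icc (0 : ℝ) 1 ×ˢ Set.Icc (0 : ℝ) 1)
    (measurableSet_Icc.prod measurableSet_Icc).nullMeasurableSet
  rw [Measure.volume_eq_prod, Measure.prod_prod] at h
  simp only [Real.volume_Icc, sub_zero, ENNReal.ofReal_one, mul_one] at h
  rw [← h]
  rfl

omit [InnerProductSpace ℝ E] in
/-- Translation invariance of `μHE[2]`. -/
theorem muHE_image_add (c : E) (S : Set E) : μHE[2] ((fun x => x + c) '' S) = μHE[2] S :=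
  (isometry_add_right c).euclideanHausdorffMeasure_image S

/-- Area of an affine image of a planar set. -/
theorem muHE_image_affine (c a b : E) (S : Set (EuclideanSpace ℝ (Fin 2))) :
    μHE[2] ((fun x : EuclideanSpace ℝ (Fin 2) => c + x 0 • a + x 1 • b) '' S)
      = ENNReal.ofReal (gramArea a b) * volume S := by
  have h : (fun x : EuclideanSpace ℝ (Fin 2) => c + x 0 • a + x 1 • b) '' S =
      (fun x => x + c) '' ((fun x : EuclideanSpace ℝ (Fin 2) => x 0 • a + x 1 • b) '' S) := by
    rw [← Set.image_comp]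
    apply Set.image_congr
    intro x _
    simp only [Function.comp]
    abel
  rw [h, muHE_image_add, muHE_image_planeMap a b S]

omit [MeasurableSpace E] [BorelSpace E] in
theorem parallelogram_eq_image (c a b : E) :
    {x : E | ∃ s ∈ Set.Icc (0 : ℝ) 1, ∃ t ∈ Set.Icc (0 : ℝ) 1, x = c + s • a + t • b} =
      (fun x : EuclideanSpace ℝ (Fin 2) => c + x 0 • a + x 1 • b) ''
        {x : EuclideanSpace ℝ (Fin 2) | x 0 ∈ Set.Icc (0 : ℝ) 1 ∧ x 1 ∈ Set.Icc (0 : ℝ) 1} := by
  ext x
  constructor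
  · rintro ⟨s, hs, t, ht, rfl⟩
    exact ⟨!₂[s, t], by simpa using ⟨hs, ht⟩, by simp⟩
  · rintro ⟨y, ⟨h0, h1⟩, rfl⟩
    exact ⟨_, h0, _, h1, rfl⟩

/-- Area of a parallelogram. -/
theorem muHE_parallelogram (c a b : E) :
    μHE[2] {x : E | ∃ s ∈ Set.Icc (0 : ℝ) 1, ∃ t ∈ Set.Icc (0 : ℝ) 1, x = c + s • a + t • b} =
      ENNReal.ofReal (gramArea a b) := by
  rw [parallelogram_eq_image, muHE_image_affine, volume_unitSquare, mul_one]

omit [MeasurableSpace E] [BorelSpace E] in
theorem convexHull_triple_eq_image (p q r : E) :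
    convexHull ℝ {p, q, r} =
      (fun x : EuclideanSpace ℝ (Fin 2) => p + x 0 • (q - p) + x 1 • (r - p)) ''
        {x : EuclideanSpace ℝ (Fin 2) | 0 ≤ x 0 ∧ 0 ≤ x 1 ∧ x 0 + x 1 ≤ 1} := by
  apply Set.Subset.antisymm
  · apply convexHull_min
    · rintro x (rfl | rfl | rfl)
      · exact ⟨0, by simp, by simp⟩
      · exact ⟨!₂[1, 0], by simp, by simp⟩
      · exact ⟨!₂[0, 1], by simp, by simp⟩
    · rintro _ ⟨x, ⟨hx0, hx1, hx2⟩, rfl⟩ _ ⟨y, ⟨hy0, hy1, hy2⟩, rfl⟩ s t hs ht hst
      refine ⟨s • x + t • y, ?_, ?_⟩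
      · simp only [Set.mem_ofPred_eq, PiLp.add_apply, PiLp.smul_apply, smul_eq_mul]
        refine ⟨by positivity, by positivity, ?_⟩
        nlinarith
      · simp only [PiLp.add_apply, PiLp.smul_apply, smul_eq_mul]
        have : s = 1 - t := by linarith
        subst this
        module
  · rintro _ ⟨x, ⟨hx0, hx1, hx2⟩, rfl⟩
    have hp : p ∈ convexHull ℝ {p, q, r} := subset_convexHull ℝ _ (by simp)
    have hq : q ∈ convexHull ℝ {p, q, r} := subset_convexHull ℝ _ (by simp)
    have hr : r ∈ convexHull ℝ {p, q, r} := subset_convexHull ℝ _ (by simp)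
    have := (convex_convexHull ℝ {p, q, r}).sum_mem (t := (Finset.univ : Finset (Fin 3)))
      (w := ![1 - x 0 - x 1, x 0, x 1]) (z := ![p, q, r])
      (by intro i _; fin_cases i <;> simp <;> linarith)
      (by simp only [Fin.sum_univ_three]; simp; ring)
      (by intro i _; fin_cases i <;> simpa)
    simp only [Fin.sum_univ_three] at this
    simp only [Matrix.cons_val_zero, Matrix.cons_val_one, Matrix.cons_val] at this
    convert this using 1
    module

/-- Area of a triangle. -/
theorem muHE_triangle (p q r : E) :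
    μHE[2] (convexHull ℝ {p, q, r}) = ENNReal.ofReal (gramArea (q - p) (r - p) / 2) := by
  rw [convexHull_triple_eq_image, muHE_image_affine, volume_stdTriangle,
    ← ENNReal.ofReal_mul (by rw [gramArea]; positivity)]
  congr 1
  ring

end Crest.Agent.H1
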