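import Mathlib

set_option autoImplicit false
open scoped ContDiff RealInnerProductSpace

namespace Crest.Agent.H1.MM

section basic
variable {E : Type*} [NormedAddCommGroup E] [InnerProductSpace ℝ E]

/-- the pair interaction -/
noncomputable def f (s : ℝ) (z : E) : ℝ := ‖z‖ ^ (-s)

/-- its gradient -/
noncomputable def gf (s : ℝ) (z : E) : E := (-s * (‖z‖ ^ 2) ^ (-s / 2 - 1)) • z

lemma tangent {p x : ℝ} (hp : p ≤ 0) (hx : 0 < x) : 1 + p * (x - 1) ≤ x ^ p := by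
  rw [Real.rpow_def_of_pos hx]
  have h1 := Real.log_le_sub_one_of_pos hx
  have h2 := Real.add_one_le_exp (Real.log x * p)
  nlinarith

lemma f_eq (s : ℝ) (z : E) : f s z = (‖z‖ ^ 2) ^ (-s / 2) := by
  rw [f, ← Real.rpow_natCast, ← Real.rpow_mul (norm_nonneg z)]
  congr 1
  push_cast; ring

lemma semiconv {s : ℝ} (hs : 0 < s) {z z' : E} (hz : z ≠ 0) (hz' : z' ≠ 0) :
    f s z + ⟪gf s z, z' - z⟫ - s / 2 * (‖z‖ ^ 2) ^ (-s / 2 - 1) * ‖z' - z‖ ^ 2 ≤ f s z' := by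
  have hn : 0 < ‖z‖ ^ 2 := by positivity
  have hn' : 0 < ‖z'‖ ^ 2 := by positivity
  have h1 := tangent (p := -s / 2) (x := ‖z'‖ ^ 2 / ‖z‖ ^ 2) (by linarith) (by positivity)
  rw [Real.div_rpow hn'.le hn.le] at h1
  have hp : 0 < (‖z‖ ^ 2) ^ (-s / 2) := Real.rpow_pos_of_pos hn _
  rw [le_div_iff₀ hp] at h1
  have h2 : (‖z‖ ^ 2) ^ (-s / 2) = (‖z‖ ^ 2) ^ (-s / 2 - 1) * ‖z‖ ^ 2 := by
    conv_rhs => rw [← Real.rpow_one (‖z‖ ^ 2), ← Real.rpow_mul hn.le, one_mul, ← Real.rpow_add hn]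
    congr 1; ring
  have h3 : ‖z'‖ ^ 2 = ‖z‖ ^ 2 + 2 * ⟪z, z' - z⟫ + ‖z' - z‖ ^ 2 := by
    have := norm_add_sq_real z (z' - z)
    rw [add_sub_cancel] at this
    exact this
  rw [f_eq, f_eq, gf, inner_smul_left]
  simp only [conj_trivial]
  refine le_trans (le_of_eq ?_) h1
  rw [h2]
  have h4 : ‖z'‖ ^ 2 / ‖z‖ ^ 2 * ‖z‖ ^ 2 = ‖z'‖ ^ 2 := by field_simp
  have h5 : (1 + -s / 2 * (‖z'‖ ^ 2 / ‖z‖ ^ 2 - 1)) * ((‖z‖ ^ 2) ^ (-s / 2 - 1) * ‖z‖ ^ 2) =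
    (‖z‖ ^ 2) ^ (-s / 2 - 1) * (‖z‖ ^ 2 + -s / 2 * (‖z'‖ ^ 2 / ‖z‖ ^ 2 * ‖z‖ ^ 2 - ‖z‖ ^ 2)) := by
    ring
  rw [h5, h4, h3]
  ring

lemma gf_contDiffAt (s : ℝ) {n : WithTop ℕ∞} {z : E} (hz : z ≠ 0) : ContDiffAt ℝ n (gf s) z := by
  unfold gf
  have h1 : ContDiffAt ℝ n (fun z : E => ‖z‖ ^ 2) z := (contDiff_norm_sq ℝ).contDiffAt
  have h2 : ContDiffAt ℝ n (fun z : E => (‖z‖ ^ 2) ^ (-s / 2 - 1)) z :=
    h1.rpow_const_of_ne (by positivity)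
  exact (contDiffAt_const.mul h2).smul contDiffAt_id

lemma f_contDiffAt (s : ℝ) {n : WithTop ℕ∞} {z : E} (hz : z ≠ 0) : ContDiffAt ℝ n (f s) z := by
  have h1 : ContDiffAt ℝ n (fun z : E => ‖z‖ ^ 2) z := (contDiff_norm_sq ℝ).contDiffAt
  have h2 : ContDiffAt ℝ n (fun z : E => (‖z‖ ^ 2) ^ (-s / 2)) z :=
    h1.rpow_const_of_ne (by positivity)
  exact h2.congr_of_eventuallyEq (Filter.Eventually.of_forall (fun z => f_eq s z))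

/-- derivative of the gradient -/
noncomputable def dgf (s : ℝ) (z : E) : E →L[ℝ] E :=
  (-s * (‖z‖ ^ 2) ^ (-s / 2 - 1)) • ContinuousLinearMap.id ℝ E +
    (ContinuousLinearMap.toSpanSingleton ℝ z).comp
      ((-s * ((-s / 2 - 1) * (‖z‖ ^ 2) ^ (-s / 2 - 1 - 1) * 2)) • innerSL ℝ z)

lemma dgf_apply (s : ℝ) (z v : E) : dgf s z v = (-s * (‖z‖ ^ 2) ^ (-s / 2 - 1)) • v +
    (-s * ((-s / 2 - 1) * (‖z‖ ^ 2) ^ (-s / 2 - 1 - 1) * 2) * ⟪z, v⟫) • z := by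
  simp [dgf, ContinuousLinearMap.toSpanSingleton_apply, smul_smul]

lemma gf_hasFDerivAt (s : ℝ) {z : E} (hz : z ≠ 0) : HasFDerivAt (gf s) (dgf s z) z := by
  have h1 : HasFDerivAt (fun z : E => ‖z‖ ^ 2) (2 • (innerSL ℝ z)) z :=
    (hasStrictFDerivAt_norm_sq z).hasFDerivAt
  have hn : ‖z‖ ^ 2 ≠ 0 := by positivity
  have h2 := h1.rpow_const (p := -s / 2 - 1) (Or.inl hn)
  have h3 := (h2.const_mul (-s)).smul (hasFDerivAt_id z)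
  refine h3.congr_fderiv ?_
  ext v
  simp only [dgf_apply, ContinuousLinearMap.add_apply, ContinuousLinearMap.smul_apply,
    ContinuousLinearMap.smulRight_apply, ContinuousLinearMap.id_apply, innerSL_apply_apply,
    nsmul_eq_mul, smul_eq_mul, id]
  congr 2
  push_cast
  ring

lemma gf_neg (s : ℝ) (z : E) : gf s (-z) = - gf s z := by
  simp [gf]

end basic

end Crest.Agent.H1.MM
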