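import Mathlib
import Crest.Agent.H1.MM1

set_option autoImplicit false
open scoped ContDiff RealInnerProductSpace

namespace Crest.Agent.H1.MM

variable {d : ℕ}

abbrev V (d : ℕ) := EuclideanSpace ℝ (Fin d)

noncomputable def ev (i : Fin d) : V d := EuclideanSpace.single i 1

noncomputable def tt (s : ℝ) : ℝ := (4 : ℝ) ^ (-s / 2 - 1)

noncomputable def KK (s : ℝ) : ℝ := 8 * s / tt s

lemma tt_pos (s : ℝ) : 0 < tt s := Real.rpow_pos_of_pos (by norm_num) _

lemma tt_le {s : ℝ} (hs : 0 < s) : tt s ≤ 1 / 4 := by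
  unfold tt
  have : (4 : ℝ) ^ (-s / 2 - 1) ≤ 4 ^ (-1 : ℝ) :=
    Real.rpow_le_rpow_of_exponent_le (by norm_num) (by linarith)
  rw [Real.rpow_neg_one] at this
  linarith

lemma KK_mul {s : ℝ} : tt s * KK s = 8 * s := by
  unfold KK; have := (tt_pos s).ne'; field_simp

lemma KK_ge {s : ℝ} (hs : 0 < s) : 32 * s ≤ KK s := by
  have h1 := tt_pos s
  have h2 := tt_le hs
  have h3 : tt s * KK s = 8 * s := KK_mul
  by_contra h
  push Not at h
  have : tt s * KK s < 1 / 4 * (32 * s) := by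
    have h4 : 0 < KK s := by unfold KK; positivity
    nlinarith
  linarith

lemma norm_ev (i : Fin d) : ‖ev i‖ = 1 := by simp [ev]

lemma ev_ne (i : Fin d) : ev i ≠ 0 := by
  intro h; have := norm_ev i; rw [h] at this; simp at this

lemma inner_ev (i : Fin d) (v : V d) : ⟪ev i, v⟫ = v i := by
  simp [ev, EuclideanSpace.inner_single_left]

noncomputable def hh (i : Fin d) (s : ℝ) (k : Fin d) : ℝ := if k = i then s * (s + 1) else - s

lemma dgf_ev (i : Fin d) (s : ℝ) (v : V d) (k : Fin d) :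
    dgf s (ev i) v k = hh i s k * v k := by
  rw [dgf_apply, inner_ev, norm_ev]
  by_cases hk : k = i
  · subst hk
    simp [ev, hh]
    ring
  · simp [ev, hh, hk]

lemma dgf_neg (s : ℝ) (z : V d) : dgf s (-z) = dgf s z := by
  ext1 v
  simp [dgf_apply]

lemma dgf_ev2 (i : Fin d) (s : ℝ) (v : V d) (k : Fin d) :
    dgf s ((2 : ℝ) • ev i) v k = tt s * hh i s k * v k := by
  have h4 : ‖(2 : ℝ) • ev i‖ ^ 2 = 4 := by
    rw [norm_smul, norm_ev]; norm_num
  have h5 : (4 : ℝ) ^ (-s / 2 - 1 - 1) = (4 : ℝ) ^ (-s / 2 - 1) / 4 := by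
    rw [Real.rpow_sub_one (by norm_num)]
  rw [dgf_apply, h4, h5, inner_smul_left, inner_ev]
  by_cases hk : k = i
  · subst hk
    simp [ev, hh, tt]
    ring
  · simp [ev, hh, hk, tt]
    left; ring

noncomputable def GG (i : Fin d) (s : ℝ) : V d := gf s (ev i) + gf s ((2 : ℝ) • ev i)

noncomputable def eq1 (s : ℝ) (a b c : V d) : V d := gf s (a - b) + gf s (a - c) + KK s • a

noncomputable def eq2 (i : Fin d) (s : ℝ) (a b c : V d) : V d :=
  - gf s (a - b) + gf s (b - c) - GG i s + KK s • (b - ev i)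

/-- derivative of `eq1` at the base point -/
noncomputable def deq1 (i : Fin d) (s : ℝ) : V d × V d × V d →L[ℝ] V d :=
  (dgf s (ev i)).comp (ContinuousLinearMap.fst ℝ _ _ -
      (ContinuousLinearMap.fst ℝ _ _).comp (ContinuousLinearMap.snd ℝ (V d) (V d × V d))) +
  (dgf s (ev i)).comp (ContinuousLinearMap.fst ℝ _ _ -
      (ContinuousLinearMap.snd ℝ _ _).comp (ContinuousLinearMap.snd ℝ (V d) (V d × V d))) +
  KK s • ContinuousLinearMap.fst ℝ _ _

noncomputable def deq2 (i : Fin d) (s : ℝ) : V d × V d × V d →L[ℝ] V d :=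
  - (dgf s (ev i)).comp (ContinuousLinearMap.fst ℝ _ _ -
      (ContinuousLinearMap.fst ℝ _ _).comp (ContinuousLinearMap.snd ℝ (V d) (V d × V d))) +
  (dgf s ((2 : ℝ) • ev i)).comp
     ((ContinuousLinearMap.fst ℝ _ _).comp (ContinuousLinearMap.snd ℝ (V d) (V d × V d)) -
      (ContinuousLinearMap.snd ℝ _ _).comp (ContinuousLinearMap.snd ℝ (V d) (V d × V d))) +
  KK s • (ContinuousLinearMap.fst ℝ _ _).comp (ContinuousLinearMap.snd ℝ (V d) (V d × V d))

lemma deq1_apply (i : Fin d) (s : ℝ) (p : V d × V d × V d) (k : Fin d) :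
    deq1 i s p k = hh i s k * (p.1 k - p.2.1 k) + hh i s k * (p.1 k - p.2.2 k) + KK s * p.1 k := by
  have h1 := dgf_ev i s (p.1 - p.2.1) k
  have h2 := dgf_ev i s (p.1 - p.2.2) k
  simp only [deq1, ContinuousLinearMap.add_apply, ContinuousLinearMap.comp_apply,
    ContinuousLinearMap.sub_apply, ContinuousLinearMap.smul_apply, PiLp.add_apply,
    PiLp.smul_apply, smul_eq_mul, ContinuousLinearMap.coe_fst', ContinuousLinearMap.coe_snd']
  rw [h1, h2]
  simp

lemma deq2_apply (i : Fin d) (s : ℝ) (p : V d × V d × V d) (k : Fin d) :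
    deq2 i s p k = - (hh i s k * (p.1 k - p.2.1 k)) + tt s * hh i s k * (p.2.1 k - p.2.2 k)
      + KK s * p.2.1 k := by
  have h1 := dgf_ev i s (p.1 - p.2.1) k
  have h2 := dgf_ev2 i s (p.2.1 - p.2.2) k
  simp only [deq2, ContinuousLinearMap.add_apply, ContinuousLinearMap.comp_apply,
    ContinuousLinearMap.neg_apply, PiLp.neg_apply,
    ContinuousLinearMap.sub_apply, ContinuousLinearMap.smul_apply, PiLp.add_apply,
    PiLp.smul_apply, smul_eq_mul, ContinuousLinearMap.coe_fst', ContinuousLinearMap.coe_snd']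
  rw [h1, h2]
  simp

/-- base point -/
noncomputable def P0 (i : Fin d) : V d × V d × V d := (0, ev i, - ev i)

noncomputable def Psi (i : Fin d) (s : ℝ) (p : V d × V d × V d) : V d × V d × V d :=
  (p.1, eq1 s p.1 p.2.1 p.2.2, eq2 i s p.1 p.2.1 p.2.2)

noncomputable def dPsi (i : Fin d) (s : ℝ) : V d × V d × V d →L[ℝ] V d × V d × V d :=
  (ContinuousLinearMap.fst ℝ _ _).prod ((deq1 i s).prod (deq2 i s))

lemma two_smul_ev_ne (i : Fin d) : (2 : ℝ) • ev i ≠ 0 := smul_ne_zero (by norm_num) (ev_ne i)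

lemma Psi_base (i : Fin d) (s : ℝ) : Psi i s (P0 i) = (0, 0, 0) := by
  simp only [Psi, P0, eq1, eq2, GG]
  have h2 : ev i - -ev i = (2 : ℝ) • ev i := by rw [two_smul]; abel
  rw [h2]
  simp only [zero_sub, gf_neg, neg_neg, sub_self, smul_zero, add_zero]
  simp

lemma eq1_hasFDerivAt (i : Fin d) (s : ℝ) :
    HasFDerivAt (fun p : V d × V d × V d => eq1 s p.1 p.2.1 p.2.2) (deq1 i s) (P0 i) := by
  unfold eq1 deq1
  refine HasFDerivAt.add (HasFDerivAt.add ?_ ?_) ?_
  · have h1 : HasFDerivAt (gf s) (dgf s (ev i)) ((P0 i).1 - (P0 i).2.1) := by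
      have := gf_hasFDerivAt s (z := (P0 i).1 - (P0 i).2.1) (by simp [P0, ev_ne])
      rw [show (P0 i).1 - (P0 i).2.1 = - ev i by simp [P0]] at this ⊢
      rwa [dgf_neg] at this
    exact h1.comp (P0 i) (hasFDerivAt_fst.sub (hasFDerivAt_fst.comp _ hasFDerivAt_snd))
  · have h1 : HasFDerivAt (gf s) (dgf s (ev i)) ((P0 i).1 - (P0 i).2.2) := by
      have := gf_hasFDerivAt s (z := (P0 i).1 - (P0 i).2.2) (by simp [P0, ev_ne])
      rwa [show (P0 i).1 - (P0 i).2.2 = ev i by simp [P0]] at this ⊢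
    exact h1.comp (P0 i) (hasFDerivAt_fst.sub (hasFDerivAt_snd.comp _ hasFDerivAt_snd))
  · exact hasFDerivAt_fst.const_smul (KK s)

lemma eq2_hasFDerivAt (i : Fin d) (s : ℝ) :
    HasFDerivAt (fun p : V d × V d × V d => eq2 i s p.1 p.2.1 p.2.2) (deq2 i s) (P0 i) := by
  unfold eq2 deq2
  have hadd : (P0 i).2.1 - (P0 i).2.2 = (2 : ℝ) • ev i := by
    simp only [P0]; rw [two_smul]; abel
  refine HasFDerivAt.add (HasFDerivAt.sub_const _ (HasFDerivAt.add ?_ ?_)) ?_
  · have h1 : HasFDerivAt (gf s) (dgf s (ev i)) ((P0 i).1 - (P0 i).2.1) := by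
      have := gf_hasFDerivAt s (z := (P0 i).1 - (P0 i).2.1) (by simp [P0, ev_ne])
      rw [show (P0 i).1 - (P0 i).2.1 = - ev i by simp [P0]] at this ⊢
      rwa [dgf_neg] at this
    exact (h1.comp (P0 i) (hasFDerivAt_fst.sub (hasFDerivAt_fst.comp _ hasFDerivAt_snd))).neg
  · have h1 : HasFDerivAt (gf s) (dgf s ((2 : ℝ) • ev i)) ((P0 i).2.1 - (P0 i).2.2) := by
      rw [hadd]; exact gf_hasFDerivAt s (two_smul_ev_ne i)
    exact h1.comp (P0 i) ((hasFDerivAt_fst.comp _ hasFDerivAt_snd).sub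
      (hasFDerivAt_snd.comp _ hasFDerivAt_snd))
  · exact ((hasFDerivAt_fst.comp _ hasFDerivAt_snd).sub_const _).const_smul (KK s)

lemma Psi_hasFDerivAt (i : Fin d) (s : ℝ) : HasFDerivAt (Psi i s) (dPsi i s) (P0 i) :=
  hasFDerivAt_fst.prodMk ((eq1_hasFDerivAt i s).prodMk (eq2_hasFDerivAt i s))

lemma Psi_contDiffAt (i : Fin d) (s : ℝ) {n : WithTop ℕ∞} (p : V d × V d × V d)
    (h1 : p.1 - p.2.1 ≠ 0) (h2 : p.1 - p.2.2 ≠ 0) (h3 : p.2.1 - p.2.2 ≠ 0) :
    ContDiffAt ℝ n (Psi i s) p := by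
  unfold Psi eq1 eq2
  have f1 : ContDiffAt ℝ n (fun p : V d × V d × V d => p.1) p := contDiffAt_fst
  have f2 : ContDiffAt ℝ n (fun p : V d × V d × V d => p.2.1) p := contDiffAt_fst.comp p contDiffAt_snd
  have f3 : ContDiffAt ℝ n (fun p : V d × V d × V d => p.2.2) p := contDiffAt_snd.comp p contDiffAt_snd
  have g1 : ContDiffAt ℝ n (fun p : V d × V d × V d => gf s (p.1 - p.2.1)) p :=
    ContDiffAt.comp (g := gf s) (f := fun p : V d × V d × V d => p.1 - p.2.1) p
      (gf_contDiffAt s h1) (f1.sub f2)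
  have g2 : ContDiffAt ℝ n (fun p : V d × V d × V d => gf s (p.1 - p.2.2)) p :=
    ContDiffAt.comp (g := gf s) (f := fun p : V d × V d × V d => p.1 - p.2.2) p
      (gf_contDiffAt s h2) (f1.sub f3)
  have g3 : ContDiffAt ℝ n (fun p : V d × V d × V d => gf s (p.2.1 - p.2.2)) p :=
    ContDiffAt.comp (g := gf s) (f := fun p : V d × V d × V d => p.2.1 - p.2.2) p
      (gf_contDiffAt s h3) (f2.sub f3)
  exact f1.prodMk (((g1.add g2).add (f1.const_smul _)).prodMk
    (((g1.neg.add g3).sub contDiffAt_const).add ((f2.sub contDiffAt_const).const_smul _)))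

end Crest.Agent.H1.MM
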