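import Mathlib
import Crest.Agent.H1.MM2

set_option autoImplicit false
open scoped ContDiff RealInnerProductSpace Topology

namespace Crest.Agent.H1.MM

variable {d : ℕ}

/-- injective endomorphism of a finite-dimensional space as a continuous linear equivalence -/
noncomputable def equivOfInj {E : Type*} [NormedAddCommGroup E] [NormedSpace ℝ E]
    [FiniteDimensional ℝ E] (L : E →L[ℝ] E) (h : ∀ x, L x = 0 → x = 0) : E ≃L[ℝ] E :=
  (LinearEquiv.ofInjectiveEndo (L : E →ₗ[ℝ] E)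
    ((injective_iff_map_eq_zero (L : E →ₗ[ℝ] E)).2 h)).toContinuousLinearEquiv

lemma equivOfInj_coe {E : Type*} [NormedAddCommGroup E] [NormedSpace ℝ E]
    [FiniteDimensional ℝ E] (L : E →L[ℝ] E) (h : ∀ x, L x = 0 → x = 0) :
    (equivOfInj L h : E →L[ℝ] E) = L := by
  ext x; rfl

lemma scal0 {s t K h xb xc : ℝ} (hs : 0 < s) (ht : 0 < t) (ht4 : t ≤ 1 / 4) (hK : t * K = 8 * s)
    (hK' : 32 * s ≤ K) (hh : h = s * (s + 1) ∨ h = - s)
    (h1 : h * (0 - xb) + h * (0 - xc) + K * 0 = 0)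
    (h2 : - (h * (0 - xb)) + t * h * (xb - xc) + K * xb = 0) : xb = 0 ∧ xc = 0 := by
  have hh0 : h ≠ 0 := by
    rcases hh with rfl | rfl
    · positivity
    · exact neg_ne_zero.2 hs.ne'
  have e1 : xc = - xb := by
    have : h * (xb + xc) = 0 := by linarith
    rcases mul_eq_zero.1 this with h3 | h3
    · exact absurd h3 hh0
    · linarith
  rw [e1] at h2
  have e2 : (h + 2 * (t * h) + K) * xb = 0 := by linarith
  have e3 : 0 < h + 2 * (t * h) + K := by
    rcases hh with rfl | rfl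
    · have : 0 < s * (s + 1) := by positivity
      have : 0 < t * (s * (s + 1)) := by positivity
      nlinarith
    · nlinarith
  have e4 : xb = 0 := by
    rcases mul_eq_zero.1 e2 with h3 | h3
    · exact absurd h3 e3.ne'
    · exact h3
  exact ⟨e4, by rw [e1, e4]; simp⟩

lemma scal1 {s t K h xa xc : ℝ} (hs : 0 < s) (ht : 0 < t) (ht4 : t ≤ 1 / 4) (hK : t * K = 8 * s)
    (hK' : 32 * s ≤ K) (hh : h = s * (s + 1) ∨ h = - s)
    (h1 : h * (xa - 0) + h * (xa - xc) + K * xa = 0)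
    (h2 : - (h * (xa - 0)) + t * h * (0 - xc) + K * 0 = 0) : xa = 0 ∧ xc = 0 := by
  have hh0 : h ≠ 0 := by
    rcases hh with rfl | rfl
    · positivity
    · exact neg_ne_zero.2 hs.ne'
  have e1 : xa = - t * xc := by
    have : h * (xa + t * xc) = 0 := by linarith
    rcases mul_eq_zero.1 this with h3 | h3
    · exact absurd h3 hh0
    · linarith
  rw [e1] at h1
  have e2 : (h + t * K + 2 * (t * h)) * xc = 0 := by linarith
  have e3 : 0 < h + t * K + 2 * (t * h) := by
    rw [hK]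
    rcases hh with rfl | rfl
    · positivity
    · nlinarith
  have e4 : xc = 0 := by
    rcases mul_eq_zero.1 e2 with h3 | h3
    · exact absurd h3 e3.ne'
    · exact h3
  exact ⟨by rw [e1, e4]; simp, e4⟩

lemma scal2 {s t K h xa xb : ℝ} (hs : 0 < s) (ht : 0 < t) (ht4 : t ≤ 1 / 4) (hK : t * K = 8 * s)
    (hK' : 32 * s ≤ K) (hh : h = s * (s + 1) ∨ h = - s)
    (h1 : h * (xa - xb) + h * (xa - 0) + K * xa = 0)
    (h2 : - (h * (xa - xb)) + t * h * (xb - 0) + K * xb = 0) : xa = 0 ∧ xb = 0 := by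
  -- determinant of the 2x2 system
  have e1 : (2 * h + K) * xa = h * xb := by linarith
  have e2 : (h + t * h + K) * xb = h * xa := by linarith
  have e3 : ((2 * h + K) * (h + t * h + K) - h ^ 2) * xb = 0 := by
    have : (2 * h + K) * ((h + t * h + K) * xb) = (2 * h + K) * (h * xa) := by rw [e2]
    have h3 : (2 * h + K) * (h * xa) = h * (h * xb) := by rw [← e1]; ring
    rw [h3] at this
    linarith
  have e4 : 0 < (2 * h + K) * (h + t * h + K) - h ^ 2 := by
    rcases hh with rfl | rfl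
    · have a1 : 0 < s * (s + 1) := by positivity
      have a2 : 0 < t * (s * (s + 1)) := by positivity
      have a3 : 0 < K := by nlinarith
      nlinarith [mul_pos a1 a3, mul_pos a1 a2, mul_pos a3 a2, mul_pos a3 a3, mul_pos a1 a1]
    · have a1 : 30 * s ≤ 2 * (-s) + K := by linarith
      have a2 : 30 * s ≤ -s + t * (-s) + K := by nlinarith
      have : (30 * s) * (30 * s) ≤ (2 * (-s) + K) * (-s + t * (-s) + K) :=
        mul_le_mul a1 a2 (by positivity) (by linarith)
      nlinarith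
  have e5 : xb = 0 := by
    rcases mul_eq_zero.1 e3 with h3 | h3
    · exact absurd h3 e4.ne'
    · exact h3
  refine ⟨?_, e5⟩
  rw [e5, mul_zero] at e1
  rcases mul_eq_zero.1 e1 with h3 | h3
  · exfalso
    rcases hh with rfl | rfl
    · have : 0 < s * (s + 1) := by positivity
      linarith
    · linarith
  · exact h3

lemma hh_cases (i : Fin d) (s : ℝ) (k : Fin d) : hh i s k = s * (s + 1) ∨ hh i s k = - s := by
  unfold hh; split_ifs <;> simp

lemma dPsi_inj (i : Fin d) {s : ℝ} (hs : 0 < s) (p : V d × V d × V d) (hp : dPsi i s p = 0) :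
    p = 0 := by
  obtain ⟨a, b, c⟩ := p
  have h0 : a = 0 := congrArg (fun q : V d × V d × V d => q.1) hp
  have h1 : deq1 i s (a, b, c) = 0 := congrArg (fun q : V d × V d × V d => q.2.1) hp
  have h2 : deq2 i s (a, b, c) = 0 := congrArg (fun q : V d × V d × V d => q.2.2) hp
  subst h0
  have key : ∀ k, b k = 0 ∧ c k = 0 := by
    intro k
    have h1k := congrArg (fun v : V d => v k) h1
    have h2k := congrArg (fun v : V d => v k) h2
    simp only [deq1_apply, deq2_apply] at h1k h2k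
    exact scal0 hs (tt_pos s) (tt_le hs) KK_mul (KK_ge hs) (hh_cases i s k) (by simpa using h1k)
      (by simpa using h2k)
  have hb : b = 0 := by ext k; exact (key k).1
  have hc : c = 0 := by ext k; exact (key k).2
  rw [hb, hc]; rfl

noncomputable def LPsi (i : Fin d) {s : ℝ} (hs : 0 < s) : (V d × V d × V d) ≃L[ℝ] (V d × V d × V d) :=
  equivOfInj (dPsi i s) (dPsi_inj i hs)

lemma LPsi_coe (i : Fin d) {s : ℝ} (hs : 0 < s) :
    (LPsi i hs : (V d × V d × V d) →L[ℝ] (V d × V d × V d)) = dPsi i s := equivOfInj_coe _ _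

lemma Psi_cd (i : Fin d) (s : ℝ) : ContDiffAt ℝ ω (Psi i s) (P0 i) := by
  apply Psi_contDiffAt
  · simp [P0, ev_ne]
  · simp [P0, ev_ne]
  · have : (P0 i).2.1 - (P0 i).2.2 = (2 : ℝ) • ev i := by
      simp only [P0]; rw [two_smul]; abel
    rw [this]; exact two_smul_ev_ne i

lemma Psi_fd (i : Fin d) {s : ℝ} (hs : 0 < s) :
    HasFDerivAt (Psi i s) (LPsi i hs : (V d × V d × V d) →L[ℝ] (V d × V d × V d)) (P0 i) := by
  rw [LPsi_coe]; exact Psi_hasFDerivAt i s

noncomputable def PsiH (i : Fin d) {s : ℝ} (hs : 0 < s) :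
    OpenPartialHomeomorph (V d × V d × V d) (V d × V d × V d) :=
  (Psi_cd i s).toOpenPartialHomeomorph (Psi i s) (Psi_fd i hs) (by simp)

lemma PsiH_source (i : Fin d) {s : ℝ} (hs : 0 < s) : P0 i ∈ (PsiH i hs).source :=
  (Psi_cd i s).mem_toOpenPartialHomeomorph_source (Psi_fd i hs) (by simp)

lemma PsiH_target (i : Fin d) {s : ℝ} (hs : 0 < s) : (0, 0, 0) ∈ (PsiH i hs).target := by
  have := (Psi_cd i s).image_mem_toOpenPartialHomeomorph_target (Psi_fd i hs) (by simp)
  rwa [Psi_base] at this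

lemma PsiH_symm_zero (i : Fin d) {s : ℝ} (hs : 0 < s) : (PsiH i hs).symm (0, 0, 0) = P0 i := by
  have := (PsiH i hs).left_inv (PsiH_source i hs)
  have h2 : (PsiH i hs) (P0 i) = Psi i s (P0 i) := rfl
  rw [h2, Psi_base] at this
  exact this

lemma PsiH_symm_cd (i : Fin d) {s : ℝ} (hs : 0 < s) :
    ContDiffAt ℝ ω (PsiH i hs).symm (0, 0, 0) := by
  apply (PsiH i hs).contDiffAt_symm (f₀' := LPsi i hs) (PsiH_target i hs)
  · rw [PsiH_symm_zero]; exact Psi_fd i hs
  · rw [PsiH_symm_zero]; exact Psi_cd i s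

lemma PsiH_symm_fd (i : Fin d) {s : ℝ} (hs : 0 < s) :
    HasFDerivAt (PsiH i hs).symm
      ((LPsi i hs).symm : (V d × V d × V d) →L[ℝ] (V d × V d × V d)) (0, 0, 0) := by
  apply (PsiH i hs).hasFDerivAt_symm (PsiH_target i hs)
  rw [PsiH_symm_zero]; exact Psi_fd i hs

/-- `a ↦ β(a)` -/
noncomputable def bet (i : Fin d) {s : ℝ} (hs : 0 < s) (a : V d) : V d :=
  ((PsiH i hs).symm (a, 0, 0)).2.1

noncomputable def gam (i : Fin d) {s : ℝ} (hs : 0 < s) (a : V d) : V d :=
  ((PsiH i hs).symm (a, 0, 0)).2.2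

noncomputable def inl3 : V d →L[ℝ] V d × V d × V d := ContinuousLinearMap.inl ℝ (V d) (V d × V d)

lemma inl3_apply (a : V d) : inl3 a = (a, 0, 0) := rfl

lemma G_cd (i : Fin d) {s : ℝ} (hs : 0 < s) :
    ContDiffAt ℝ ω (fun a : V d => (PsiH i hs).symm (inl3 a)) 0 := by
  have h1 : ContDiffAt ℝ ω (PsiH i hs).symm (inl3 (0 : V d)) := PsiH_symm_cd i hs
  exact h1.comp (0 : V d) inl3.contDiff.contDiffAt

lemma G_fd (i : Fin d) {s : ℝ} (hs : 0 < s) :
    HasFDerivAt (fun a : V d => (PsiH i hs).symm (inl3 a))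
      (((LPsi i hs).symm : (V d × V d × V d) →L[ℝ] (V d × V d × V d)).comp inl3) 0 := by
  have h1 : HasFDerivAt (PsiH i hs).symm
      ((LPsi i hs).symm : (V d × V d × V d) →L[ℝ] (V d × V d × V d)) (inl3 (0 : V d)) :=
    PsiH_symm_fd i hs
  exact h1.comp (0 : V d) inl3.hasFDerivAt

lemma bet_cd (i : Fin d) {s : ℝ} (hs : 0 < s) : ContDiffAt ℝ ω (bet i hs) 0 :=
  contDiffAt_fst.comp _ (contDiffAt_snd.comp _ (G_cd i hs))

lemma gam_cd (i : Fin d) {s : ℝ} (hs : 0 < s) : ContDiffAt ℝ ω (gam i hs) 0 :=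
  contDiffAt_snd.comp _ (contDiffAt_snd.comp _ (G_cd i hs))

noncomputable def Dbet (i : Fin d) {s : ℝ} (hs : 0 < s) : V d →L[ℝ] V d :=
  ((ContinuousLinearMap.fst ℝ _ _).comp (ContinuousLinearMap.snd ℝ (V d) (V d × V d))).comp
    (((LPsi i hs).symm : (V d × V d × V d) →L[ℝ] (V d × V d × V d)).comp inl3)

noncomputable def Dgam (i : Fin d) {s : ℝ} (hs : 0 < s) : V d →L[ℝ] V d :=
  ((ContinuousLinearMap.snd ℝ _ _).comp (ContinuousLinearMap.snd ℝ (V d) (V d × V d))).comp
    (((LPsi i hs).symm : (V d × V d × V d) →L[ℝ] (V d × V d × V d)).comp inl3)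

lemma bet_fd (i : Fin d) {s : ℝ} (hs : 0 < s) : HasFDerivAt (bet i hs) (Dbet i hs) 0 := by
  have h := G_fd i hs
  exact (((ContinuousLinearMap.fst ℝ (V d) (V d)).comp
    (ContinuousLinearMap.snd ℝ (V d) (V d × V d))).hasFDerivAt).comp (0 : V d) h

lemma gam_fd (i : Fin d) {s : ℝ} (hs : 0 < s) : HasFDerivAt (gam i hs) (Dgam i hs) 0 := by
  have h := G_fd i hs
  exact (((ContinuousLinearMap.snd ℝ (V d) (V d)).comp
    (ContinuousLinearMap.snd ℝ (V d) (V d × V d))).hasFDerivAt).comp (0 : V d) h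

lemma LPsi_symm_spec (i : Fin d) {s : ℝ} (hs : 0 < s) (v : V d) :
    dPsi i s ((LPsi i hs).symm (inl3 v)) = (v, 0, 0) := by
  have h1 : (LPsi i hs) ((LPsi i hs).symm (inl3 v)) = inl3 v := (LPsi i hs).apply_symm_apply _
  exact h1

lemma Dbet_inj (i : Fin d) {s : ℝ} (hs : 0 < s) (v : V d) (hv : Dbet i hs v = 0) : v = 0 := by
  have hspec := LPsi_symm_spec i hs v
  set p := (LPsi i hs).symm (inl3 v) with hp
  have hb : p.2.1 = 0 := hv
  have h0 : p.1 = v := congrArg (fun q : V d × V d × V d => q.1) hspec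
  have h1 : deq1 i s p = 0 := congrArg (fun q : V d × V d × V d => q.2.1) hspec
  have h2 : deq2 i s p = 0 := congrArg (fun q : V d × V d × V d => q.2.2) hspec
  ext k
  have h1k := congrArg (fun v : V d => v k) h1
  have h2k := congrArg (fun v : V d => v k) h2
  simp only [deq1_apply, deq2_apply, h0, hb] at h1k h2k
  exact (scal1 hs (tt_pos s) (tt_le hs) KK_mul (KK_ge hs) (hh_cases i s k) (by simpa using h1k)
      (by simpa using h2k)).1

lemma Dgam_inj (i : Fin d) {s : ℝ} (hs : 0 < s) (v : V d) (hv : Dgam i hs v = 0) : v = 0 := by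
  have hspec := LPsi_symm_spec i hs v
  set p := (LPsi i hs).symm (inl3 v) with hp
  have hb : p.2.2 = 0 := hv
  have h0 : p.1 = v := congrArg (fun q : V d × V d × V d => q.1) hspec
  have h1 : deq1 i s p = 0 := congrArg (fun q : V d × V d × V d => q.2.1) hspec
  have h2 : deq2 i s p = 0 := congrArg (fun q : V d × V d × V d => q.2.2) hspec
  ext k
  have h1k := congrArg (fun v : V d => v k) h1
  have h2k := congrArg (fun v : V d => v k) h2
  simp only [deq1_apply, deq2_apply, h0, hb] at h1k h2k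
  exact (scal2 hs (tt_pos s) (tt_le hs) KK_mul (KK_ge hs) (hh_cases i s k) (by simpa using h1k)
      (by simpa using h2k)).1

lemma bet_zero (i : Fin d) {s : ℝ} (hs : 0 < s) : bet i hs 0 = ev i := by
  have := PsiH_symm_zero i hs
  have h2 : bet i hs 0 = ((PsiH i hs).symm (0, 0, 0)).2.1 := rfl
  rw [h2, this]; rfl

lemma gam_zero (i : Fin d) {s : ℝ} (hs : 0 < s) : gam i hs 0 = - ev i := by
  have := PsiH_symm_zero i hs
  have h2 : gam i hs 0 = ((PsiH i hs).symm (0, 0, 0)).2.2 := rfl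
  rw [h2, this]; rfl

lemma eqs_near (i : Fin d) {s : ℝ} (hs : 0 < s) : ∀ᶠ a in 𝓝 (0 : V d),
    eq1 s a (bet i hs a) (gam i hs a) = 0 ∧ eq2 i s a (bet i hs a) (gam i hs a) = 0 := by
  have h1 : ∀ᶠ q in 𝓝 ((0, 0, 0) : V d × V d × V d), q ∈ (PsiH i hs).target :=
    (PsiH i hs).open_target.mem_nhds (PsiH_target i hs)
  have h2 : Filter.Tendsto (fun a : V d => inl3 a) (𝓝 0) (𝓝 ((0, 0, 0) : V d × V d × V d)) :=
    inl3.continuous.tendsto 0
  filter_upwards [h2.eventually h1] with a ha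
  have h3 : (PsiH i hs) ((PsiH i hs).symm (a, 0, 0)) = (a, 0, 0) := (PsiH i hs).right_inv ha
  have h4 : Psi i s ((PsiH i hs).symm (a, 0, 0)) = (a, 0, 0) := h3
  have h5 : ((PsiH i hs).symm (a, 0, 0)).1 = a := congrArg (fun q : V d × V d × V d => q.1) h4
  have h6 := congrArg (fun q : V d × V d × V d => q.2.1) h4
  have h7 := congrArg (fun q : V d × V d × V d => q.2.2) h4
  simp only [Psi, h5] at h6 h7
  exact ⟨h6, h7⟩

end Crest.Agent.H1.MM
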