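import Mathlib
import Crest.Prelude.Def_MultiMarginal
import Crest.Agent.H1.MM2

set_option autoImplicit false
open scoped ContDiff RealInnerProductSpace Topology ENNReal
open MeasureTheory Crest.AnalysisR.OT

namespace Crest.Agent.H1.MM

variable {d : ℕ}

lemma contDiff_det {n : WithTop ℕ∞} : ContDiff ℝ n (fun A : V d →L[ℝ] V d => A.det) := by
  have h : (fun A : V d →L[ℝ] V d => A.det) = fun A : V d →L[ℝ] V d =>
      ∑ σ : Equiv.Perm (Fin d), (Equiv.Perm.sign σ : ℝ) * ∏ k, (A (ev k)) (σ k) := by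
    ext A
    have h1 : A.det = LinearMap.det (A : V d →ₗ[ℝ] V d) := rfl
    rw [h1, ← LinearMap.det_toMatrix (EuclideanSpace.basisFun (Fin d) ℝ).toBasis, Matrix.det_apply']
    refine Finset.sum_congr rfl (fun σ _ => ?_)
    congr 1
  rw [h]
  refine ContDiff.sum (fun σ _ => ?_)
  refine contDiff_const.mul (contDiff_prod (fun k _ => ?_))
  have h2 : ContDiff ℝ n (fun A : V d →L[ℝ] V d => A (ev k)) :=
    (ContinuousLinearMap.apply ℝ (V d) (ev k)).contDiff
  exact (EuclideanSpace.proj (𝕜 := ℝ) (σ k)).contDiff.comp h2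

lemma contDiffAt_sqrt_abs {n : WithTop ℕ∞} {F : V d → ℝ} {y : V d} (hF : ContDiffAt ℝ n F y)
    (h0 : F y ≠ 0) : ContDiffAt ℝ n (fun y => Real.sqrt |F y|) y := by
  have h1 : (fun y => Real.sqrt |F y|) = fun y => Real.sqrt (Real.sqrt (F y ^ 2)) := by
    ext y; rw [Real.sqrt_sq_eq_abs]
  rw [h1]
  have h2 : ContDiffAt ℝ n (fun y => F y ^ 2) y := hF.pow 2
  have h3 : F y ^ 2 ≠ 0 := pow_ne_zero 2 h0
  refine (h2.sqrt h3).sqrt ?_
  exact (Real.sqrt_pos.2 (lt_of_le_of_ne (sq_nonneg _) h3.symm)).ne'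

open Classical in
/-- transported root density -/
noncomputable def gpush (H : OpenPartialHomeomorph (V d) (V d)) (g : V d → ℝ) (y : V d) : ℝ :=
  if y ∈ H.target then g (H.symm y) * Real.sqrt |(fderiv ℝ H.symm y).det| else 0

variable {H : OpenPartialHomeomorph (V d) (V d)} {g : V d → ℝ} {r : ℝ}

lemma gpush_nonneg (hg : ∀ x, 0 ≤ g x) (y : V d) : 0 ≤ gpush H g y := by
  unfold gpush; split_ifs
  · exact mul_nonneg (hg _) (Real.sqrt_nonneg _)
  · exact le_rfl

/-- good data on the closed ball -/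
structure Good (H : OpenPartialHomeomorph (V d) (V d)) (r : ℝ) : Prop where
  sub : Metric.closedBall 0 r ⊆ H.source
  smooth : ∀ a ∈ Metric.closedBall (0 : V d) r, ContDiffAt ℝ ω H a
  smooth_symm : ∀ a ∈ Metric.closedBall (0 : V d) r, ContDiffAt ℝ ω H.symm (H a)

lemma Good.isCompact_image (hG : Good H r) : IsCompact (H '' Metric.closedBall 0 r) :=
  (isCompact_closedBall 0 r).image_of_continuousOn (H.continuousOn.mono hG.sub)

lemma Good.image_subset (hG : Good H r) : H '' Metric.closedBall 0 r ⊆ H.target := by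
  rintro _ ⟨a, ha, rfl⟩
  exact H.map_source (hG.sub ha)

lemma gpush_eq_zero (hgz : ∀ x, x ∉ Metric.closedBall (0 : V d) r → g x = 0)
    {y : V d} (hy : y ∉ H '' Metric.closedBall 0 r) : gpush H g y = 0 := by
  unfold gpush
  split_ifs with h
  · have : H.symm y ∉ Metric.closedBall (0 : V d) r := fun hc => hy ⟨_, hc, H.right_inv h⟩
    rw [hgz _ this, zero_mul]
  · rfl

lemma Good.symm_differentiableAt (hG : Good H r) {a : V d} (ha : a ∈ Metric.closedBall (0 : V d) r) :
    DifferentiableAt ℝ H.symm (H a) := (hG.smooth_symm a ha).differentiableAt (by simp)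

lemma Good.det_ne (hG : Good H r) {a : V d} (ha : a ∈ Metric.closedBall (0 : V d) r) :
    (fderiv ℝ H.symm (H a)).det ≠ 0 := by
  have h1 : HasFDerivAt H.symm (fderiv ℝ H.symm (H a)) (H a) :=
    (hG.symm_differentiableAt ha).hasFDerivAt
  have h2 : HasFDerivAt H (fderiv ℝ H a) a :=
    ((hG.smooth a ha).differentiableAt (by simp)).hasFDerivAt
  have h3 : HasFDerivAt (fun x => H.symm (H x)) ((fderiv ℝ H.symm (H a)).comp (fderiv ℝ H a)) a :=
    h1.comp a h2
  have h4 : (fun x => H.symm (H x)) =ᶠ[𝓝 a] id := by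
    filter_upwards [H.open_source.mem_nhds (hG.sub ha)] with x hx
    exact H.left_inv hx
  have h5 : HasFDerivAt (fun x => H.symm (H x)) (ContinuousLinearMap.id ℝ (V d)) a :=
    (hasFDerivAt_id a).congr_of_eventuallyEq h4
  have h6 := h3.unique h5
  intro h0
  have h7 : ((fderiv ℝ H.symm (H a)).comp (fderiv ℝ H a)).det = 1 := by
    rw [h6]
    exact LinearMap.det_id
  have h8 : ((fderiv ℝ H.symm (H a)).comp (fderiv ℝ H a)).det =
      (fderiv ℝ H.symm (H a)).det * (fderiv ℝ H a).det := by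
    exact LinearMap.det_comp _ _
  rw [h8, h0, zero_mul] at h7
  exact zero_ne_one h7

lemma gpush_contDiff (hG : Good H r) (hg : ContDiff ℝ ∞ g)
    (hgz : ∀ x, x ∉ Metric.closedBall (0 : V d) r → g x = 0) : ContDiff ℝ ∞ (gpush H g) := by
  rw [contDiff_iff_contDiffAt]
  intro y
  by_cases hy : y ∈ H '' Metric.closedBall 0 r
  · have hyt : y ∈ H.target := hG.image_subset hy
    obtain ⟨a, ha, rfl⟩ := hy
    have h1 : gpush H g =ᶠ[𝓝 (H a)] fun y => g (H.symm y) * Real.sqrt |(fderiv ℝ H.symm y).det| := by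
      filter_upwards [H.open_target.mem_nhds hyt] with y' hy'
      simp [gpush, hy']
    refine ContDiffAt.congr_of_eventuallyEq ?_ h1
    have hs := hG.smooth_symm a ha
    have hs' : ContDiffAt ℝ ∞ H.symm (H a) := hs.of_le (by exact le_top)
    have hfd : ContDiffAt ℝ ∞ (fderiv ℝ H.symm) (H a) := by
      have : ContDiffAt ℝ ω (fderiv ℝ H.symm) (H a) := hs.fderiv_right (by simp)
      exact this.of_le (by exact le_top)
    refine ContDiffAt.mul (hg.contDiffAt.comp _ hs') ?_
    exact contDiffAt_sqrt_abs (contDiff_det.contDiffAt.comp _ hfd) (hG.det_ne ha)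
  · have h1 : gpush H g =ᶠ[𝓝 y] fun _ => 0 := by
      filter_upwards [hG.isCompact_image.isClosed.isOpen_compl.mem_nhds hy] with y' hy'
      exact gpush_eq_zero hgz hy'
    exact contDiffAt_const.congr_of_eventuallyEq h1

lemma gpush_map (hG : Good H r) (hg : Continuous g)
    (hgz : ∀ x, x ∉ Metric.closedBall (0 : V d) r → g x = 0)
    (κ : ℝ) (φ : V d → V d) (hφ : Measurable φ)
    (hφH : ∀ a ∈ Metric.closedBall (0 : V d) r, φ a = H a) :
    (measOfDensity (fun x => κ * g x ^ 2)).map φ = measOfDensity (fun y => κ * gpush H g y ^ 2) := by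
  ext S hS
  have hKc : MeasurableSet (H '' Metric.closedBall 0 r) := hG.isCompact_image.isClosed.measurableSet
  rw [Measure.map_apply hφ hS, measOfDensity, measOfDensity, withDensity_apply _ (hφ hS),
    withDensity_apply _ hS]
  -- left side
  have hL : ∫⁻ x in φ ⁻¹' S, ENNReal.ofReal (κ * g x ^ 2) =
      ∫⁻ x in Metric.closedBall 0 r ∩ φ ⁻¹' S, ENNReal.ofReal (κ * g x ^ 2) := by
    rw [← lintegral_indicator (hφ hS), ← lintegral_indicator
      (Metric.isClosed_closedBall.measurableSet.inter (hφ hS))]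
    apply lintegral_congr
    intro x
    by_cases hx : x ∈ Metric.closedBall (0 : V d) r
    · by_cases hx' : x ∈ φ ⁻¹' S
      · rw [Set.indicator_of_mem hx', Set.indicator_of_mem (s := Metric.closedBall 0 r ∩ φ ⁻¹' S) (Set.mem_inter hx hx')]
      · rw [Set.indicator_of_notMem hx', Set.indicator_of_notMem (fun h => hx' h.2)]
    · rw [Set.indicator_of_notMem (s := Metric.closedBall 0 r ∩ φ ⁻¹' S) (fun h => hx h.1)]
      simp [Set.indicator, hgz x hx]
  have hR : ∫⁻ y in S, ENNReal.ofReal (κ * gpush H g y ^ 2) =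
      ∫⁻ y in S ∩ H '' Metric.closedBall 0 r, ENNReal.ofReal (κ * gpush H g y ^ 2) := by
    rw [← lintegral_indicator hS, ← lintegral_indicator (hS.inter hKc)]
    apply lintegral_congr
    intro y
    by_cases hy : y ∈ H '' Metric.closedBall 0 r
    · by_cases hy' : y ∈ S
      · rw [Set.indicator_of_mem hy', Set.indicator_of_mem (s := S ∩ H '' Metric.closedBall 0 r) (Set.mem_inter hy' hy)]
      · rw [Set.indicator_of_notMem hy', Set.indicator_of_notMem (fun h => hy' h.1)]
    · rw [Set.indicator_of_notMem (s := S ∩ H '' Metric.closedBall 0 r) (fun h => hy h.2)]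
      simp [Set.indicator, gpush_eq_zero hgz hy]
  rw [hL, hR]
  have himg : H.symm '' (S ∩ H '' Metric.closedBall 0 r) = Metric.closedBall 0 r ∩ φ ⁻¹' S := by
    ext x
    constructor
    · rintro ⟨y, ⟨hyS, a, ha, rfl⟩, rfl⟩
      rw [H.left_inv (hG.sub ha)]
      exact ⟨ha, by rw [Set.mem_preimage, hφH a ha]; exact hyS⟩
    · rintro ⟨hx, hxS⟩
      rw [Set.mem_preimage, hφH x hx] at hxS
      exact ⟨H x, ⟨hxS, x, hx, rfl⟩, H.left_inv (hG.sub hx)⟩
  rw [← himg]
  have hcv := lintegral_image_eq_lintegral_abs_det_fderiv_mul (volume : Measure (V d))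
    (s := S ∩ H '' Metric.closedBall 0 r) (f := H.symm) (f' := fderiv ℝ H.symm) (hS.inter hKc)
    (by
      rintro y ⟨_, a, ha, rfl⟩
      exact (hG.symm_differentiableAt ha).hasFDerivAt.hasFDerivWithinAt)
    (by
      rintro y ⟨_, a, ha, rfl⟩ y' ⟨_, a', ha', rfl⟩ h
      rw [H.left_inv (hG.sub ha), H.left_inv (hG.sub ha')] at h
      rw [h])
    (fun x => ENNReal.ofReal (κ * g x ^ 2))
  rw [hcv]
  refine setLIntegral_congr_fun (hS.inter hKc) ?_
  rintro y ⟨_, hy⟩
  have hyt := hG.image_subset hy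
  simp only [gpush, hyt, if_true]
  rw [← ENNReal.ofReal_mul (abs_nonneg _), mul_pow, Real.sq_sqrt (abs_nonneg _)]
  congr 1; ring

end Crest.Agent.H1.MM
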