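import Mathlib
import Crest.Prelude.Def_MultiMarginal
import Crest.Agent.Helper7.MapExists

set_option autoImplicit false
open scoped ENNReal
open MeasureTheory Crest.AnalysisR.OT

namespace Crest.Agent.H1.MM

section glue
variable {d : ℕ}

/-- Glue measure preserving maps between cells of a countable partition. -/
theorem glue (hd : 0 < d) (μ : Measure (EuclideanSpace ℝ (Fin d))) [IsFiniteMeasure μ]
    (hμ : μ.AbsolutelyContinuous volume) {ι : Type} [Countable ι] [MeasurableSpace ι]
    [MeasurableSingletonClass ι] (idx : EuclideanSpace ℝ (Fin d) → ι) (hidx : Measurable idx)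
    (τ : ι ≃ ι) (hτ : ∀ i, μ (idx ⁻¹' {i}) = μ (idx ⁻¹' {τ i})) :
    ∃ T : EuclideanSpace ℝ (Fin d) → EuclideanSpace ℝ (Fin d), Measurable T ∧ μ.map T = μ ∧
      ∀ᵐ x ∂μ, idx (T x) = τ (idx x) := by
  have hms : ∀ i, MeasurableSet (idx ⁻¹' {i}) := fun i => hidx (measurableSet_singleton i)
  have h1 : ∀ i, ∃ S : EuclideanSpace ℝ (Fin d) → EuclideanSpace ℝ (Fin d), Measurable S ∧
      (μ.restrict (idx ⁻¹' {i})).map S = μ.restrict (idx ⁻¹' {τ i}) := by
    intro i
    apply Crest.Agent.Helper7.exists_map_eq hd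
    · exact Measure.absolutelyContinuous_of_le_smul (c := 1)
        (by rw [one_smul]; exact Measure.restrict_le_self) |>.trans hμ
    · rw [Measure.restrict_apply_univ, Measure.restrict_apply_univ, hτ i]
  choose S hS hSm using h1
  have hT : Measurable (fun x => S (idx x) x) := by
    have h2 : Measurable (fun p : EuclideanSpace ℝ (Fin d) × ι => S p.2 p.1) :=
      measurable_from_prod_countable_left (fun i => hS i)
    exact h2.comp (measurable_id.prodMk hidx)
  have hsum : ∀ B : Set (EuclideanSpace ℝ (Fin d)), MeasurableSet B →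
      μ B = ∑' i, μ (idx ⁻¹' {i} ∩ B) := by
    intro B hB
    rw [← measure_iUnion]
    · congr 1
      ext x; simp
    · intro i j hij
      refine Set.disjoint_left.2 (fun x hx hx' => hij ?_)
      have h1 : idx x = i := hx.1
      have h2 : idx x = j := hx'.1
      rw [← h1, h2]
    · exact fun i => (hms i).inter hB
  refine ⟨fun x => S (idx x) x, hT, ?_, ?_⟩
  · ext B hB
    rw [Measure.map_apply hT hB, hsum _ (hT hB), hsum _ hB]
    have h3 : ∀ i, μ (idx ⁻¹' {i} ∩ (fun x => S (idx x) x) ⁻¹' B) = μ (idx ⁻¹' {τ i} ∩ B) := by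
      intro i
      have h4 : idx ⁻¹' {i} ∩ (fun x => S (idx x) x) ⁻¹' B = (S i) ⁻¹' B ∩ idx ⁻¹' {i} := by
        ext x
        simp only [Set.mem_inter_iff, Set.mem_preimage, Set.mem_singleton_iff]
        constructor
        · rintro ⟨h, h'⟩; exact ⟨h ▸ h', h⟩
        · rintro ⟨h, h'⟩; exact ⟨h', h'.symm ▸ h⟩
      rw [h4, ← Measure.restrict_apply (hS i hB), ← Measure.map_apply (hS i) hB, hSm i,
        Measure.restrict_apply hB, Set.inter_comm]
    simp_rw [h3]
    exact Equiv.tsum_eq τ (fun i => μ (idx ⁻¹' {i} ∩ B))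
  · have h5 : ∀ i, ∀ᵐ x ∂μ, idx x = i → idx (S i x) = τ i := by
      intro i
      have h6 : ∀ᵐ y ∂(μ.restrict (idx ⁻¹' {τ i})), idx y = τ i :=
        (ae_restrict_iff' (hms (τ i))).2 (Filter.Eventually.of_forall (fun y hy => hy))
      rw [← hSm i] at h6
      have h7 := ae_of_ae_map (hS i).aemeasurable h6
      exact (ae_restrict_iff' (hms i)).1 h7
    filter_upwards [ae_all_iff.2 h5] with x hx
    exact hx (idx x) rfl

/-- Split every cell of a countable partition in two halves. -/
theorem split (hd : 0 < d) (m : Measure (EuclideanSpace ℝ (Fin d))) [IsFiniteMeasure m]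
    (hm : m.AbsolutelyContinuous volume) {ι : Type} [Countable ι] [MeasurableSpace ι]
    [MeasurableSingletonClass ι] (q : EuclideanSpace ℝ (Fin d) → ι) (hq : Measurable q) :
    ∃ D : Set (EuclideanSpace ℝ (Fin d)), MeasurableSet D ∧
      (∀ i, m (q ⁻¹' {i} ∩ D) = m (q ⁻¹' {i}) / 2) ∧
      (∀ i, m (q ⁻¹' {i} ∩ Dᶜ) = m (q ⁻¹' {i}) / 2) := by
  have hms : ∀ i, MeasurableSet (q ⁻¹' {i}) := fun i => hq (measurableSet_singleton i)
  let i0 : Fin d := ⟨0, hd⟩
  let x0 : EuclideanSpace ℝ (Fin d) := 0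
  let y0 : EuclideanSpace ℝ (Fin d) := EuclideanSpace.single i0 1
  have hxy : y0 ≠ x0 := by
    intro h
    have := congrArg (fun v : EuclideanSpace ℝ (Fin d) => v i0) h
    simp [x0, y0] at this
  have h1 : ∀ i, ∃ S : EuclideanSpace ℝ (Fin d) → EuclideanSpace ℝ (Fin d), Measurable S ∧
      (m.restrict (q ⁻¹' {i})).map S =
        (m (q ⁻¹' {i}) / 2) • Measure.dirac x0 + (m (q ⁻¹' {i}) / 2) • Measure.dirac y0 := by
    intro i
    have hfin : m (q ⁻¹' {i}) / 2 ≠ ∞ := (ENNReal.div_lt_top (measure_ne_top _ _) (by simp)).ne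
    haveI : IsFiniteMeasure ((m (q ⁻¹' {i}) / 2) • Measure.dirac x0 +
        (m (q ⁻¹' {i}) / 2) • Measure.dirac y0) := by
      constructor
      simp only [Measure.add_apply, Measure.smul_apply, measure_univ, smul_eq_mul, mul_one]
      exact ENNReal.add_lt_top.2 ⟨hfin.lt_top, hfin.lt_top⟩
    apply Crest.Agent.Helper7.exists_map_eq hd
    · exact Measure.absolutelyContinuous_of_le_smul (c := 1)
        (by rw [one_smul]; exact Measure.restrict_le_self) |>.trans hm
    · simp only [Measure.restrict_apply_univ, Measure.add_apply, Measure.smul_apply, measure_univ,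
        smul_eq_mul, mul_one]
      exact (ENNReal.add_halves _).symm
  choose S hS hSm using h1
  have hT : Measurable (fun x => S (q x) x) := by
    have h2 : Measurable (fun p : EuclideanSpace ℝ (Fin d) × ι => S p.2 p.1) :=
      measurable_from_prod_countable_left (fun i => hS i)
    exact h2.comp (measurable_id.prodMk hq)
  have key : ∀ i (B : Set (EuclideanSpace ℝ (Fin d))), MeasurableSet B →
      m (q ⁻¹' {i} ∩ (fun x => S (q x) x) ⁻¹' B) = ((m (q ⁻¹' {i}) / 2) • Measure.dirac x0 +
        (m (q ⁻¹' {i}) / 2) • Measure.dirac y0) B := by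
    intro i B hB
    have h4 : q ⁻¹' {i} ∩ (fun x => S (q x) x) ⁻¹' B = (S i) ⁻¹' B ∩ q ⁻¹' {i} := by
      ext x
      simp only [Set.mem_inter_iff, Set.mem_preimage, Set.mem_singleton_iff]
      constructor
      · rintro ⟨h, h'⟩; exact ⟨h ▸ h', h⟩
      · rintro ⟨h, h'⟩; exact ⟨h', h'.symm ▸ h⟩
    rw [h4, ← Measure.restrict_apply (hS i hB), ← Measure.map_apply (hS i) hB, hSm i]
  refine ⟨(fun x => S (q x) x) ⁻¹' {x0}, hT (measurableSet_singleton _), ?_, ?_⟩
  · intro i
    rw [key i _ (measurableSet_singleton _)]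
    simp [Measure.dirac_apply' _ (measurableSet_singleton x0), hxy]
  · intro i
    rw [← Set.preimage_compl, key i _ (measurableSet_singleton _).compl]
    simp [Measure.dirac_apply' _ (measurableSet_singleton x0).compl, hxy]

end glue

end Crest.Agent.H1.MM
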