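import Mathlib
import Crest.Prelude.Def_MultiMarginal
import Crest.Agent.H1.MM5

set_option autoImplicit false
open scoped ENNReal
open MeasureTheory Crest.AnalysisR.OT

namespace Crest.Agent.H1.MM

section cost
variable {E : Type*} [NormedAddCommGroup E]

lemma pairCost_comm (s : ℝ) (x y : E) : pairCost s x y = pairCost s y x := by
  unfold pairCost; rw [norm_sub_rev]

lemma tc_swap12 (s : ℝ) (x y z : E) : tripleCost s (x, y, z) = tripleCost s (y, x, z) := by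
  unfold tripleCost
  simp only [pairCost_comm s x y]
  ring

lemma tc_swap23 (s : ℝ) (x y z : E) : tripleCost s (x, y, z) = tripleCost s (x, z, y) := by
  unfold tripleCost
  simp only [pairCost_comm s y z]
  ring

lemma tc_rot (s : ℝ) (x y z : E) : tripleCost s (x, y, z) = tripleCost s (y, z, x) := by
  rw [tc_swap12, tc_swap23]

lemma measurable_tc [MeasurableSpace E] [BorelSpace E] [SecondCountableTopology E] (s : ℝ) :
    Measurable (fun p : E × E × E => tripleCost s p) := by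
  unfold tripleCost pairCost
  fun_prop

end cost

/-- Abstract data for the construction. -/
structure Data (d : ℕ) (s : ℝ) where
  m : Measure (EuclideanSpace ℝ (Fin d))
  fin : IsFiniteMeasure m
  A : Set (EuclideanSpace ℝ (Fin d))
  hA : MeasurableSet A
  hmA : ∀ᵐ a ∂m, a ∈ A
  hm : m.AbsolutelyContinuous volume
  hm1 : m Set.univ = 6⁻¹
  χ : Fin 2 → Fin 3 → EuclideanSpace ℝ (Fin d) → EuclideanSpace ℝ (Fin d)
  hχ : ∀ t k, Measurable (χ t k)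
  χ0 : ∀ t a, χ t 0 a = a
  ψ : EuclideanSpace ℝ (Fin d) → EuclideanSpace ℝ (Fin d)
  hψ : Measurable ψ
  hψχ : ∀ t k, ∀ a ∈ A, ψ (χ t k a) = a
  O : Fin 2 → Fin 3 → Set (EuclideanSpace ℝ (Fin d))
  hO : ∀ t k, MeasurableSet (O t k)
  hχO : ∀ t k, ∀ a ∈ A, χ t k a ∈ O t k
  hdisj : ∀ t k t' k' x, x ∈ O t k → x ∈ O t' k' → k = k' ∧ (k = 0 ∨ t = t')
  X : Set (EuclideanSpace ℝ (Fin d))
  hX : MeasurableSet X
  hX_iff : ∀ x, x ∈ X ↔ ∃ t k, ∃ a ∈ A, x = χ t k a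
  v : EuclideanSpace ℝ (Fin d) → ℝ≥0∞
  hv : Measurable v
  B : ℝ≥0∞
  hB : B ≠ ∞
  hvB : ∀ x, v x ≤ B
  c3 : ℝ≥0∞
  hc3 : c3 ≠ ∞
  key : ∀ x₁ ∈ X, ∀ x₂ ∈ X, ∀ x₃ ∈ X, v x₁ + v x₂ + v x₃ ≤ tripleCost s (x₁, x₂, x₃) + c3
  key_eq : ∀ x₁ ∈ X, ∀ x₂ ∈ X, ∀ x₃ ∈ X, v x₁ + v x₂ + v x₃ = tripleCost s (x₁, x₂, x₃) + c3 →
    ∃ t, ∃ σ : Equiv.Perm (Fin 3), ∃ a ∈ A, x₁ = χ t (σ 0) a ∧ x₂ = χ t (σ 1) a ∧ x₃ = χ t (σ 2) a
  contact : ∀ t, ∀ a ∈ A, tripleCost s (χ t 0 a, χ t 1 a, χ t 2 a) + c3 =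
    v (χ t 0 a) + v (χ t 1 a) + v (χ t 2 a)
  near : ∀ ε : ℝ≥0∞, 0 < ε → ∃ δ : ℝ, 0 < δ ∧ ∀ t, ∀ a₀ ∈ A, ∀ a₁ ∈ A, ∀ a₂ ∈ A,
    dist a₀ a₁ < δ → dist a₀ a₂ < δ → dist a₁ a₂ < δ →
    tripleCost s (χ t 0 a₀, χ t 1 a₁, χ t 2 a₂) + c3 ≤
      v (χ t 0 a₀) + v (χ t 1 a₁) + v (χ t 2 a₂) + ε

namespace Data

variable {d : ℕ} {s : ℝ} (D : Data d s)

instance : IsFiniteMeasure D.m := D.fin

noncomputable def mu : Measure (EuclideanSpace ℝ (Fin d)) := ∑ t, ∑ k, D.m.map (D.χ t k)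

lemma mu_apply (S : Set (EuclideanSpace ℝ (Fin d))) (hS : MeasurableSet S) :
    D.mu S = ∑ t, ∑ k, D.m ((D.χ t k) ⁻¹' S) := by
  simp only [mu, Measure.finsetSum_apply]
  refine Finset.sum_congr rfl (fun t _ => Finset.sum_congr rfl (fun k _ => ?_))
  rw [Measure.map_apply (D.hχ t k) hS]

lemma lintegral_mu {g : EuclideanSpace ℝ (Fin d) → ℝ≥0∞} (hg : Measurable g) :
    ∫⁻ x, g x ∂D.mu = ∑ t, ∑ k, ∫⁻ a, g (D.χ t k a) ∂D.m := by
  simp only [mu, lintegral_finset_sum_measure]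
  refine Finset.sum_congr rfl (fun t _ => Finset.sum_congr rfl (fun k _ => ?_))
  rw [lintegral_map hg (D.hχ t k)]

lemma map_le_mu (t : Fin 2) (k : Fin 3) : D.m.map (D.χ t k) ≤ D.mu := by
  intro S
  simp only [mu, Measure.finsetSum_apply]
  refine (Finset.single_le_sum (f := fun k => D.m.map (D.χ t k) S) (fun _ _ => zero_le)
    (Finset.mem_univ k)).trans ?_
  exact Finset.single_le_sum (f := fun t => ∑ k, D.m.map (D.χ t k) S) (fun _ _ => zero_le)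
    (Finset.mem_univ t)

lemma ae_of_ae_mu {p : EuclideanSpace ℝ (Fin d) → Prop} (h : ∀ᵐ x ∂D.mu, p x) (t : Fin 2)
    (k : Fin 3) : ∀ᵐ a ∂D.m, p (D.χ t k a) := by
  have h1 : ∀ᵐ x ∂(D.m.map (D.χ t k)), p x := ae_mono (D.map_le_mu t k) h
  exact ae_of_ae_map (D.hχ t k).aemeasurable h1

lemma ae_mu_mem : ∀ᵐ x ∂D.mu, x ∈ D.X := by
  rw [ae_iff]
  have : {x | x ∉ D.X} = D.Xᶜ := rfl
  rw [this, D.mu_apply _ D.hX.compl]
  refine Finset.sum_eq_zero (fun t _ => Finset.sum_eq_zero (fun k _ => ?_))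
  have h1 := D.hmA
  rw [ae_iff] at h1
  refine measure_mono_null ?_ h1
  intro a ha hA
  exact ha ((D.hX_iff _).2 ⟨t, k, a, hA, rfl⟩)

instance : IsProbabilityMeasure D.mu := by
  constructor
  rw [D.mu_apply _ MeasurableSet.univ]
  simp only [Set.preimage_univ, D.hm1, Finset.sum_const, Finset.card_univ, Fintype.card_fin,
    nsmul_eq_mul]
  rw [← mul_assoc]
  norm_num
  exact ENNReal.mul_inv_cancel (by norm_num) (by norm_num)

lemma tcm : Measurable (fun p : EuclideanSpace ℝ (Fin d) × EuclideanSpace ℝ (Fin d) ×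
  EuclideanSpace ℝ (Fin d) => tripleCost s p) := measurable_tc s

/-- the sum of potentials -/
noncomputable def vs (p : EuclideanSpace ℝ (Fin d) × EuclideanSpace ℝ (Fin d) ×
  EuclideanSpace ℝ (Fin d)) : ℝ≥0∞ := D.v p.1 + D.v p.2.1 + D.v p.2.2

lemma measurable_vs : Measurable D.vs := by
  have := D.hv
  unfold vs
  fun_prop

lemma lintegral_vs (π : Measure (EuclideanSpace ℝ (Fin d) × EuclideanSpace ℝ (Fin d) ×
    EuclideanSpace ℝ (Fin d))) (hπ : IsCoupling₃ D.mu π) :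
    ∫⁻ p, D.vs p ∂π = 3 * ∫⁻ x, D.v x ∂D.mu := by
  have hv := D.hv
  have m1 : Measurable (fun p : EuclideanSpace ℝ (Fin d) × EuclideanSpace ℝ (Fin d) ×
    EuclideanSpace ℝ (Fin d) => D.v p.1) := by fun_prop
  have m2 : Measurable (fun p : EuclideanSpace ℝ (Fin d) × EuclideanSpace ℝ (Fin d) ×
    EuclideanSpace ℝ (Fin d) => D.v p.2.1) := by fun_prop
  unfold vs
  have m12 : Measurable (fun p : EuclideanSpace ℝ (Fin d) × EuclideanSpace ℝ (Fin d) ×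
    EuclideanSpace ℝ (Fin d) => D.v p.1 + D.v p.2.1) := by fun_prop
  rw [lintegral_add_left m12, lintegral_add_left m1]
  have e1 : ∫⁻ p, D.v p.1 ∂π = ∫⁻ x, D.v x ∂D.mu := by
    rw [← hπ.1, lintegral_map hv (by fun_prop)]
  have e2 : ∫⁻ p, D.v p.2.1 ∂π = ∫⁻ x, D.v x ∂D.mu := by
    rw [← hπ.2.1, lintegral_map hv (by fun_prop)]
  have e3 : ∫⁻ p, D.v p.2.2 ∂π = ∫⁻ x, D.v x ∂D.mu := by
    rw [← hπ.2.2, lintegral_map hv (by fun_prop)]
  rw [e1, e2, e3]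
  ring

lemma coupling_univ {π : Measure (EuclideanSpace ℝ (Fin d) × EuclideanSpace ℝ (Fin d) ×
    EuclideanSpace ℝ (Fin d))} (hπ : IsCoupling₃ D.mu π) : π Set.univ = 1 := by
  have h : D.mu Set.univ = 1 := measure_univ
  rw [← hπ.1, Measure.map_apply (by fun_prop) MeasurableSet.univ] at h
  simpa using h

lemma coupling_ae {π : Measure (EuclideanSpace ℝ (Fin d) × EuclideanSpace ℝ (Fin d) ×
    EuclideanSpace ℝ (Fin d))} (hπ : IsCoupling₃ D.mu π) :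
    ∀ᵐ p ∂π, p.1 ∈ D.X ∧ p.2.1 ∈ D.X ∧ p.2.2 ∈ D.X := by
  have h := D.ae_mu_mem
  have h1 : ∀ᵐ p ∂π, p.1 ∈ D.X := by
    have := h; rw [← hπ.1] at this
    exact ae_of_ae_map (by fun_prop) this
  have h2 : ∀ᵐ p ∂π, p.2.1 ∈ D.X := by
    have := h; rw [← hπ.2.1] at this
    exact ae_of_ae_map (f := fun p : EuclideanSpace ℝ (Fin d) × EuclideanSpace ℝ (Fin d) ×
      EuclideanSpace ℝ (Fin d) => p.2.1) (by fun_prop) this
  have h3 : ∀ᵐ p ∂π, p.2.2 ∈ D.X := by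
    have := h; rw [← hπ.2.2] at this
    exact ae_of_ae_map (f := fun p : EuclideanSpace ℝ (Fin d) × EuclideanSpace ℝ (Fin d) ×
      EuclideanSpace ℝ (Fin d) => p.2.2) (by fun_prop) this
  filter_upwards [h1, h2, h3] with p a b c
  exact ⟨a, b, c⟩

lemma lintegral_add_c3 {Ω : Type*} [MeasurableSpace Ω] (P : Measure Ω) (hP : P Set.univ = 1)
    (g : Ω → ℝ≥0∞) (hg : Measurable g) :
    ∫⁻ p, (g p + D.c3) ∂P = ∫⁻ p, g p ∂P + D.c3 := by
  rw [lintegral_add_left hg, lintegral_const, hP, mul_one]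

/-- **duality** -/
lemma dual_le {π : Measure (EuclideanSpace ℝ (Fin d) × EuclideanSpace ℝ (Fin d) ×
    EuclideanSpace ℝ (Fin d))} (hπ : IsCoupling₃ D.mu π) :
    3 * ∫⁻ x, D.v x ∂D.mu ≤ ∫⁻ p, tripleCost s p ∂π + D.c3 := by
  rw [← D.lintegral_vs π hπ, ← D.lintegral_add_c3 π (D.coupling_univ hπ) _ (measurable_tc s)]
  apply lintegral_mono_ae
  filter_upwards [D.coupling_ae hπ] with p hp
  exact D.key _ hp.1 _ hp.2.1 _ hp.2.2

/-- the optimal plan -/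
noncomputable def pi0 : Measure (EuclideanSpace ℝ (Fin d) × EuclideanSpace ℝ (Fin d) ×
    EuclideanSpace ℝ (Fin d)) :=
  ∑ t, ∑ k : Fin 3, D.m.map (fun a => (D.χ t k a, D.χ t (k + 1) a, D.χ t (k + 2) a))

lemma meas_tri (t : Fin 2) (k : Fin 3) :
    Measurable (fun a => (D.χ t k a, D.χ t (k + 1) a, D.χ t (k + 2) a)) :=
  (D.hχ t k).prodMk ((D.hχ t (k + 1)).prodMk (D.hχ t (k + 2)))

lemma pi0_coupling : IsCoupling₃ D.mu D.pi0 := by
  refine ⟨?_, ?_, ?_⟩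
  · ext S hS
    rw [Measure.map_apply (by fun_prop) hS, D.mu_apply S hS]
    simp only [pi0, Measure.finsetSum_apply]
    refine Finset.sum_congr rfl (fun t _ => Finset.sum_congr rfl (fun k _ => ?_))
    rw [Measure.map_apply (D.meas_tri t k) ((by fun_prop : Measurable fun p : EuclideanSpace ℝ (Fin d) × EuclideanSpace ℝ (Fin d) ×
    EuclideanSpace ℝ (Fin d) => p.1) hS)]
    rfl
  · ext S hS
    rw [Measure.map_apply (by fun_prop) hS, D.mu_apply S hS]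
    simp only [pi0, Measure.finsetSum_apply]
    refine Finset.sum_congr rfl (fun t _ => ?_)
    rw [← Equiv.sum_comp (Equiv.addRight (1 : Fin 3)) (fun k => D.m ((D.χ t k) ⁻¹' S))]
    refine Finset.sum_congr rfl (fun k _ => ?_)
    rw [Measure.map_apply (D.meas_tri t k) ((by fun_prop : Measurable fun p : EuclideanSpace ℝ (Fin d) × EuclideanSpace ℝ (Fin d) ×
    EuclideanSpace ℝ (Fin d) => p.2.1) hS)]
    rfl
  · ext S hS
    rw [Measure.map_apply (by fun_prop) hS, D.mu_apply S hS]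
    simp only [pi0, Measure.finsetSum_apply]
    refine Finset.sum_congr rfl (fun t _ => ?_)
    rw [← Equiv.sum_comp (Equiv.addRight (2 : Fin 3)) (fun k => D.m ((D.χ t k) ⁻¹' S))]
    refine Finset.sum_congr rfl (fun k _ => ?_)
    rw [Measure.map_apply (D.meas_tri t k) ((by fun_prop : Measurable fun p : EuclideanSpace ℝ (Fin d) × EuclideanSpace ℝ (Fin d) ×
    EuclideanSpace ℝ (Fin d) => p.2.2) hS)]
    rfl

lemma contact_rot (t : Fin 2) (k : Fin 3) (a : EuclideanSpace ℝ (Fin d)) (ha : a ∈ D.A) :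
    tripleCost s (D.χ t k a, D.χ t (k + 1) a, D.χ t (k + 2) a) + D.c3 =
      D.v (D.χ t k a) + D.v (D.χ t (k + 1) a) + D.v (D.χ t (k + 2) a) := by
  have h := D.contact t a ha
  fin_cases k
  · exact h
  · have h2 : tripleCost s (D.χ t 1 a, D.χ t 2 a, D.χ t 0 a) = tripleCost s (D.χ t 0 a, D.χ t 1 a, D.χ t 2 a) :=
      (tc_rot s _ _ _).symm
    change tripleCost s (D.χ t 1 a, D.χ t 2 a, D.χ t 0 a) + D.c3 =
      D.v (D.χ t 1 a) + D.v (D.χ t 2 a) + D.v (D.χ t 0 a)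
    rw [h2, h]; ring
  · have h2 : tripleCost s (D.χ t 2 a, D.χ t 0 a, D.χ t 1 a) = tripleCost s (D.χ t 0 a, D.χ t 1 a, D.χ t 2 a) :=
      (tc_rot s _ _ _)
    change tripleCost s (D.χ t 2 a, D.χ t 0 a, D.χ t 1 a) + D.c3 =
      D.v (D.χ t 2 a) + D.v (D.χ t 0 a) + D.v (D.χ t 1 a)
    rw [h2, h]; ring

lemma pi0_cost : ∫⁻ p, tripleCost s p ∂D.pi0 + D.c3 = 3 * ∫⁻ x, D.v x ∂D.mu := by
  rw [← D.lintegral_vs D.pi0 D.pi0_coupling,
    ← D.lintegral_add_c3 D.pi0 (D.coupling_univ D.pi0_coupling) _ (measurable_tc s)]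
  simp only [pi0, lintegral_finset_sum_measure]
  refine Finset.sum_congr rfl (fun t _ => Finset.sum_congr rfl (fun k _ => ?_))
  rw [lintegral_map ((measurable_tc s).add_const _) (D.meas_tri t k),
    lintegral_map D.measurable_vs (D.meas_tri t k)]
  apply lintegral_congr_ae
  filter_upwards [D.hmA] with a ha
  exact D.contact_rot t k a ha

lemma lintegral_v_ne_top : 3 * ∫⁻ x, D.v x ∂D.mu ≠ ∞ := by
  refine ENNReal.mul_ne_top (by norm_num) ?_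
  refine ne_top_of_le_ne_top (b := ∫⁻ _x, D.B ∂D.mu) ?_ (lintegral_mono D.hvB)
  rw [lintegral_const, measure_univ, mul_one]
  exact D.hB

lemma pi0_cost_lt_top : ∫⁻ p, tripleCost s p ∂D.pi0 < ∞ := by
  have h := D.pi0_cost
  have h2 := D.lintegral_v_ne_top
  rw [← h] at h2
  exact (ENNReal.add_ne_top.1 h2).1.lt_top

lemma pi0_min {π : Measure (EuclideanSpace ℝ (Fin d) × EuclideanSpace ℝ (Fin d) ×
    EuclideanSpace ℝ (Fin d))} (hπ : IsCoupling₃ D.mu π) :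
    ∫⁻ p, tripleCost s p ∂D.pi0 ≤ ∫⁻ p, tripleCost s p ∂π := by
  have h := D.dual_le hπ
  rw [← D.pi0_cost] at h
  exact (ENNReal.add_le_add_iff_right D.hc3).1 h

end Data

end Crest.Agent.H1.MM
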