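import Mathlib
import Crest.Prelude.Def_MultiMarginal
import Crest.Agent.H1.MM6

set_option autoImplicit false
open scoped ENNReal
open MeasureTheory Crest.AnalysisR.OT

namespace Crest.Agent.H1.MM

namespace Data

variable {d : ℕ} {s : ℝ} (D : Data d s)

/-- if `x = χ t k a` with `a ∈ A` and `x ∈ O t' k'` then the indices agree. -/
lemma idx_unique {t t' : Fin 2} {k k' : Fin 3} {a : EuclideanSpace ℝ (Fin d)} (ha : a ∈ D.A)
    (hx : D.χ t k a ∈ D.O t' k') : k = k' ∧ (k = 0 ∨ t = t') :=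
  D.hdisj t k t' k' _ (D.hχO t k a ha) hx

lemma perm3 (σ : Equiv.Perm (Fin 3)) (h0 : σ 0 = 0) : (σ 1 = 1 ∧ σ 2 = 2) ∨ (σ 1 = 2 ∧ σ 2 = 1) := by
  revert σ; decide

lemma perm3' (σ : Equiv.Perm (Fin 3)) (h0 : σ 0 = 2) : σ 1 = 1 ∨ σ 2 = 1 := by
  revert σ; decide

/-- Contact structure for a Monge plan which is not strictly costlier. -/
lemma monge_contact {T₂ T₃ : EuclideanSpace ℝ (Fin d) → EuclideanSpace ℝ (Fin d)}
    (h2 : Measurable T₂) (h3 : Measurable T₃) (hm2 : D.mu.map T₂ = D.mu) (hm3 : D.mu.map T₃ = D.mu)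
    (hle : ∫⁻ x, tripleCost s (x, T₂ x, T₃ x) ∂D.mu ≤ ∫⁻ p, tripleCost s p ∂D.pi0) :
    ∀ᵐ x ∂D.mu, ∃ t, ∃ σ : Equiv.Perm (Fin 3), ∃ a ∈ D.A, x = D.χ t (σ 0) a ∧
      T₂ x = D.χ t (σ 1) a ∧ T₃ x = D.χ t (σ 2) a := by
  have hv := D.hv
  have hT : Measurable (fun x => (x, T₂ x, T₃ x)) := measurable_id.prodMk (h2.prodMk h3)
  have hc : Measurable (fun x => tripleCost s (x, T₂ x, T₃ x)) := (measurable_tc s).comp hT
  have hvs : ∫⁻ x, D.vs (x, T₂ x, T₃ x) ∂D.mu = 3 * ∫⁻ x, D.v x ∂D.mu := by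
    unfold vs
    have m1 : Measurable (fun x => D.v x + D.v (T₂ x)) := by fun_prop
    rw [lintegral_add_left m1, lintegral_add_left hv]
    have e2 : ∫⁻ x, D.v (T₂ x) ∂D.mu = ∫⁻ x, D.v x ∂D.mu := by
      conv_rhs => rw [← hm2, lintegral_map hv h2]
    have e3 : ∫⁻ x, D.v (T₃ x) ∂D.mu = ∫⁻ x, D.v x ∂D.mu := by
      conv_rhs => rw [← hm3, lintegral_map hv h3]
    rw [e2, e3]; ring
  have hX := D.ae_mu_mem
  have hX2 : ∀ᵐ x ∂D.mu, T₂ x ∈ D.X := by
    have := hX; rw [← hm2] at this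
    exact ae_of_ae_map h2.aemeasurable this
  have hX3 : ∀ᵐ x ∂D.mu, T₃ x ∈ D.X := by
    have := hX; rw [← hm3] at this
    exact ae_of_ae_map h3.aemeasurable this
  have hae : (fun x => D.vs (x, T₂ x, T₃ x)) =ᵐ[D.mu]
      fun x => tripleCost s (x, T₂ x, T₃ x) + D.c3 := by
    apply ae_eq_of_ae_le_of_lintegral_le
    · filter_upwards [hX, hX2, hX3] with x a b c
      exact D.key _ a _ b _ c
    · rw [hvs]; exact D.lintegral_v_ne_top
    · exact (hc.add_const _).aemeasurable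
    · rw [hvs, D.lintegral_add_c3 D.mu measure_univ _ hc, ← D.pi0_cost]
      gcongr
  filter_upwards [hae, hX, hX2, hX3] with x hx a b c
  obtain ⟨t, σ, a', ha', e1, e2, e3⟩ := D.key_eq _ a _ b _ c hx
  exact ⟨t, σ, a', ha', e1, e2, e3⟩

/-- **No Monge minimiser.** -/
theorem no_monge {T₂ T₃ : EuclideanSpace ℝ (Fin d) → EuclideanSpace ℝ (Fin d)}
    (h2 : Measurable T₂) (h3 : Measurable T₃) (hm2 : D.mu.map T₂ = D.mu) (hm3 : D.mu.map T₃ = D.mu) :
    ∫⁻ p, tripleCost s p ∂D.pi0 < ∫⁻ x, tripleCost s (x, T₂ x, T₃ x) ∂D.mu := by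
  by_contra hcon
  have hle := not_lt.1 hcon
  have hcont := D.monge_contact h2 h3 hm2 hm3 hle
  -- contact at `a`
  have hc0 : ∀ᵐ a ∂D.m, ∃ t, (T₂ a = D.χ t 1 a ∧ T₃ a = D.χ t 2 a) ∨
      (T₂ a = D.χ t 2 a ∧ T₃ a = D.χ t 1 a) := by
    filter_upwards [D.ae_of_ae_mu hcont 0 0, D.hmA] with a ha haA
    obtain ⟨t, σ, a', ha', e1, e2, e3⟩ := ha
    rw [D.χ0] at e1 e2 e3
    have hmem : D.χ t (σ 0) a' ∈ D.O 0 0 := by
      rw [← e1]; have := D.hχO 0 0 a haA; rwa [D.χ0] at this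
    have h0 := (D.idx_unique ha' hmem).1
    have haa : a = a' := by rw [e1, h0, D.χ0]
    subst haa
    refine ⟨t, ?_⟩
    rcases perm3 σ h0 with ⟨p1, p2⟩ | ⟨p1, p2⟩
    · left; rw [p1] at e2; rw [p2] at e3; exact ⟨e2, e3⟩
    · right; rw [p1] at e2; rw [p2] at e3; exact ⟨e2, e3⟩
  -- contact at `χ t 2 a`
  have hc2 : ∀ t, ∀ᵐ a ∂D.m, T₂ (D.χ t 2 a) = D.χ t 1 a ∨ T₃ (D.χ t 2 a) = D.χ t 1 a := by
    intro t
    filter_upwards [D.ae_of_ae_mu hcont t 2, D.hmA] with a ha haA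
    obtain ⟨t', σ, a', ha', e1, e2, e3⟩ := ha
    have hmem : D.χ t' (σ 0) a' ∈ D.O t 2 := by
      rw [← e1]; exact D.hχO t 2 a haA
    have h0 := D.idx_unique ha' hmem
    have ht : t' = t := by
      rcases h0.2 with h | h
      · rw [h0.1] at h; exact absurd h (by decide)
      · exact h
    subst ht
    have haa : a = a' := by
      have := congrArg D.ψ e1
      rwa [D.hψχ _ _ _ haA, D.hψχ _ _ _ ha'] at this
    subst haa
    rcases perm3' σ h0.1 with p | p
    · left; rw [p] at e2; exact e2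
    · right; rw [p] at e3; exact e3
  -- the sets
  let At : Fin 2 → Set (EuclideanSpace ℝ (Fin d)) := fun t => D.A ∩ T₂ ⁻¹' (D.O t 1 ∪ D.O t 2)
  have hAt : ∀ t, MeasurableSet (At t) := fun t => D.hA.inter (h2 ((D.hO t 1).union (D.hO t 2)))
  let St : Fin 2 → Set (EuclideanSpace ℝ (Fin d)) := fun t => D.O t 1 ∩ D.ψ ⁻¹' (At t)
  have hSt : ∀ t, MeasurableSet (St t) := fun t => (D.hO t 1).inter (D.hψ (hAt t))
  have hmuS : ∀ t, D.mu (St t) = D.m (At t) := by
    intro t
    rw [D.mu_apply _ (hSt t), Finset.sum_eq_single t, Finset.sum_eq_single (1 : Fin 3)]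
    · apply measure_congr
      filter_upwards [D.hmA] with a ha
      apply propext
      change (D.χ t 1 a ∈ D.O t 1 ∧ D.ψ (D.χ t 1 a) ∈ At t) ↔ a ∈ At t
      rw [D.hψχ _ _ _ ha]
      exact ⟨fun h => h.2, fun h => ⟨D.hχO t 1 a ha, h⟩⟩
    · intro k _ hk
      have h1 := D.hmA
      rw [ae_iff] at h1
      refine measure_mono_null ?_ h1
      intro a ha hA
      exact hk (D.idx_unique hA ha.1).1
    · simp
    · intro t' _ ht'
      refine Finset.sum_eq_zero (fun k _ => ?_)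
      have h1 := D.hmA
      rw [ae_iff] at h1
      refine measure_mono_null ?_ h1
      intro a ha hA
      have h4 := D.idx_unique hA ha.1
      rcases h4.2 with h5 | h5
      · rw [h4.1] at h5; exact absurd h5 (by decide)
      · exact ht' h5
    · simp
  have hzero : ∀ t, D.m (At t) = 0 := by
    intro t
    have e2 : D.mu (T₂ ⁻¹' St t) = D.m (At t) := by
      rw [← hmuS t, ← Measure.map_apply h2 (hSt t), hm2]
    have e3 : D.mu (T₃ ⁻¹' St t) = D.m (At t) := by
      rw [← hmuS t, ← Measure.map_apply h3 (hSt t), hm3]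
    -- lower bounds
    have l0 : D.m (At t) ≤ D.m (T₂ ⁻¹' St t) + D.m (T₃ ⁻¹' St t) := by
      refine le_trans ?_ (measure_union_le _ _)
      apply measure_mono_ae
      filter_upwards [hc0, D.hmA] with a ha haA haAt
      change a ∈ At t at haAt
      obtain ⟨t', ha⟩ := ha
      have ht : t' = t := by
        have hT : T₂ a ∈ D.O t 1 ∪ D.O t 2 := haAt.2
        rcases ha with ⟨q, _⟩ | ⟨q, _⟩
        · rw [q] at hT
          rcases hT with hT | hT
          · rcases (D.idx_unique haA hT).2 with h5 | h5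
            · exact absurd h5 (by decide)
            · exact h5
          · exact absurd (D.idx_unique haA hT).1 (by decide)
        · rw [q] at hT
          rcases hT with hT | hT
          · exact absurd (D.idx_unique haA hT).1 (by decide)
          · rcases (D.idx_unique haA hT).2 with h5 | h5
            · exact absurd h5 (by decide)
            · exact h5
      subst ht
      have hS : D.χ t' 1 a ∈ St t' := by
        refine ⟨D.hχO t' 1 a haA, ?_⟩
        rw [Set.mem_preimage, D.hψχ _ _ _ haA]; exact haAt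
      rcases ha with ⟨q, _⟩ | ⟨_, q⟩
      · left; change T₂ a ∈ St t'; rw [q]; exact hS
      · right; change T₃ a ∈ St t'; rw [q]; exact hS
    have l2 : D.m (At t) ≤ D.m ((D.χ t 2) ⁻¹' (T₂ ⁻¹' St t)) + D.m ((D.χ t 2) ⁻¹' (T₃ ⁻¹' St t)) := by
      refine le_trans ?_ (measure_union_le _ _)
      apply measure_mono_ae
      filter_upwards [hc2 t, D.hmA] with a ha haA haAt
      change a ∈ At t at haAt
      have hS : D.χ t 1 a ∈ St t := by
        refine ⟨D.hχO t 1 a haA, ?_⟩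
        rw [Set.mem_preimage, D.hψχ _ _ _ haA]; exact haAt
      rcases ha with q | q
      · left; change T₂ (D.χ t 2 a) ∈ St t; rw [q]; exact hS
      · right; change T₃ (D.χ t 2 a) ∈ St t; rw [q]; exact hS
    have low : ∀ T : EuclideanSpace ℝ (Fin d) → EuclideanSpace ℝ (Fin d), Measurable T →
        2 * D.m (T ⁻¹' St t) + D.m ((D.χ t 2) ⁻¹' (T ⁻¹' St t)) ≤ D.mu (T ⁻¹' St t) := by
      intro T hT
      rw [D.mu_apply _ (hT (hSt t))]
      have hk : ∀ t' : Fin 2, ∑ k, D.m ((D.χ t' k) ⁻¹' (T ⁻¹' St t)) =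
          D.m (T ⁻¹' St t) + D.m ((D.χ t' 1) ⁻¹' (T ⁻¹' St t)) +
            D.m ((D.χ t' 2) ⁻¹' (T ⁻¹' St t)) := by
        intro t'
        rw [Fin.sum_univ_three]
        have : D.χ t' 0 = id := by ext1 a; exact D.χ0 t' a
        rw [this]; rfl
      simp only [hk, Fin.sum_univ_two]
      fin_cases t
      · simp only [Fin.zero_eta, Fin.isValue]
        rw [two_mul]
        have a1 : ∀ x y z w u : ℝ≥0∞, x + x + y ≤ x + z + y + (x + w + u) := by
          intro x y z w u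
          calc x + x + y ≤ (x + x + y) + (z + w + u) := le_self_add
            _ = x + z + y + (x + w + u) := by ring
        exact a1 _ _ _ _ _
      · simp only [Fin.mk_one, Fin.isValue]
        rw [two_mul]
        have a1 : ∀ x y z w u : ℝ≥0∞, x + x + y ≤ x + z + w + (x + u + y) := by
          intro x y z w u
          calc x + x + y ≤ (x + x + y) + (z + w + u) := le_self_add
            _ = x + z + w + (x + u + y) := by ring
        exact a1 _ _ _ _ _
    have tot := add_le_add (low T₂ h2) (low T₃ h3)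
    rw [e2, e3] at tot
    have h7 : 3 * D.m (At t) ≤ 2 * D.m (At t) := by
      calc 3 * D.m (At t) = 2 * D.m (At t) + D.m (At t) := by ring
        _ ≤ 2 * (D.m (T₂ ⁻¹' St t) + D.m (T₃ ⁻¹' St t)) +
            (D.m ((D.χ t 2) ⁻¹' (T₂ ⁻¹' St t)) + D.m ((D.χ t 2) ⁻¹' (T₃ ⁻¹' St t))) := by gcongr
        _ = _ := by ring
        _ ≤ D.m (At t) + D.m (At t) := tot
        _ = 2 * D.m (At t) := by ring
    by_contra h0
    have h8 : (2 : ℝ≥0∞) * D.m (At t) < 3 * D.m (At t) := by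
      rw [ENNReal.mul_lt_mul_iff_left h0 (measure_ne_top _ _)]
      norm_num
    exact absurd h7 (not_le.2 h8)
  -- contradiction
  have hall : ∀ᵐ a ∂D.m, a ∈ At 0 ∪ At 1 := by
    filter_upwards [hc0, D.hmA] with a ha haA
    obtain ⟨t, ha⟩ := ha
    have : a ∈ At t := by
      refine ⟨haA, ?_⟩
      rcases ha with ⟨q, _⟩ | ⟨q, _⟩
      · change T₂ a ∈ D.O t 1 ∪ D.O t 2; rw [q]; left; exact D.hχO t 1 a haA
      · change T₂ a ∈ D.O t 1 ∪ D.O t 2; rw [q]; right; exact D.hχO t 2 a haA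
    fin_cases t
    · left; exact this
    · right; exact this
  have h1 : D.m Set.univ = 0 := by
    have h2 : D.m Set.univ ≤ D.m (At 0 ∪ At 1) := by
      apply measure_mono_ae
      filter_upwards [hall] with a ha _
      exact ha
    have h3 : D.m (At 0 ∪ At 1) ≤ 0 := by
      refine (measure_union_le _ _).trans ?_
      rw [hzero, hzero]; simp
    exact le_antisymm (h2.trans h3) bot_le
  rw [D.hm1] at h1
  simp at h1

end Data

end Crest.Agent.H1.MM
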