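import Mathlib
import Crest.Prelude.Def_MultiMarginal
import Crest.Agent.H1.MM7

set_option autoImplicit false
open scoped ENNReal
open MeasureTheory Crest.AnalysisR.OT

namespace Crest.Agent.H1.MM

section grid
variable {d : ℕ}

/-- the grid cell of a point -/
noncomputable def cell (h : ℝ) (x : EuclideanSpace ℝ (Fin d)) : Fin d → ℤ := fun k => ⌊x k / h⌋

lemma measurable_cell (h : ℝ) : Measurable (cell (d := d) h) := by
  unfold cell
  rw [measurable_pi_iff]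
  intro k
  have : Measurable (fun x : EuclideanSpace ℝ (Fin d) => x k / h) := by fun_prop
  exact this.floor

lemma dist_lt_of_cell_eq {h : ℝ} (hh : 0 < h) {x y : EuclideanSpace ℝ (Fin d)}
    (hxy : cell h x = cell h y) : dist x y ≤ h * Real.sqrt d := by
  rw [EuclideanSpace.dist_eq]
  have h1 : ∀ k, dist (x k) (y k) ^ 2 ≤ h ^ 2 := by
    intro k
    have h2 : ⌊x k / h⌋ = ⌊y k / h⌋ := congrFun hxy k
    have h3 := Int.abs_sub_lt_one_of_floor_eq_floor h2
    rw [← sub_div, abs_div, abs_of_pos hh, div_lt_one hh] at h3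
    rw [Real.dist_eq]
    have := abs_nonneg (x k - y k)
    nlinarith
  calc Real.sqrt (∑ k, dist (x k) (y k) ^ 2) ≤ Real.sqrt (∑ _k : Fin d, h ^ 2) :=
        Real.sqrt_le_sqrt (Finset.sum_le_sum (fun k _ => h1 k))
    _ = h * Real.sqrt d := by
        rw [Finset.sum_const, Finset.card_univ, Fintype.card_fin, nsmul_eq_mul, mul_comm,
          Real.sqrt_mul (sq_nonneg h), Real.sqrt_sq hh.le]

end grid

namespace Data

variable {d : ℕ} {s : ℝ} (D : Data d s)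

lemma near_rot {ε : ℝ≥0∞} {δ : ℝ} (hδ : ∀ t, ∀ a₀ ∈ D.A, ∀ a₁ ∈ D.A, ∀ a₂ ∈ D.A,
    dist a₀ a₁ < δ → dist a₀ a₂ < δ → dist a₁ a₂ < δ →
    tripleCost s (D.χ t 0 a₀, D.χ t 1 a₁, D.χ t 2 a₂) + D.c3 ≤
      D.v (D.χ t 0 a₀) + D.v (D.χ t 1 a₁) + D.v (D.χ t 2 a₂) + ε) (t : Fin 2) (k : Fin 3)
    {a a' a'' : EuclideanSpace ℝ (Fin d)} (ha : a ∈ D.A) (ha' : a' ∈ D.A) (ha'' : a'' ∈ D.A)
    (h1 : dist a a' < δ) (h2 : dist a a'' < δ) (h3 : dist a' a'' < δ) :
    tripleCost s (D.χ t k a, D.χ t (k + 1) a', D.χ t (k + 2) a'') + D.c3 ≤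
      D.v (D.χ t k a) + D.v (D.χ t (k + 1) a') + D.v (D.χ t (k + 2) a'') + ε := by
  fin_cases k
  · exact hδ t a ha a' ha' a'' ha'' h1 h2 h3
  · change tripleCost s (D.χ t 1 a, D.χ t 2 a', D.χ t 0 a'') + D.c3 ≤
      D.v (D.χ t 1 a) + D.v (D.χ t 2 a') + D.v (D.χ t 0 a'') + ε
    rw [← tc_rot s (D.χ t 0 a'')]
    have := hδ t a'' ha'' a ha a' ha' (by rwa [dist_comm]) (by rwa [dist_comm]) h1
    refine this.trans (le_of_eq ?_)
    ring
  · change tripleCost s (D.χ t 2 a, D.χ t 0 a', D.χ t 1 a'') + D.c3 ≤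
      D.v (D.χ t 2 a) + D.v (D.χ t 0 a') + D.v (D.χ t 1 a'') + ε
    rw [tc_rot s (D.χ t 2 a)]
    have := hδ t a' ha' a'' ha'' a ha h3 (by rwa [dist_comm]) (by rwa [dist_comm])
    refine this.trans (le_of_eq ?_)
    ring

open Classical in
/-- type of a point -/
noncomputable def kk (x : EuclideanSpace ℝ (Fin d)) : Fin 3 :=
  if x ∈ D.O 0 0 then 0 else if x ∈ D.O 0 1 ∪ D.O 1 1 then 1 else 2

open Classical in
noncomputable def tty (H : Set (EuclideanSpace ℝ (Fin d))) (x : EuclideanSpace ℝ (Fin d)) : Fin 2 :=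
  if x ∈ D.O 0 0 then (if x ∈ H then 0 else 1) else if x ∈ D.O 0 1 ∪ D.O 0 2 then 0 else 1

lemma measurable_kk : Measurable D.kk := by
  unfold kk
  exact Measurable.ite (D.hO 0 0) measurable_const
    (Measurable.ite ((D.hO 0 1).union (D.hO 1 1)) measurable_const measurable_const)

lemma measurable_tty {H : Set (EuclideanSpace ℝ (Fin d))} (hH : MeasurableSet H) :
    Measurable (D.tty H) := by
  unfold tty
  exact Measurable.ite (D.hO 0 0) (Measurable.ite hH measurable_const measurable_const)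
    (Measurable.ite ((D.hO 0 1).union (D.hO 0 2)) measurable_const measurable_const)

lemma kk_spec {t : Fin 2} {k : Fin 3} {a : EuclideanSpace ℝ (Fin d)} (ha : a ∈ D.A) :
    D.kk (D.χ t k a) = k := by
  unfold kk
  by_cases h0 : D.χ t k a ∈ D.O 0 0
  · rw [if_pos h0]; exact (D.idx_unique ha h0).1.symm
  rw [if_neg h0]
  by_cases h1 : D.χ t k a ∈ D.O 0 1 ∪ D.O 1 1
  · rw [if_pos h1]
    rcases h1 with h | h <;> exact (D.idx_unique ha h).1.symm
  rw [if_neg h1]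
  have h2 := D.hχO t k a ha
  fin_cases k
  · exfalso; apply h0
    have h3 := D.hχO 0 0 a ha
    simp only [Fin.zero_eta, D.χ0] at h3 ⊢
    exact h3
  · exfalso; apply h1
    fin_cases t
    · left; exact h2
    · right; exact h2
  · rfl

lemma tty_spec {H : Set (EuclideanSpace ℝ (Fin d))} {t : Fin 2} {k : Fin 3}
    {a : EuclideanSpace ℝ (Fin d)} (ha : a ∈ D.A) (hk : k ≠ 0) : D.tty H (D.χ t k a) = t := by
  unfold tty
  have h0 : D.χ t k a ∉ D.O 0 0 := fun h => hk (D.idx_unique ha h).1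
  rw [if_neg h0]
  have h2 := D.hχO t k a ha
  by_cases h1 : D.χ t k a ∈ D.O 0 1 ∪ D.O 0 2
  · rw [if_pos h1]
    rcases h1 with h | h
    · rcases (D.idx_unique ha h).2 with h3 | h3
      · exact absurd h3 hk
      · exact h3.symm
    · rcases (D.idx_unique ha h).2 with h3 | h3
      · exact absurd h3 hk
      · exact h3.symm
  · rw [if_neg h1]
    fin_cases t
    · exfalso; apply h1
      fin_cases k
      · exact absurd rfl hk
      · left; exact h2
      · right; exact h2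
    · rfl

lemma tty_spec0 {H : Set (EuclideanSpace ℝ (Fin d))} {a : EuclideanSpace ℝ (Fin d)} (ha : a ∈ D.A) :
    (D.tty H a = 0 ↔ a ∈ H) ∧ (D.tty H a = 1 ↔ a ∉ H) := by
  unfold tty
  have h3 := D.hχO 0 0 a ha
  rw [D.χ0] at h3
  rw [if_pos h3]
  by_cases h : a ∈ H
  · simp [h]
  · simp [h]

/-- the index of a point -/
noncomputable def idx (h : ℝ) (H : Set (EuclideanSpace ℝ (Fin d))) (x : EuclideanSpace ℝ (Fin d)) :
    (Fin d → ℤ) × Fin 2 × Fin 3 := (cell h (D.ψ x), D.tty H x, D.kk x)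

lemma measurable_idx (h : ℝ) {H : Set (EuclideanSpace ℝ (Fin d))} (hH : MeasurableSet H) :
    Measurable (D.idx h H) :=
  ((measurable_cell h).comp D.hψ).prodMk ((D.measurable_tty hH).prodMk D.measurable_kk)

lemma idx_mem (h : ℝ) {H : Set (EuclideanSpace ℝ (Fin d))} {x : EuclideanSpace ℝ (Fin d)}
    (hx : x ∈ D.X) {n : Fin d → ℤ} {t : Fin 2} {k : Fin 3} (hi : D.idx h H x = (n, t, k)) :
    ∃ a ∈ D.A, cell h a = n ∧ x = D.χ t k a := by
  obtain ⟨t', k', a, ha, rfl⟩ := (D.hX_iff x).1 hx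
  have e1 : cell h (D.ψ (D.χ t' k' a)) = n := congrArg (fun q => q.1) hi
  have e2 : D.tty H (D.χ t' k' a) = t := congrArg (fun q => q.2.1) hi
  have e3 : D.kk (D.χ t' k' a) = k := congrArg (fun q => q.2.2) hi
  rw [D.hψχ _ _ _ ha] at e1
  rw [D.kk_spec ha] at e3
  subst e3
  refine ⟨a, ha, e1, ?_⟩
  by_cases hk : k' = 0
  · subst hk; rw [D.χ0, D.χ0]
  · rw [D.tty_spec ha hk] at e2; rw [e2]

lemma cell_measure (h : ℝ) {H : Set (EuclideanSpace ℝ (Fin d))} (hH : MeasurableSet H)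
    (hH1 : ∀ i, D.m ((cell h) ⁻¹' {i} ∩ H) = D.m ((cell h) ⁻¹' {i}) / 2)
    (hH2 : ∀ i, D.m ((cell h) ⁻¹' {i} ∩ Hᶜ) = D.m ((cell h) ⁻¹' {i}) / 2)
    (n : Fin d → ℤ) (t : Fin 2) (k : Fin 3) :
    D.mu ((D.idx h H) ⁻¹' {(n, t, k)}) = D.m ((cell h) ⁻¹' {n}) := by
  have hms := D.measurable_idx h hH (measurableSet_singleton (n, t, k))
  rw [D.mu_apply _ hms]
  have hA0 := D.hmA
  rw [ae_iff] at hA0
  by_cases hk : k = 0
  · subst hk
    have h1 : ∀ t' : Fin 2, ∀ k' : Fin 3, k' ≠ 0 →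
        D.m ((D.χ t' k') ⁻¹' ((D.idx h H) ⁻¹' {(n, t, 0)})) = 0 := by
      intro t' k' hk'
      refine measure_mono_null ?_ hA0
      intro a ha hA
      have e3 : D.kk (D.χ t' k' a) = 0 := congrArg (fun q => q.2.2) ha
      rw [D.kk_spec hA] at e3
      exact hk' e3
    have h2 : ∀ t' : Fin 2, D.m ((D.χ t' 0) ⁻¹' ((D.idx h H) ⁻¹' {(n, t, 0)})) =
        D.m ((cell h) ⁻¹' {n}) / 2 := by
      intro t'
      have hid : D.χ t' 0 = id := by ext1 a; exact D.χ0 t' a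
      rw [hid, Set.preimage_id]
      have hψ0 : ∀ a ∈ D.A, D.ψ a = a := by
        intro a ha
        have := D.hψχ 0 0 a ha
        rwa [D.χ0] at this
      have hkk0 : ∀ a ∈ D.A, D.kk a = 0 := by
        intro a ha
        have := D.kk_spec (t := 0) (k := 0) ha
        rwa [D.χ0] at this
      have ht : t = 0 ∨ t = 1 := by fin_cases t <;> simp
      rcases ht with rfl | rfl
      · rw [← hH1 n]
        apply measure_congr
        filter_upwards [D.hmA] with a ha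
        apply propext
        change (D.idx h H a = (n, 0, 0)) ↔ (cell h a = n ∧ a ∈ H)
        unfold idx
        rw [hψ0 a ha, hkk0 a ha, Prod.mk.injEq, Prod.mk.injEq, (D.tty_spec0 ha).1]
        tauto
      · rw [← hH2 n]
        apply measure_congr
        filter_upwards [D.hmA] with a ha
        apply propext
        change (D.idx h H a = (n, 1, 0)) ↔ (cell h a = n ∧ a ∉ H)
        unfold idx
        rw [hψ0 a ha, hkk0 a ha, Prod.mk.injEq, Prod.mk.injEq, (D.tty_spec0 ha).2]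
        tauto
    simp only [Fin.sum_univ_two, Fin.sum_univ_three, h2, h1 _ 1 (by decide), h1 _ 2 (by decide),
      add_zero]
    exact ENNReal.add_halves _
  · rw [Finset.sum_eq_single t, Finset.sum_eq_single k]
    · apply measure_congr
      filter_upwards [D.hmA] with a ha
      apply propext
      change (D.idx h H (D.χ t k a) = (n, t, k)) ↔ (cell h a = n)
      unfold idx
      rw [D.hψχ _ _ _ ha, D.kk_spec ha, D.tty_spec ha hk, Prod.mk.injEq, Prod.mk.injEq]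
      tauto
    · intro k' _ hk'
      refine measure_mono_null ?_ hA0
      intro a ha hA
      have e3 : D.kk (D.χ t k' a) = k := congrArg (fun q => q.2.2) ha
      rw [D.kk_spec hA] at e3
      exact hk' e3
    · simp
    · intro t' _ ht'
      refine Finset.sum_eq_zero (fun k' _ => ?_)
      refine measure_mono_null ?_ hA0
      intro a ha hA
      have e3 : D.kk (D.χ t' k' a) = k := congrArg (fun q => q.2.2) ha
      have e2 : D.tty H (D.χ t' k' a) = t := congrArg (fun q => q.2.1) ha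
      rw [D.kk_spec hA] at e3
      subst e3
      rw [D.tty_spec hA hk] at e2
      exact ht' e2
    · simp

/-- shifting the last index -/
def shift (c : Fin 3) : ((Fin d → ℤ) × Fin 2 × Fin 3) ≃ ((Fin d → ℤ) × Fin 2 × Fin 3) :=
  Equiv.prodCongr (Equiv.refl _) (Equiv.prodCongr (Equiv.refl _) (Equiv.addRight c))

/-- **Approximation by Monge plans.** -/
theorem approx (hd : 0 < d) (hac : D.mu.AbsolutelyContinuous volume) (ε : ℝ≥0∞) (hε : 0 < ε) :
    ∃ T₂ T₃ : EuclideanSpace ℝ (Fin d) → EuclideanSpace ℝ (Fin d), Measurable T₂ ∧ Measurable T₃ ∧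
      D.mu.map T₂ = D.mu ∧ D.mu.map T₃ = D.mu ∧
      ∫⁻ x, tripleCost s (x, T₂ x, T₃ x) ∂D.mu < ∫⁻ p, tripleCost s p ∂D.pi0 + ε := by
  obtain ⟨ε', hε', hε'ε, hε'1⟩ : ∃ ε' : ℝ≥0∞, 0 < ε' ∧ ε' < ε ∧ ε' ≠ ∞ := by
    obtain ⟨ε', h1, h2⟩ := exists_between hε
    exact ⟨ε', h1, h2, (lt_of_lt_of_le h2 le_top).ne⟩
  obtain ⟨δ, hδ0, hδ⟩ := D.near ε' hε'
  -- grid size
  obtain ⟨h, hh0, hh⟩ : ∃ h : ℝ, 0 < h ∧ h * Real.sqrt d < δ := by
    refine ⟨δ / (2 * (Real.sqrt d + 1)), by positivity, ?_⟩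
    rw [div_mul_eq_mul_div, div_lt_iff₀ (by positivity)]
    have := Real.sqrt_nonneg (d : ℝ)
    nlinarith
  obtain ⟨H, hH, hH1, hH2⟩ := split hd D.m D.hm (cell h) (measurable_cell h)
  have hidx := D.measurable_idx h hH
  have hcell : ∀ c : Fin 3, ∀ i, D.mu ((D.idx h H) ⁻¹' {i}) = D.mu ((D.idx h H) ⁻¹' {shift c i}) := by
    rintro c ⟨n, t, k⟩
    rw [D.cell_measure h hH hH1 hH2, show shift c (n, t, k) = (n, t, k + c) from rfl,
      D.cell_measure h hH hH1 hH2]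
  obtain ⟨T₂, hT₂, hm₂, hi₂⟩ := glue hd D.mu hac (D.idx h H) hidx (shift 1) (hcell 1)
  obtain ⟨T₃, hT₃, hm₃, hi₃⟩ := glue hd D.mu hac (D.idx h H) hidx (shift 2) (hcell 2)
  refine ⟨T₂, T₃, hT₂, hT₃, hm₂, hm₃, ?_⟩
  have hv := D.hv
  have hT : Measurable (fun x => (x, T₂ x, T₃ x)) := measurable_id.prodMk (hT₂.prodMk hT₃)
  have hc : Measurable (fun x => tripleCost s (x, T₂ x, T₃ x)) := (measurable_tc s).comp hT
  have hX := D.ae_mu_mem
  have hX2 : ∀ᵐ x ∂D.mu, T₂ x ∈ D.X := by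
    have := hX; rw [← hm₂] at this
    exact ae_of_ae_map hT₂.aemeasurable this
  have hX3 : ∀ᵐ x ∂D.mu, T₃ x ∈ D.X := by
    have := hX; rw [← hm₃] at this
    exact ae_of_ae_map hT₃.aemeasurable this
  have hpt : ∀ᵐ x ∂D.mu, tripleCost s (x, T₂ x, T₃ x) + D.c3 ≤
      D.v x + D.v (T₂ x) + D.v (T₃ x) + ε' := by
    filter_upwards [hX, hX2, hX3, hi₂, hi₃] with x hx hx2 hx3 hj2 hj3
    obtain ⟨⟨n, t, k⟩, hi⟩ : ∃ i, D.idx h H x = i := ⟨_, rfl⟩
    rw [hi] at hj2 hj3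
    obtain ⟨a, ha, hca, hxa⟩ := D.idx_mem h hx hi
    obtain ⟨a', ha', hca', hxa'⟩ := D.idx_mem h hx2 hj2
    obtain ⟨a'', ha'', hca'', hxa''⟩ := D.idx_mem h hx3 hj3
    have e2 : T₂ x = D.χ t (k + 1) a' := hxa'
    have e3 : T₃ x = D.χ t (k + 2) a'' := hxa''
    rw [e2, e3, hxa]
    change cell h a' = n at hca'
    change cell h a'' = n at hca''
    exact D.near_rot hδ t k ha ha' ha''
      (lt_of_le_of_lt (dist_lt_of_cell_eq hh0 (hca.trans hca'.symm)) hh)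
      (lt_of_le_of_lt (dist_lt_of_cell_eq hh0 (hca.trans hca''.symm)) hh)
      (lt_of_le_of_lt (dist_lt_of_cell_eq hh0 (hca'.trans hca''.symm)) hh)
  have hI : ∫⁻ x, tripleCost s (x, T₂ x, T₃ x) ∂D.mu + D.c3 ≤
      (∫⁻ p, tripleCost s p ∂D.pi0 + ε') + D.c3 := by
    rw [← D.lintegral_add_c3 D.mu measure_univ _ hc]
    refine (lintegral_mono_ae hpt).trans ?_
    have m1 : Measurable (fun x => D.v x + D.v (T₂ x)) := by fun_prop
    have m2 : Measurable (fun x => D.v x + D.v (T₂ x) + D.v (T₃ x)) := by fun_prop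
    rw [lintegral_add_left m2, lintegral_add_left m1, lintegral_add_left hv]
    have e2 : ∫⁻ x, D.v (T₂ x) ∂D.mu = ∫⁻ x, D.v x ∂D.mu := by
      conv_rhs => rw [← hm₂, lintegral_map hv hT₂]
    have e3 : ∫⁻ x, D.v (T₃ x) ∂D.mu = ∫⁻ x, D.v x ∂D.mu := by
      conv_rhs => rw [← hm₃, lintegral_map hv hT₃]
    rw [e2, e3, lintegral_const, measure_univ, mul_one]
    have := D.pi0_cost
    calc ∫⁻ x, D.v x ∂D.mu + ∫⁻ x, D.v x ∂D.mu + ∫⁻ x, D.v x ∂D.mu + ε'
        = 3 * ∫⁻ x, D.v x ∂D.mu + ε' := by ring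
      _ = (∫⁻ p, tripleCost s p ∂D.pi0 + ε') + D.c3 := by rw [← this]; ring
      _ ≤ _ := le_rfl
  have hI2 := (ENNReal.add_le_add_iff_right D.hc3).1 hI
  refine lt_of_le_of_lt hI2 ?_
  exact ENNReal.add_lt_add_left D.pi0_cost_lt_top.ne hε'ε

end Data

end Crest.Agent.H1.MM
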