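import Mathlib
import Crest.Prelude.Def_MultiMarginal
import Crest.Agent.H1.MM3
import Crest.Agent.H1.MM4
import Crest.Agent.H1.MM8

set_option autoImplicit false
open scoped ENNReal ContDiff RealInnerProductSpace Topology
open MeasureTheory Crest.AnalysisR.OT

namespace Crest.Agent.H1.MM

variable {d : ℕ}

/-- swap of two coordinates -/
noncomputable def Rsw (i j : Fin d) : V d ≃ₗᵢ[ℝ] V d :=
  LinearIsometryEquiv.piLpCongrLeft 2 ℝ ℝ (Equiv.swap i j)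

lemma Rsw_ev (i j : Fin d) : Rsw i j (ev i) = ev j := by
  unfold Rsw ev
  rw [EuclideanSpace.piLpCongrLeft_single, Equiv.swap_apply_left]

lemma Rsw_Rsw (i j : Fin d) (x : V d) : Rsw i j (Rsw i j x) = x := by
  ext k
  simp [Rsw, LinearIsometryEquiv.piLpCongrLeft_apply]

/-- the local diffeomorphism `β` -/
noncomputable def Hb (i : Fin d) {s : ℝ} (hs : 0 < s) : OpenPartialHomeomorph (V d) (V d) :=
  (bet_cd i hs).toOpenPartialHomeomorph (bet i hs) (f' := equivOfInj (Dbet i hs) (Dbet_inj i hs))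
    (by rw [equivOfInj_coe]; exact bet_fd i hs) (by simp)

noncomputable def Hg (i : Fin d) {s : ℝ} (hs : 0 < s) : OpenPartialHomeomorph (V d) (V d) :=
  (gam_cd i hs).toOpenPartialHomeomorph (gam i hs) (f' := equivOfInj (Dgam i hs) (Dgam_inj i hs))
    (by rw [equivOfInj_coe]; exact gam_fd i hs) (by simp)

lemma Hb_coe (i : Fin d) {s : ℝ} (hs : 0 < s) : (Hb i hs : V d → V d) = bet i hs := rfl
lemma Hg_coe (i : Fin d) {s : ℝ} (hs : 0 < s) : (Hg i hs : V d → V d) = gam i hs := rfl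

lemma Hb_source (i : Fin d) {s : ℝ} (hs : 0 < s) : (0 : V d) ∈ (Hb i hs).source :=
  (bet_cd i hs).mem_toOpenPartialHomeomorph_source _ _

lemma Hg_source (i : Fin d) {s : ℝ} (hs : 0 < s) : (0 : V d) ∈ (Hg i hs).source :=
  (gam_cd i hs).mem_toOpenPartialHomeomorph_source _ _

lemma Hb_symm_cd (i : Fin d) {s : ℝ} (hs : 0 < s) :
    ContDiffAt ℝ ω (Hb i hs).symm (bet i hs 0) := by
  apply (Hb i hs).contDiffAt_symm (f₀' := equivOfInj (Dbet i hs) (Dbet_inj i hs))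
    ((Hb i hs).map_source (Hb_source i hs))
  · rw [(Hb i hs).left_inv (Hb_source i hs), equivOfInj_coe]; exact bet_fd i hs
  · rw [(Hb i hs).left_inv (Hb_source i hs)]; exact bet_cd i hs

lemma Hg_symm_cd (i : Fin d) {s : ℝ} (hs : 0 < s) :
    ContDiffAt ℝ ω (Hg i hs).symm (gam i hs 0) := by
  apply (Hg i hs).contDiffAt_symm (f₀' := equivOfInj (Dgam i hs) (Dgam_inj i hs))
    ((Hg i hs).map_source (Hg_source i hs))
  · rw [(Hg i hs).left_inv (Hg_source i hs), equivOfInj_coe]; exact gam_fd i hs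
  · rw [(Hg i hs).left_inv (Hg_source i hs)]; exact gam_cd i hs

/-! ### real cost and potentials -/

/-- real valued cost -/
noncomputable def cR (s : ℝ) (x y z : V d) : ℝ := f s (x - y) + f s (x - z) + f s (y - z)

lemma f_neg (s : ℝ) (z : V d) : f s (-z) = f s z := by simp [f]

lemma f_sub_comm (s : ℝ) (x y : V d) : f s (x - y) = f s (y - x) := by
  rw [← f_neg, neg_sub]

lemma cR_swap12 (s : ℝ) (x y z : V d) : cR s x y z = cR s y x z := by
  unfold cR; rw [f_sub_comm s x y]; ring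

lemma cR_swap23 (s : ℝ) (x y z : V d) : cR s x y z = cR s x z y := by
  unfold cR; rw [f_sub_comm s y z]; ring

lemma cR_R (i j : Fin d) (s : ℝ) (x y z : V d) :
    cR s (Rsw i j x) (Rsw i j y) (Rsw i j z) = cR s x y z := by
  unfold cR f
  rw [← map_sub, ← map_sub, ← map_sub, LinearIsometryEquiv.norm_map, LinearIsometryEquiv.norm_map,
    LinearIsometryEquiv.norm_map]

noncomputable def x0 (s : ℝ) : ℝ := 2 + (2 : ℝ) ^ (-s)

noncomputable def W0 (s : ℝ) (a : V d) : ℝ := x0 s - KK s / 2 * ‖a‖ ^ 2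

noncomputable def UB (i : Fin d) (s : ℝ) (b : V d) : ℝ :=
  ⟪GG i s, b - ev i⟫ - KK s / 2 * ‖b - ev i‖ ^ 2

noncomputable def W2 (i : Fin d) {s : ℝ} (hs : 0 < s) (a : V d) : ℝ :=
  cR s a (bet i hs a) (gam i hs a) - W0 s a - UB i s (bet i hs a)

lemma W0_R (i j : Fin d) (s : ℝ) (a : V d) : W0 s (Rsw i j a) = W0 s a := by
  unfold W0; rw [LinearIsometryEquiv.norm_map]

lemma W0_zero (s : ℝ) : W0 s (0 : V d) = x0 s := by simp [W0]

lemma UB_base (i : Fin d) {s : ℝ} (hs : 0 < s) : UB i s (bet i hs 0) = 0 := by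
  rw [bet_zero]; simp [UB]

lemma W2_zero (i : Fin d) {s : ℝ} (hs : 0 < s) : W2 i hs (0 : V d) = 0 := by
  unfold W2
  rw [UB_base, W0_zero, bet_zero, gam_zero, cR]
  have h1 : f s ((0 : V d) - ev i) = 1 := by
    rw [zero_sub, f_neg, f, norm_ev, Real.one_rpow]
  have h2 : f s ((0 : V d) - -ev i) = 1 := by
    rw [zero_sub, neg_neg, f, norm_ev, Real.one_rpow]
  have h3 : f s (ev i - -ev i) = (2 : ℝ) ^ (-s) := by
    have : ev i - -ev i = (2 : ℝ) • ev i := by rw [two_smul]; abel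
    rw [this, f, norm_smul, norm_ev]; norm_num
  rw [h1, h2, h3, x0]; ring

lemma rpow_quarter (s : ℝ) {n : ℝ} (hs : 0 < s) (hn : 1 / 4 ≤ n) : n ^ (-s / 2 - 1) ≤ 1 / tt s := by
  have h1 : n ^ (-s / 2 - 1) ≤ (1 / 4 : ℝ) ^ (-s / 2 - 1) :=
    Real.rpow_le_rpow_of_nonpos (by norm_num) hn (by linarith)
  refine h1.trans (le_of_eq ?_)
  unfold tt
  rw [one_div, Real.inv_rpow (by norm_num), one_div]

/-- the main local inequality -/
lemma local_key (i : Fin d) {s : ℝ} (hs : 0 < s) {a : V d}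
    (he1 : eq1 s a (bet i hs a) (gam i hs a) = 0) (he2 : eq2 i s a (bet i hs a) (gam i hs a) = 0)
    (h1 : 1 / 2 ≤ ‖a - bet i hs a‖) (h2 : 1 / 2 ≤ ‖a - gam i hs a‖)
    (h3 : 1 / 2 ≤ ‖bet i hs a - gam i hs a‖)
    {a' b' : V d} (hab : a' ≠ b') (hac : a' ≠ gam i hs a) (hbc : b' ≠ gam i hs a) :
    W0 s a' + UB i s b' + W2 i hs a + (5 / 2 * (s / tt s)) * (‖a' - a‖ ^ 2 + ‖b' - bet i hs a‖ ^ 2) ≤
      cR s a' b' (gam i hs a) := by
  set b := bet i hs a with hb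
  set c := gam i hs a with hc
  have hq : ∀ z : V d, 1 / 2 ≤ ‖z‖ → s / 2 * (‖z‖ ^ 2) ^ (-s / 2 - 1) ≤ s / 2 * (1 / tt s) := by
    intro z hz
    have : 1 / 4 ≤ ‖z‖ ^ 2 := by nlinarith
    have := rpow_quarter s hs this
    gcongr
  have hz : ∀ z : V d, 1 / 2 ≤ ‖z‖ → z ≠ 0 := by
    intro z hz h0; rw [h0, norm_zero] at hz; norm_num at hz
  have s1 := semiconv hs (hz _ h1) (sub_ne_zero.2 hab)
  have s2 := semiconv hs (hz _ h2) (sub_ne_zero.2 hac)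
  have s3 := semiconv hs (hz _ h3) (sub_ne_zero.2 hbc)
  have e1 : a' - b' - (a - b) = (a' - a) - (b' - b) := by abel
  have e2 : a' - c - (a - c) = a' - a := by abel
  have e3 : b' - c - (b - c) = b' - b := by abel
  rw [e1] at s1
  rw [e2] at s2
  rw [e3] at s3
  set Δa := a' - a with hΔa
  set Δb := b' - b with hΔb
  have q1 := hq _ h1
  have q2 := hq _ h2
  have q3 := hq _ h3
  have t1 : s / 2 * (‖a - b‖ ^ 2) ^ (-s / 2 - 1) * ‖Δa - Δb‖ ^ 2 ≤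
      s / 2 * (1 / tt s) * (2 * (‖Δa‖ ^ 2 + ‖Δb‖ ^ 2)) := by
    have hp : ‖Δa - Δb‖ ^ 2 ≤ 2 * (‖Δa‖ ^ 2 + ‖Δb‖ ^ 2) := by
      have := parallelogram_law_with_norm ℝ Δa Δb
      nlinarith [sq_nonneg ‖Δa + Δb‖]
    have htt := tt_pos s
    have : 0 ≤ s / 2 * (1 / tt s) := by positivity
    calc _ ≤ s / 2 * (1 / tt s) * ‖Δa - Δb‖ ^ 2 := by gcongr
      _ ≤ _ := by gcongr
  have t2 : s / 2 * (‖a - c‖ ^ 2) ^ (-s / 2 - 1) * ‖Δa‖ ^ 2 ≤ s / 2 * (1 / tt s) * ‖Δa‖ ^ 2 := by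
    gcongr
  have t3 : s / 2 * (‖b - c‖ ^ 2) ^ (-s / 2 - 1) * ‖Δb‖ ^ 2 ≤ s / 2 * (1 / tt s) * ‖Δb‖ ^ 2 := by
    gcongr
  -- first order terms
  have fo : ⟪gf s (a - b), Δa - Δb⟫ + ⟪gf s (a - c), Δa⟫ + ⟪gf s (b - c), Δb⟫ =
      - KK s * ⟪a, Δa⟫ + ⟪GG i s, Δb⟫ - KK s * ⟪b - ev i, Δb⟫ := by
    have i1 : ⟪eq1 s a b c, Δa⟫ = 0 := by rw [he1, inner_zero_left]
    have i2 : ⟪eq2 i s a b c, Δb⟫ = 0 := by rw [he2, inner_zero_left]
    simp only [eq1, eq2, inner_add_left, inner_sub_left, inner_neg_left, inner_smul_left,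
      conj_trivial] at i1 i2
    rw [inner_sub_right, inner_sub_left]
    linarith
  -- expansion of the potentials
  have pW : W0 s a' = W0 s a - KK s * ⟪a, Δa⟫ - KK s / 2 * ‖Δa‖ ^ 2 := by
    have : ‖a'‖ ^ 2 = ‖a‖ ^ 2 + 2 * ⟪a, Δa⟫ + ‖Δa‖ ^ 2 := by
      have := norm_add_sq_real a Δa
      rwa [show a + Δa = a' by rw [hΔa]; abel] at this
    unfold W0
    rw [this]; ring
  have pU : UB i s b' = UB i s b + ⟪GG i s, Δb⟫ - KK s * ⟪b - ev i, Δb⟫ - KK s / 2 * ‖Δb‖ ^ 2 := by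
    have e4 : b' - ev i = (b - ev i) + Δb := by rw [hΔb]; abel
    have : ‖b' - ev i‖ ^ 2 = ‖b - ev i‖ ^ 2 + 2 * ⟪b - ev i, Δb⟫ + ‖Δb‖ ^ 2 := by
      rw [e4]; exact norm_add_sq_real _ _
    unfold UB
    rw [this, e4, inner_add_right]; ring
  have hK : KK s = 8 * (s / tt s) := by unfold KK; ring
  have hW2 : W2 i hs a = cR s a b c - W0 s a - UB i s b := rfl
  rw [pW, pU, hW2]
  unfold cR
  have hst : s / 2 * (1 / tt s) = 1 / 2 * (s / tt s) := by ring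
  rw [hst] at t1 t2 t3
  have hK2 : KK s / 2 = 4 * (s / tt s) := by rw [hK]; ring
  rw [hK2]
  nlinarith [t1, t2, t3, s1, s2, s3, fo]

end Crest.Agent.H1.MM
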