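import Mathlib
import Crest.Prelude.Def_MultiMarginal
import Crest.Agent.H1.MM9

set_option autoImplicit false
open scoped ENNReal ContDiff RealInnerProductSpace Topology
open MeasureTheory Crest.AnalysisR.OT

namespace Crest.Agent.H1.MM

variable {d : ℕ}

lemma exists_eta {s : ℝ} (hs : 0 < s) : ∃ η : ℝ, 0 < η ∧ η < 1 / 8 ∧
    3 * (x0 s + 1) < (2 * η) ^ (-s) ∧
    x0 s + 2 * η < 2 * (1 + 2 * η) ^ (-s) + (Real.sqrt 2 + 2 * η) ^ (-s) ∧
    3 * η < (3 : ℝ) ^ (-s) := by
  have h4 : ∀ᶠ η : ℝ in nhdsWithin 0 (Set.Ioi 0), 0 < η := self_mem_nhdsWithin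
  have h3 : ∀ᶠ η : ℝ in nhdsWithin 0 (Set.Ioi 0), η < 1 / 8 :=
    nhdsWithin_le_nhds (gt_mem_nhds (by norm_num))
  have h5 : ∀ᶠ η : ℝ in nhdsWithin 0 (Set.Ioi 0), 3 * η < (3 : ℝ) ^ (-s) := by
    apply nhdsWithin_le_nhds
    have : ContinuousAt (fun η : ℝ => 3 * η) 0 := by fun_prop
    have h0 : (fun η : ℝ => 3 * η) 0 < (3 : ℝ) ^ (-s) := by
      simp only [mul_zero]; positivity
    exact this.eventually (gt_mem_nhds h0)
  have h6 : ∀ᶠ η : ℝ in nhdsWithin 0 (Set.Ioi 0),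
      x0 s + 2 * η < 2 * (1 + 2 * η) ^ (-s) + (Real.sqrt 2 + 2 * η) ^ (-s) := by
    apply nhdsWithin_le_nhds
    have hs2 : (0 : ℝ) < Real.sqrt 2 := by positivity
    have c1 : ContinuousAt (fun η : ℝ => 2 * (1 + 2 * η) ^ (-s) + (Real.sqrt 2 + 2 * η) ^ (-s) -
        (x0 s + 2 * η)) 0 := by
      refine ContinuousAt.sub (ContinuousAt.add (ContinuousAt.mul continuousAt_const ?_) ?_) (by fun_prop)
      · exact ContinuousAt.rpow_const (by fun_prop) (Or.inl (by norm_num))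
      · exact ContinuousAt.rpow_const (by fun_prop) (Or.inl (by simp))
    have h0 : 0 < (fun η : ℝ => 2 * (1 + 2 * η) ^ (-s) + (Real.sqrt 2 + 2 * η) ^ (-s) -
        (x0 s + 2 * η)) 0 := by
      simp only [mul_zero, add_zero, Real.one_rpow]
      unfold x0
      have h7 : (2 : ℝ) ^ (-s) < (Real.sqrt 2) ^ (-s) := by
        apply Real.rpow_lt_rpow_of_neg hs2 _ (by linarith)
        rw [Real.sqrt_lt' (by norm_num)]; norm_num
      linarith
    filter_upwards [c1.eventually (lt_mem_nhds h0)] with η hη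
    linarith
  have h7 : ∀ᶠ η : ℝ in nhdsWithin 0 (Set.Ioi 0), 3 * (x0 s + 1) < (2 * η) ^ (-s) := by
    have h8 : Filter.Tendsto (fun η : ℝ => (2 * η) ^ (-s)) (nhdsWithin 0 (Set.Ioi 0)) Filter.atTop := by
      have h9 := tendsto_rpow_neg_nhdsGT_zero (y := -s) (by linarith)
      have h10 : Filter.Tendsto (fun η : ℝ => 2 * η) (nhdsWithin 0 (Set.Ioi 0))
          (nhdsWithin 0 (Set.Ioi 0)) := by
        apply tendsto_nhdsWithin_of_tendsto_nhds_of_eventually_within
        · have : ContinuousAt (fun η : ℝ => 2 * η) 0 := by fun_prop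
          have h11 := this.tendsto
          simp only [mul_zero] at h11
          exact h11.mono_left nhdsWithin_le_nhds
        · filter_upwards [self_mem_nhdsWithin] with η hη
          simp only [Set.mem_Ioi] at hη ⊢; linarith
      exact h9.comp h10
    exact h8.eventually (Filter.eventually_gt_atTop _)
  obtain ⟨η, a, b, c, e, g⟩ := (h4.and (h3.and (h7.and (h6.and h5)))).exists
  exact ⟨η, a, b, c, e, g⟩

/-- Everything we need to know about the radius. -/
structure Rad (i : Fin d) {s : ℝ} (hs : 0 < s) (η r : ℝ) : Prop where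
  hr : 0 < r
  gb : Good (Hb i hs) r
  gg : Good (Hg i hs) r
  na : ∀ a ∈ Metric.closedBall (0 : V d) r, ‖a‖ ≤ η
  nb : ∀ a ∈ Metric.closedBall (0 : V d) r, ‖bet i hs a - ev i‖ ≤ η
  nc : ∀ a ∈ Metric.closedBall (0 : V d) r, ‖gam i hs a - - ev i‖ ≤ η
  ub : ∀ a ∈ Metric.closedBall (0 : V d) r, |UB i s (bet i hs a)| ≤ η
  w2 : ∀ a ∈ Metric.closedBall (0 : V d) r, |W2 i hs a| ≤ η
  e1 : ∀ a ∈ Metric.closedBall (0 : V d) r, eq1 s a (bet i hs a) (gam i hs a) = 0
  e2 : ∀ a ∈ Metric.closedBall (0 : V d) r, eq2 i s a (bet i hs a) (gam i hs a) = 0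

lemma continuousAt_UB (i : Fin d) (s : ℝ) (b : V d) : ContinuousAt (UB i s) b := by
  unfold UB; fun_prop

lemma continuousAt_f (s : ℝ) {z : V d} (hz : z ≠ 0) : ContinuousAt (f s) z :=
  (f_contDiffAt s hz (n := 1)).continuousAt

lemma continuousAt_W2 (i : Fin d) {s : ℝ} (hs : 0 < s) {a : V d}
    (hb : ContinuousAt (bet i hs) a) (hc : ContinuousAt (gam i hs) a)
    (h1 : a - bet i hs a ≠ 0) (h2 : a - gam i hs a ≠ 0) (h3 : bet i hs a - gam i hs a ≠ 0) :
    ContinuousAt (W2 i hs) a := by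
  unfold W2 cR
  have c1 : ContinuousAt (fun a => f s (a - bet i hs a)) a :=
    ContinuousAt.comp (g := f s) (f := fun a => a - bet i hs a) (continuousAt_f s h1)
      (continuousAt_id.sub hb)
  have c2 : ContinuousAt (fun a => f s (a - gam i hs a)) a :=
    ContinuousAt.comp (g := f s) (f := fun a => a - gam i hs a) (continuousAt_f s h2)
      (continuousAt_id.sub hc)
  have c3 : ContinuousAt (fun a => f s (bet i hs a - gam i hs a)) a :=
    ContinuousAt.comp (g := f s) (f := fun a => bet i hs a - gam i hs a) (continuousAt_f s h3)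
      (hb.sub hc)
  have c4 : ContinuousAt (fun a => UB i s (bet i hs a)) a :=
    ContinuousAt.comp (g := UB i s) (f := bet i hs) (continuousAt_UB i s _) hb
  have c5 : ContinuousAt (W0 s) a := by unfold W0; fun_prop
  exact (((c1.add c2).add c3).sub c5).sub c4

lemma exists_rad (i : Fin d) {s : ℝ} (hs : 0 < s) {η : ℝ} (hη : 0 < η) : ∃ r, Rad i hs η r := by
  have hbc : ContinuousAt (bet i hs) 0 := (bet_cd i hs).continuousAt
  have hgc : ContinuousAt (gam i hs) 0 := (gam_cd i hs).continuousAt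
  have hW2c : ContinuousAt (W2 i hs) 0 := by
    apply continuousAt_W2 i hs hbc hgc
    · rw [bet_zero, zero_sub]; exact neg_ne_zero.2 (ev_ne i)
    · rw [gam_zero, zero_sub, neg_neg]; exact ev_ne i
    · rw [bet_zero, gam_zero, sub_neg_eq_add, ← two_smul ℝ]; exact two_smul_ev_ne i
  have ev1 : ∀ᶠ a in 𝓝 (0 : V d), a ∈ (Hb i hs).source :=
    (Hb i hs).open_source.mem_nhds (Hb_source i hs)
  have ev2 : ∀ᶠ a in 𝓝 (0 : V d), a ∈ (Hg i hs).source :=
    (Hg i hs).open_source.mem_nhds (Hg_source i hs)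
  have ev3 : ∀ᶠ a in 𝓝 (0 : V d), ContDiffAt ℝ ω (Hb i hs) a := (bet_cd i hs).eventually (by simp)
  have ev4 : ∀ᶠ a in 𝓝 (0 : V d), ContDiffAt ℝ ω (Hg i hs) a := (gam_cd i hs).eventually (by simp)
  have ev5 : ∀ᶠ a in 𝓝 (0 : V d), ContDiffAt ℝ ω (Hb i hs).symm (Hb i hs a) :=
    hbc.eventually ((Hb_symm_cd i hs).eventually (by simp))
  have ev6 : ∀ᶠ a in 𝓝 (0 : V d), ContDiffAt ℝ ω (Hg i hs).symm (Hg i hs a) :=
    hgc.eventually ((Hg_symm_cd i hs).eventually (by simp))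
  have ev7 : ∀ᶠ a in 𝓝 (0 : V d), ‖a‖ < η := by
    have : ContinuousAt (fun a : V d => ‖a‖) 0 := by fun_prop
    exact this.eventually (gt_mem_nhds (by simpa using hη))
  have ev8 : ∀ᶠ a in 𝓝 (0 : V d), ‖bet i hs a - ev i‖ < η := by
    have : ContinuousAt (fun a : V d => ‖bet i hs a - ev i‖) 0 := (hbc.sub continuousAt_const).norm
    exact this.eventually (gt_mem_nhds (by simpa [bet_zero] using hη))
  have ev9 : ∀ᶠ a in 𝓝 (0 : V d), ‖gam i hs a - - ev i‖ < η := by
    have : ContinuousAt (fun a : V d => ‖gam i hs a - - ev i‖) 0 := (hgc.sub continuousAt_const).norm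
    exact this.eventually (gt_mem_nhds (by simpa [gam_zero] using hη))
  have ev10 : ∀ᶠ a in 𝓝 (0 : V d), |UB i s (bet i hs a)| < η := by
    have c4 : ContinuousAt (fun a => UB i s (bet i hs a)) 0 :=
      ContinuousAt.comp (g := UB i s) (f := bet i hs) (continuousAt_UB i s _) hbc
    exact c4.abs.eventually (gt_mem_nhds (by simpa [UB_base] using hη))
  have ev11 : ∀ᶠ a in 𝓝 (0 : V d), |W2 i hs a| < η :=
    hW2c.abs.eventually (gt_mem_nhds (by simpa [W2_zero] using hη))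
  have ev12 := eqs_near i hs
  have evall := ev1.and (ev2.and (ev3.and (ev4.and (ev5.and (ev6.and (ev7.and (ev8.and (ev9.and
    (ev10.and (ev11.and ev12))))))))))
  obtain ⟨ε, hε, hball⟩ := Metric.eventually_nhds_iff_ball.1 evall
  have hsub : ∀ a ∈ Metric.closedBall (0 : V d) (ε / 2), a ∈ Metric.ball (0 : V d) ε := by
    intro a ha
    rw [Metric.mem_closedBall] at ha
    rw [Metric.mem_ball]; linarith
  refine ⟨ε / 2, by positivity, ⟨?_, ?_, ?_⟩, ⟨?_, ?_, ?_⟩, ?_, ?_, ?_, ?_, ?_, ?_, ?_⟩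
  · exact fun a ha => (hball a (hsub a ha)).1
  · exact fun a ha => (hball a (hsub a ha)).2.2.1
  · exact fun a ha => (hball a (hsub a ha)).2.2.2.2.1
  · exact fun a ha => (hball a (hsub a ha)).2.1
  · exact fun a ha => (hball a (hsub a ha)).2.2.2.1
  · exact fun a ha => (hball a (hsub a ha)).2.2.2.2.2.1
  · exact fun a ha => (hball a (hsub a ha)).2.2.2.2.2.2.1.le
  · exact fun a ha => (hball a (hsub a ha)).2.2.2.2.2.2.2.1.le
  · exact fun a ha => (hball a (hsub a ha)).2.2.2.2.2.2.2.2.1.le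
  · exact fun a ha => (hball a (hsub a ha)).2.2.2.2.2.2.2.2.2.1.le
  · exact fun a ha => (hball a (hsub a ha)).2.2.2.2.2.2.2.2.2.2.1.le
  · exact fun a ha => (hball a (hsub a ha)).2.2.2.2.2.2.2.2.2.2.2.1
  · exact fun a ha => (hball a (hsub a ha)).2.2.2.2.2.2.2.2.2.2.2.2

end Crest.Agent.H1.MM
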