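import Mathlib
import Crest.Prelude.Def_MultiMarginal
import Crest.Agent.H1.MM10

set_option autoImplicit false
open scoped ENNReal ContDiff RealInnerProductSpace Topology
open MeasureTheory Crest.AnalysisR.OT

namespace Crest.Agent.H1.MM

variable {d : ℕ}

/-! ### clusters -/

noncomputable def cc (k : Fin 3) : ℝ := if k = 0 then 0 else if k = 1 then 1 else -1

lemma cc_sq {k : Fin 3} (hk : k ≠ 0) : cc k ^ 2 = 1 := by
  fin_cases k <;> simp [cc] at hk ⊢

lemma cc_abs {k : Fin 3} (hk : k ≠ 0) : |cc k| = 1 := by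
  fin_cases k <;> simp [cc] at hk ⊢

lemma cc_inj {k k' : Fin 3} (h : |cc k - cc k'| < 1) : k = k' := by
  fin_cases k <;> fin_cases k' <;> simp [cc] at h ⊢ <;> norm_num at h

/-- centre of a cluster -/
noncomputable def zc (i j : Fin d) (t : Fin 2) (k : Fin 3) : V d :=
  cc k • ev (if t = 0 then i else j)

lemma norm_zc (i j : Fin d) (t : Fin 2) {k : Fin 3} (hk : k ≠ 0) : ‖zc i j t k‖ = 1 := by
  unfold zc; rw [norm_smul, norm_ev, Real.norm_eq_abs, cc_abs hk, mul_one]

lemma zc_zero (i j : Fin d) (t : Fin 2) : zc i j t 0 = 0 := by simp [zc, cc]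

lemma inner_ev_ev {i j : Fin d} (hij : i ≠ j) : ⟪ev i, ev j⟫ = 0 := by
  rw [inner_ev]; simp [ev, hij]

lemma norm_zc_sub_sq {i j : Fin d} (hij : i ≠ j) {t t' : Fin 2} (ht : t ≠ t') (k k' : Fin 3) :
    ‖zc i j t k - zc i j t' k'‖ ^ 2 = cc k ^ 2 + cc k' ^ 2 := by
  have key : ∀ a b : Fin d, a ≠ b → ‖cc k • ev a - cc k' • ev b‖ ^ 2 = cc k ^ 2 + cc k' ^ 2 := by
    intro a b hab
    rw [norm_sub_sq_real, inner_smul_left, inner_smul_right, inner_ev_ev hab]
    simp [norm_smul, norm_ev, sq_abs]
  unfold zc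
  fin_cases t <;> fin_cases t'
  · exact absurd rfl ht
  · exact key _ _ hij
  · exact key _ _ hij.symm
  · exact absurd rfl ht

lemma zc_close {i j : Fin d} (hij : i ≠ j) {t t' : Fin 2} {k k' : Fin 3}
    (h : ‖zc i j t k - zc i j t' k'‖ < 1 / 2) : k = k' ∧ (k = 0 ∨ t = t') := by
  by_cases ht : t = t'
  · subst ht
    refine ⟨?_, Or.inr rfl⟩
    unfold zc at h
    rw [← sub_smul, norm_smul, norm_ev, mul_one, Real.norm_eq_abs] at h
    exact cc_inj (by linarith)
  · have h1 := norm_zc_sub_sq hij ht k k'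
    have h2 : ‖zc i j t k - zc i j t' k'‖ ^ 2 < 1 / 4 := by
      have := norm_nonneg (zc i j t k - zc i j t' k')
      nlinarith
    rw [h1] at h2
    have hk : k = 0 := by
      by_contra hk
      have := cc_sq hk
      nlinarith [sq_nonneg (cc k')]
    have hk' : k' = 0 := by
      by_contra hk'
      have := cc_sq hk'
      nlinarith [sq_nonneg (cc k)]
    subst hk; subst hk'
    exact ⟨rfl, Or.inl rfl⟩

lemma zc_same {i j : Fin d} {t t' : Fin 2} {k k' : Fin 3} (hk : k = k') (h : k = 0 ∨ t = t') :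
    zc i j t k = zc i j t' k' := by
  subst hk
  rcases h with rfl | rfl
  · rw [zc_zero, zc_zero]
  · rfl

lemma norm_zc_sub_le (i j : Fin d) (t t' : Fin 2) {k k' : Fin 3} (hk : k ≠ 0) (hk' : k' ≠ 0) :
    ‖zc i j t k - zc i j t' k'‖ ≤ 2 := by
  refine (norm_sub_le _ _).trans ?_
  rw [norm_zc _ _ _ hk, norm_zc _ _ _ hk']; norm_num

lemma norm_zc_sub_adj {i j : Fin d} (hij : i ≠ j) {t t' : Fin 2} (ht : t ≠ t') {k k' : Fin 3}
    (hk : k ≠ 0) (hk' : k' ≠ 0) : ‖zc i j t k - zc i j t' k'‖ = Real.sqrt 2 := by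
  have h1 := norm_zc_sub_sq hij ht k k'
  rw [cc_sq hk, cc_sq hk'] at h1
  rw [← Real.sqrt_sq (norm_nonneg _), h1]; norm_num

/-! ### the maps -/

section maps

variable (i j : Fin d) {s : ℝ} (hs : 0 < s) (r : ℝ)

open Classical in
noncomputable def betM (a : V d) : V d := (Metric.closedBall (0 : V d) r).piecewise (bet i hs) (fun _ => 0) a

open Classical in
noncomputable def gamM (a : V d) : V d := (Metric.closedBall (0 : V d) r).piecewise (gam i hs) (fun _ => 0) a

open Classical in
noncomputable def invb (y : V d) : V d := (Hb i hs).target.piecewise (Hb i hs).symm (fun _ => 0) y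

open Classical in
noncomputable def invg (y : V d) : V d := (Hg i hs).target.piecewise (Hg i hs).symm (fun _ => 0) y

variable {r}

open Classical in
lemma betM_eq {a : V d} (ha : a ∈ Metric.closedBall (0 : V d) r) : betM i hs r a = bet i hs a :=
  Set.piecewise_eq_of_mem _ _ _ ha

open Classical in
lemma gamM_eq {a : V d} (ha : a ∈ Metric.closedBall (0 : V d) r) : gamM i hs r a = gam i hs a :=
  Set.piecewise_eq_of_mem _ _ _ ha

lemma continuousOn_bet {η : ℝ} (hR : Rad i hs η r) :
    ContinuousOn (bet i hs) (Metric.closedBall (0 : V d) r) :=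
  fun a ha => (hR.gb.smooth a ha).continuousAt.continuousWithinAt

lemma continuousOn_gam {η : ℝ} (hR : Rad i hs η r) :
    ContinuousOn (gam i hs) (Metric.closedBall (0 : V d) r) :=
  fun a ha => (hR.gg.smooth a ha).continuousAt.continuousWithinAt

open Classical in
lemma measurable_betM {η : ℝ} (hR : Rad i hs η r) : Measurable (betM i hs r) := by
  unfold betM
  exact (continuousOn_bet i hs hR).measurable_piecewise continuousOn_const
    Metric.isClosed_closedBall.measurableSet

open Classical in
lemma measurable_gamM {η : ℝ} (hR : Rad i hs η r) : Measurable (gamM i hs r) := by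
  unfold gamM
  exact (continuousOn_gam i hs hR).measurable_piecewise continuousOn_const
    Metric.isClosed_closedBall.measurableSet

open Classical in
lemma measurable_invb : Measurable (invb i hs) := by
  unfold invb
  exact (Hb i hs).continuousOn_symm.measurable_piecewise continuousOn_const
    (Hb i hs).open_target.measurableSet

open Classical in
lemma measurable_invg : Measurable (invg i hs) := by
  unfold invg
  exact (Hg i hs).continuousOn_symm.measurable_piecewise continuousOn_const
    (Hg i hs).open_target.measurableSet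

open Classical in
lemma invb_bet {η : ℝ} (hR : Rad i hs η r) {a : V d} (ha : a ∈ Metric.closedBall (0 : V d) r) :
    invb i hs (bet i hs a) = a := by
  unfold invb
  have h1 : bet i hs a ∈ (Hb i hs).target := (Hb i hs).map_source (hR.gb.sub ha)
  rw [Set.piecewise_eq_of_mem _ _ _ h1]
  exact (Hb i hs).left_inv (hR.gb.sub ha)

open Classical in
lemma invg_gam {η : ℝ} (hR : Rad i hs η r) {a : V d} (ha : a ∈ Metric.closedBall (0 : V d) r) :
    invg i hs (gam i hs a) = a := by
  unfold invg
  have h1 : gam i hs a ∈ (Hg i hs).target := (Hg i hs).map_source (hR.gg.sub ha)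
  rw [Set.piecewise_eq_of_mem _ _ _ h1]
  exact (Hg i hs).left_inv (hR.gg.sub ha)

variable (r)

noncomputable def chi0 (k : Fin 3) (a : V d) : V d :=
  if k = 0 then a else if k = 1 then betM i hs r a else gamM i hs r a

noncomputable def chi (t : Fin 2) (k : Fin 3) (a : V d) : V d :=
  if t = 0 then chi0 i hs r k a else Rsw i j (chi0 i hs r k (Rsw i j a))

variable {r}

lemma chi0_zero (a : V d) : chi0 i hs r 0 a = a := by simp [chi0]
lemma chi0_one (a : V d) : chi0 i hs r 1 a = betM i hs r a := by simp [chi0]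
lemma chi0_two (a : V d) : chi0 i hs r 2 a = gamM i hs r a := by simp [chi0]

lemma chi_zero (t : Fin 2) (a : V d) : chi i j hs r t 0 a = a := by
  unfold chi; split_ifs
  · exact chi0_zero i hs a
  · rw [chi0_zero, Rsw_Rsw]

lemma measurable_chi0 {η : ℝ} (hR : Rad i hs η r) (k : Fin 3) : Measurable (chi0 i hs r k) := by
  fin_cases k
  · have : chi0 i hs r 0 = id := by ext1 a; exact chi0_zero i hs a
    simp only [Fin.zero_eta]; rw [this]; exact measurable_id
  · have : chi0 i hs r 1 = betM i hs r := by ext1 a; exact chi0_one i hs a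
    simp only [Fin.mk_one]; rw [this]; exact measurable_betM i hs hR
  · have : chi0 i hs r 2 = gamM i hs r := by ext1 a; exact chi0_two i hs a
    simp only [Fin.reduceFinMk]; rw [this]; exact measurable_gamM i hs hR

lemma measurable_R : Measurable (Rsw i j) := (Rsw i j).continuous.measurable

lemma measurable_chi {η : ℝ} (hR : Rad i hs η r) (t : Fin 2) (k : Fin 3) :
    Measurable (chi i j hs r t k) := by
  unfold chi
  split_ifs
  · exact measurable_chi0 i hs hR k
  · exact (measurable_R i j).comp ((measurable_chi0 i hs hR k).comp (measurable_R i j))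

lemma R_mem_closedBall {a : V d} (ha : a ∈ Metric.closedBall (0 : V d) r) :
    Rsw i j a ∈ Metric.closedBall (0 : V d) r := by
  rw [mem_closedBall_zero_iff] at ha ⊢
  rwa [LinearIsometryEquiv.norm_map]

lemma chi0_near {η : ℝ} (hR : Rad i hs η r) {k : Fin 3} {a : V d}
    (ha : a ∈ Metric.closedBall (0 : V d) r) : ‖chi0 i hs r k a - zc i j 0 k‖ ≤ η := by
  fin_cases k
  · simp only [Fin.zero_eta]
    rw [chi0_zero, zc_zero, sub_zero]; exact hR.na a ha
  · simp only [Fin.mk_one]
    rw [chi0_one, betM_eq i hs ha]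
    have : zc i j 0 1 = ev i := by simp [zc, cc]
    rw [this]; exact hR.nb a ha
  · simp only [Fin.reduceFinMk]
    rw [chi0_two, gamM_eq i hs ha]
    have : zc i j 0 2 = -ev i := by simp [zc, cc]
    rw [this]; exact hR.nc a ha

lemma R_zc (k : Fin 3) : Rsw i j (zc i j 0 k) = zc i j 1 k := by
  simp [zc, map_smul, Rsw_ev]

lemma chi_near {η : ℝ} (hR : Rad i hs η r) {t : Fin 2} {k : Fin 3} {a : V d}
    (ha : a ∈ Metric.closedBall (0 : V d) r) : ‖chi i j hs r t k a - zc i j t k‖ ≤ η := by
  fin_cases t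
  · exact chi0_near i j hs hR ha
  · change ‖Rsw i j (chi0 i hs r k (Rsw i j a)) - zc i j 1 k‖ ≤ η
    rw [← R_zc, ← map_sub, LinearIsometryEquiv.norm_map]
    exact chi0_near i j hs hR (R_mem_closedBall i j ha)

lemma continuousOn_chi0 {η : ℝ} (hR : Rad i hs η r) (k : Fin 3) :
    ContinuousOn (chi0 i hs r k) (Metric.closedBall (0 : V d) r) := by
  fin_cases k
  · have : chi0 i hs r 0 = id := by ext1 a; exact chi0_zero i hs a
    simp only [Fin.zero_eta]; rw [this]; exact continuousOn_id
  · simp only [Fin.mk_one]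
    refine (continuousOn_bet i hs hR).congr (fun a ha => ?_)
    rw [chi0_one, betM_eq i hs ha]
  · simp only [Fin.reduceFinMk]
    refine (continuousOn_gam i hs hR).congr (fun a ha => ?_)
    rw [chi0_two, gamM_eq i hs ha]

lemma continuousOn_chi {η : ℝ} (hR : Rad i hs η r) (t : Fin 2) (k : Fin 3) :
    ContinuousOn (chi i j hs r t k) (Metric.closedBall (0 : V d) r) := by
  fin_cases t
  · exact continuousOn_chi0 i hs hR k
  · change ContinuousOn (fun a => Rsw i j (chi0 i hs r k (Rsw i j a))) _
    refine (Rsw i j).continuous.comp_continuousOn ?_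
    exact (continuousOn_chi0 i hs hR k).comp (Rsw i j).continuous.continuousOn
      (fun a ha => R_mem_closedBall i j ha)

/-! ### cluster neighbourhoods, parameter function -/

noncomputable def OO (t : Fin 2) (k : Fin 3) : Set (V d) := Metric.ball (zc i j t k) (1 / 4)

lemma mem_OO {t : Fin 2} {k : Fin 3} {x : V d} : x ∈ OO i j t k ↔ ‖x - zc i j t k‖ < 1 / 4 := by
  unfold OO; rw [mem_ball_iff_norm]

lemma OO_disj (hij : i ≠ j) {t t' : Fin 2} {k k' : Fin 3} {x : V d} (h : x ∈ OO i j t k)
    (h' : x ∈ OO i j t' k') : k = k' ∧ (k = 0 ∨ t = t') := by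
  rw [mem_OO] at h h'
  apply zc_close hij
  have : zc i j t k - zc i j t' k' = (x - zc i j t' k') - (x - zc i j t k) := by abel
  rw [this]
  refine lt_of_le_of_lt (norm_sub_le _ _) (by linarith)

lemma chi_mem_OO {η : ℝ} (hη : η < 1 / 8) (hR : Rad i hs η r) {t : Fin 2} {k : Fin 3} {a : V d}
    (ha : a ∈ Metric.closedBall (0 : V d) r) : chi i j hs r t k a ∈ OO i j t k := by
  rw [mem_OO]
  have := chi_near i j hs hR (t := t) (k := k) ha
  linarith

open Classical in
noncomputable def psi0 (x : V d) : V d :=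
  if x ∈ OO i j 0 0 then x else if x ∈ OO i j 0 1 then invb i hs x else invg i hs x

open Classical in
noncomputable def psi (x : V d) : V d :=
  if x ∈ OO i j 0 0 ∪ OO i j 0 1 ∪ OO i j 0 2 then psi0 i j hs x else Rsw i j (psi0 i j hs (Rsw i j x))

lemma measurable_OO (t : Fin 2) (k : Fin 3) : MeasurableSet (OO i j t k) := Metric.isOpen_ball.measurableSet

lemma measurable_psi0 : Measurable (psi0 i j hs) := by
  unfold psi0
  exact Measurable.ite (measurable_OO i j 0 0) measurable_id
    (Measurable.ite (measurable_OO i j 0 1) (measurable_invb i hs) (measurable_invg i hs))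

lemma measurable_psi : Measurable (psi i j hs) := by
  unfold psi
  exact Measurable.ite (((measurable_OO i j 0 0).union (measurable_OO i j 0 1)).union
    (measurable_OO i j 0 2)) (measurable_psi0 i j hs)
    ((measurable_R i j).comp ((measurable_psi0 i j hs).comp (measurable_R i j)))

lemma chi0_mem {η : ℝ} (hη : η < 1 / 8) (hR : Rad i hs η r) {k : Fin 3} {a : V d}
    (ha : a ∈ Metric.closedBall (0 : V d) r) : chi0 i hs r k a ∈ OO i j 0 k :=
  chi_mem_OO i j hs hη hR (t := 0) ha

lemma psi0_chi0 (hij : i ≠ j) {η : ℝ} (hη : η < 1 / 8) (hR : Rad i hs η r) {k : Fin 3} {a : V d}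
    (ha : a ∈ Metric.closedBall (0 : V d) r) : psi0 i j hs (chi0 i hs r k a) = a := by
  have h := chi0_mem i j hs hη hR (k := k) ha
  have h0 : k ≠ 0 → chi0 i hs r k a ∉ OO i j 0 0 := fun hk h' => hk (OO_disj i j hij h h').1
  have h1 : k ≠ 1 → chi0 i hs r k a ∉ OO i j 0 1 := fun hk h' => hk (OO_disj i j hij h h').1
  fin_cases k
  · simp only [Fin.zero_eta] at *
    unfold psi0; rw [if_pos h]; exact chi0_zero i hs a
  · simp only [Fin.mk_one] at *
    unfold psi0; rw [if_neg (h0 (by decide)), if_pos h, chi0_one, betM_eq i hs ha]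
    exact invb_bet i hs hR ha
  · simp only [Fin.reduceFinMk] at *
    unfold psi0; rw [if_neg (h0 (by decide)), if_neg (h1 (by decide)), chi0_two, gamM_eq i hs ha]
    exact invg_gam i hs hR ha

lemma mem_union_OO {k : Fin 3} {x : V d} (hx : x ∈ OO i j 0 k) :
    x ∈ OO i j 0 0 ∪ OO i j 0 1 ∪ OO i j 0 2 := by
  fin_cases k
  · left; left; exact hx
  · left; right; exact hx
  · right; exact hx

lemma not_mem_union_OO (hij : i ≠ j) {k : Fin 3} (hk : k ≠ 0) {x : V d} (hx : x ∈ OO i j 1 k) :
    x ∉ OO i j 0 0 ∪ OO i j 0 1 ∪ OO i j 0 2 := by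
  have key : ∀ k', x ∉ OO i j 0 k' := by
    intro k' h
    rcases (OO_disj i j hij hx h).2 with h1 | h1
    · exact hk h1
    · exact absurd h1 (by decide)
  rintro ((h | h) | h) <;> exact key _ h

lemma psi_chi (hij : i ≠ j) {η : ℝ} (hη : η < 1 / 8) (hR : Rad i hs η r) {t : Fin 2} {k : Fin 3}
    {a : V d} (ha : a ∈ Metric.closedBall (0 : V d) r) : psi i j hs (chi i j hs r t k a) = a := by
  have h := chi_mem_OO i j hs hη hR (t := t) (k := k) ha
  fin_cases t
  · unfold psi
    rw [if_pos (mem_union_OO i j h)]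
    exact psi0_chi0 i j hs hij hη hR ha
  · by_cases hk : k = 0
    · subst hk
      rw [chi_zero]
      have h2 := chi0_mem i j hs hη hR (k := 0) ha
      rw [chi0_zero] at h2
      unfold psi
      rw [if_pos (mem_union_OO i j h2)]
      unfold psi0
      rw [if_pos h2]
    · unfold psi
      simp only [Fin.mk_one, Fin.isValue] at *
      rw [if_neg (not_mem_union_OO i j hij hk h)]
      have : chi i j hs r 1 k a = Rsw i j (chi0 i hs r k (Rsw i j a)) := by
        unfold chi; rw [if_neg (by decide)]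
      rw [this, Rsw_Rsw, psi0_chi0 i j hs hij hη hR (R_mem_closedBall i j ha), Rsw_Rsw]

end maps

end Crest.Agent.H1.MM
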