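import Mathlib
import Crest.Prelude.Def_MultiMarginal
import Crest.Agent.H1.MM11

set_option autoImplicit false
open scoped ENNReal ContDiff RealInnerProductSpace Topology
open MeasureTheory Crest.AnalysisR.OT

namespace Crest.Agent.H1.MM

variable {d : ℕ}

/-- The smallness conditions on `η`. -/
structure Eta (s η : ℝ) : Prop where
  pos : 0 < η
  lt : η < 1 / 8
  h1 : 3 * (x0 s + 1) < (2 * η) ^ (-s)
  h2 : x0 s + 2 * η < 2 * (1 + 2 * η) ^ (-s) + (Real.sqrt 2 + 2 * η) ^ (-s)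
  h3 : 3 * η < (3 : ℝ) ^ (-s)

lemma x0_ge (s : ℝ) : 2 ≤ x0 s := by
  unfold x0
  have : (0 : ℝ) < 2 ^ (-s) := Real.rpow_pos_of_pos (by norm_num) _
  linarith

lemma f_nonneg (s : ℝ) (z : V d) : 0 ≤ f s z := Real.rpow_nonneg (norm_nonneg _) _

lemma f_ge {s : ℝ} (hs : 0 < s) {z : V d} (hz : z ≠ 0) {ρ : ℝ} (h : ‖z‖ ≤ ρ) : ρ ^ (-s) ≤ f s z := by
  unfold f
  exact Real.rpow_le_rpow_of_nonpos (norm_pos_iff.2 hz) h (by linarith)

section pot

variable (i j : Fin d) {s : ℝ} (hs : 0 < s) (r : ℝ)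

noncomputable def W2M (a : V d) : ℝ :=
  cR s a (betM i hs r a) (gamM i hs r a) - W0 s a - UB i s (betM i hs r a)

open Classical in
noncomputable def U0 (x : V d) : ℝ :=
  if x ∈ OO i j 0 0 then W0 s x else if x ∈ OO i j 0 1 then UB i s x else W2M i hs r (invg i hs x)

open Classical in
noncomputable def U (x : V d) : ℝ :=
  if x ∈ OO i j 0 0 ∪ OO i j 0 1 ∪ OO i j 0 2 then U0 i j hs r x else U0 i j hs r (Rsw i j x)

noncomputable def wv (k : Fin 3) (a : V d) : ℝ :=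
  if k = 0 then W0 s a else if k = 1 then UB i s (bet i hs a) else W2 i hs a

variable {r}

lemma measurable_f (s : ℝ) : Measurable (f s : V d → ℝ) := by
  unfold f; fun_prop

lemma measurable_cR {Ω : Type*} [MeasurableSpace Ω] {x y z : Ω → V d} (hx : Measurable x)
    (hy : Measurable y) (hz : Measurable z) : Measurable (fun o => cR s (x o) (y o) (z o)) := by
  unfold cR
  exact (((measurable_f s).comp (hx.sub hy)).add ((measurable_f s).comp (hx.sub hz))).add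
    ((measurable_f s).comp (hy.sub hz))

lemma measurable_W0 : Measurable (W0 s : V d → ℝ) := by unfold W0; fun_prop

lemma continuous_UB : Continuous (UB i s : V d → ℝ) := by unfold UB; fun_prop

lemma measurable_W2M {η : ℝ} (hR : Rad i hs η r) : Measurable (W2M i hs r) := by
  unfold W2M
  exact ((measurable_cR measurable_id (measurable_betM i hs hR) (measurable_gamM i hs hR)).sub
    measurable_W0).sub (Measurable.comp (g := UB i s) (f := betM i hs r)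
      (continuous_UB i).measurable (measurable_betM i hs hR))

lemma measurable_U0 {η : ℝ} (hR : Rad i hs η r) : Measurable (U0 i j hs r) := by
  unfold U0
  exact Measurable.ite (measurable_OO i j 0 0) measurable_W0
    (Measurable.ite (measurable_OO i j 0 1) (continuous_UB i).measurable
      ((measurable_W2M i hs hR).comp (measurable_invg i hs)))

lemma measurable_U {η : ℝ} (hR : Rad i hs η r) : Measurable (U i j hs r) := by
  unfold U
  exact Measurable.ite (((measurable_OO i j 0 0).union (measurable_OO i j 0 1)).union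
    (measurable_OO i j 0 2)) (measurable_U0 i j hs hR)
    ((measurable_U0 i j hs hR).comp (measurable_R i j))

lemma U0_chi0 (hij : i ≠ j) {η : ℝ} (hη : η < 1 / 8) (hR : Rad i hs η r) {k : Fin 3} {a : V d}
    (ha : a ∈ Metric.closedBall (0 : V d) r) : U0 i j hs r (chi0 i hs r k a) = wv i hs k a := by
  have h := chi0_mem i j hs hη hR (k := k) ha
  have h0 : k ≠ 0 → chi0 i hs r k a ∉ OO i j 0 0 := fun hk h' => hk (OO_disj i j hij h h').1
  have h1 : k ≠ 1 → chi0 i hs r k a ∉ OO i j 0 1 := fun hk h' => hk (OO_disj i j hij h h').1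
  fin_cases k
  · simp only [Fin.zero_eta] at *
    unfold U0 wv; rw [if_pos h, if_pos rfl, chi0_zero]
  · simp only [Fin.mk_one] at *
    unfold U0 wv; rw [if_neg (h0 (by decide)), if_pos h, if_neg (by decide), if_pos rfl,
      chi0_one, betM_eq i hs ha]
  · simp only [Fin.reduceFinMk] at *
    unfold U0 wv
    rw [if_neg (h0 (by decide)), if_neg (h1 (by decide)), if_neg (by decide), if_neg (by decide),
      chi0_two, gamM_eq i hs ha, invg_gam i hs hR ha]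
    unfold W2M W2
    rw [betM_eq i hs ha, gamM_eq i hs ha]

noncomputable def Rt (t : Fin 2) (a : V d) : V d := if t = 0 then a else Rsw i j a

lemma Rt_mem {t : Fin 2} {a : V d} (ha : a ∈ Metric.closedBall (0 : V d) r) :
    Rt i j t a ∈ Metric.closedBall (0 : V d) r := by
  unfold Rt; split_ifs
  · exact ha
  · exact R_mem_closedBall i j ha

lemma Rt_Rt (t : Fin 2) (a : V d) : Rt i j t (Rt i j t a) = a := by
  unfold Rt; split_ifs
  · rfl
  · exact Rsw_Rsw i j a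

lemma chi_eq_Rt (t : Fin 2) (k : Fin 3) (a : V d) :
    chi i j hs r t k a = Rt i j t (chi0 i hs r k (Rt i j t a)) := by
  unfold chi Rt; split_ifs <;> rfl

lemma cR_Rt (t : Fin 2) (x y z : V d) :
    cR s (Rt i j t x) (Rt i j t y) (Rt i j t z) = cR s x y z := by
  unfold Rt; split_ifs
  · rfl
  · exact cR_R i j s x y z

lemma W0_Rt (t : Fin 2) (a : V d) : W0 s (Rt i j t a) = W0 s a := by
  unfold Rt; split_ifs
  · rfl
  · exact W0_R i j s a

lemma U_chi (hij : i ≠ j) {η : ℝ} (hη : η < 1 / 8) (hR : Rad i hs η r) {t : Fin 2} {k : Fin 3}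
    {a : V d} (ha : a ∈ Metric.closedBall (0 : V d) r) :
    U i j hs r (chi i j hs r t k a) = wv i hs k (Rt i j t a) := by
  have h := chi_mem_OO i j hs hη hR (t := t) (k := k) ha
  fin_cases t
  · unfold U
    rw [if_pos (mem_union_OO i j h)]
    exact U0_chi0 i j hs hij hη hR ha
  · by_cases hk : k = 0
    · subst hk
      have h2 := chi0_mem i j hs hη hR (k := 0) ha
      have h3 := U0_chi0 i j hs hij hη hR (k := 0) ha
      rw [chi0_zero] at h2 h3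
      rw [chi_zero]
      unfold U
      rw [if_pos (mem_union_OO i j h2), h3]
      unfold wv
      rw [if_pos rfl, if_pos rfl, W0_Rt]
    · unfold U
      simp only [Fin.mk_one, Fin.isValue] at *
      rw [if_neg (not_mem_union_OO i j hij hk h)]
      have : chi i j hs r 1 k a = Rsw i j (chi0 i hs r k (Rsw i j a)) := by
        unfold chi; rw [if_neg (by decide)]
      rw [this, Rsw_Rsw, U0_chi0 i j hs hij hη hR (R_mem_closedBall i j ha)]
      unfold Rt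
      rw [if_neg (by decide)]

lemma wv_le {η : ℝ} (hR : Rad i hs η r) {k : Fin 3} (hk : k ≠ 0) {a : V d}
    (ha : a ∈ Metric.closedBall (0 : V d) r) : |wv i hs k a| ≤ η := by
  unfold wv
  rw [if_neg hk]
  split_ifs
  · exact hR.ub a ha
  · exact hR.w2 a ha

lemma wv_zero_le {a : V d} : wv i hs 0 a ≤ x0 s := by
  unfold wv
  rw [if_pos rfl]
  unfold W0
  have h1 := tt_pos s
  have : 0 ≤ KK s := by unfold KK; positivity
  nlinarith [sq_nonneg ‖a‖, mul_nonneg this (sq_nonneg ‖a‖)]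

lemma U_le (hij : i ≠ j) {η : ℝ} (hη : Eta s η) (hR : Rad i hs η r) {t : Fin 2} {k : Fin 3}
    {a : V d} (ha : a ∈ Metric.closedBall (0 : V d) r) : U i j hs r (chi i j hs r t k a) ≤ x0 s := by
  rw [U_chi i j hs hij hη.lt hR ha]
  by_cases hk : k = 0
  · subst hk; exact wv_zero_le i hs
  · have := (abs_le.1 (wv_le i hs hR hk (Rt_mem i j (t := t) ha))).2
    have := x0_ge s
    have := hη.lt
    linarith

lemma U_le' (hij : i ≠ j) {η : ℝ} (hη : Eta s η) (hR : Rad i hs η r) {t : Fin 2} {k : Fin 3}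
    (hk : k ≠ 0) {a : V d} (ha : a ∈ Metric.closedBall (0 : V d) r) :
    U i j hs r (chi i j hs r t k a) ≤ η := by
  rw [U_chi i j hs hij hη.lt hR ha]
  exact (abs_le.1 (wv_le i hs hR hk (Rt_mem i j (t := t) ha))).2

/-- global bound -/
noncomputable def MM (s : ℝ) : ℝ := x0 s + KK s + 1

lemma MM_pos {s : ℝ} (hs : 0 < s) : 0 < MM s := by
  unfold MM
  have h1 := tt_pos s
  have : 0 ≤ KK s := by unfold KK; positivity
  have := x0_ge s
  linarith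

lemma abs_U_le (hij : i ≠ j) {η : ℝ} (hη : Eta s η) (hR : Rad i hs η r) {t : Fin 2} {k : Fin 3}
    {a : V d} (ha : a ∈ Metric.closedBall (0 : V d) r) : |U i j hs r (chi i j hs r t k a)| ≤ MM s := by
  rw [U_chi i j hs hij hη.lt hR ha]
  have h1 := tt_pos s
  have hK : 0 ≤ KK s := by unfold KK; positivity
  have hx := x0_ge s
  have hl := hη.lt
  have hp := hη.pos
  by_cases hk : k = 0
  · subst hk
    rw [abs_le]
    constructor
    · unfold wv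
      rw [if_pos rfl]
      unfold W0 MM
      have h3 := hR.na _ (Rt_mem i j (t := t) ha)
      have h4 := norm_nonneg (Rt i j t a)
      have h5 : ‖Rt i j t a‖ ^ 2 ≤ 1 := by nlinarith
      nlinarith [mul_le_mul_of_nonneg_left h5 hK]
    · refine (wv_zero_le i hs).trans ?_
      unfold MM; linarith
  · refine (wv_le i hs hR hk (Rt_mem i j (t := t) ha)).trans ?_
    unfold MM; linarith

/-! ### the key inequality -/

/-- distance lower bounds inside the contact cluster -/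
lemma dist_bounds {η : ℝ} (hη : Eta s η) (hR : Rad i hs η r) {a : V d}
    (ha : a ∈ Metric.closedBall (0 : V d) r) :
    1 / 2 ≤ ‖a - bet i hs a‖ ∧ 1 / 2 ≤ ‖a - gam i hs a‖ ∧ 1 / 2 ≤ ‖bet i hs a - gam i hs a‖ := by
  have n1 := hR.na a ha
  have n2 := hR.nb a ha
  have n3 := hR.nc a ha
  have hl := hη.lt
  have he := norm_ev i
  refine ⟨?_, ?_, ?_⟩
  · have : ‖ev i‖ ≤ ‖a - bet i hs a‖ + ‖a‖ + ‖bet i hs a - ev i‖ := by
      calc ‖ev i‖ = ‖-(a - bet i hs a) + a - (bet i hs a - ev i)‖ := by congr 1; abel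
        _ ≤ ‖-(a - bet i hs a)‖ + ‖a‖ + ‖bet i hs a - ev i‖ :=
          (norm_sub_le _ _).trans (by gcongr; exact norm_add_le _ _)
        _ = _ := by rw [norm_neg]
    linarith
  · have : ‖ev i‖ ≤ ‖a - gam i hs a‖ + ‖a‖ + ‖gam i hs a - - ev i‖ := by
      calc ‖ev i‖ = ‖(a - gam i hs a) - a + (gam i hs a - - ev i)‖ := by congr 1; abel
        _ ≤ ‖a - gam i hs a‖ + ‖a‖ + ‖gam i hs a - - ev i‖ :=
          (norm_add_le _ _).trans (by gcongr; exact norm_sub_le _ _)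
    linarith
  · have : ‖(2 : ℝ) • ev i‖ ≤ ‖bet i hs a - gam i hs a‖ + ‖bet i hs a - ev i‖ + ‖gam i hs a - - ev i‖ := by
      calc ‖(2 : ℝ) • ev i‖ = ‖(bet i hs a - gam i hs a) - (bet i hs a - ev i) + (gam i hs a - - ev i)‖ := by
            congr 1; rw [two_smul]; abel
        _ ≤ _ := (norm_add_le _ _).trans (by gcongr; exact norm_sub_le _ _)
    rw [norm_smul, he, mul_one, Real.norm_eq_abs, abs_of_pos (by norm_num : (0:ℝ) < 2)] at this
    linarith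

/-- Contact inequality in the cluster `t = 0`. -/
lemma contact0 {η : ℝ} (hη : Eta s η) (hR : Rad i hs η r) {a₀ a₁ a₂ : V d}
    (h1 : a₁ ∈ Metric.closedBall (0 : V d) r)
    (h2 : a₂ ∈ Metric.closedBall (0 : V d) r)
    (n01 : a₀ ≠ bet i hs a₁) (n02 : a₀ ≠ gam i hs a₂) (n12 : bet i hs a₁ ≠ gam i hs a₂) :
    W0 s a₀ + UB i s (bet i hs a₁) + W2 i hs a₂ ≤ cR s a₀ (bet i hs a₁) (gam i hs a₂) ∧
    (W0 s a₀ + UB i s (bet i hs a₁) + W2 i hs a₂ = cR s a₀ (bet i hs a₁) (gam i hs a₂) →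
      a₀ = a₂ ∧ a₁ = a₂) := by
  obtain ⟨d1, d2, d3⟩ := dist_bounds i hs hη hR h2
  have key := local_key i hs (hR.e1 a₂ h2) (hR.e2 a₂ h2) d1 d2 d3 n01 n02 n12
  have htt := tt_pos s
  have hpos : 0 < 5 / 2 * (s / tt s) := by positivity
  constructor
  · have : 0 ≤ (5 / 2 * (s / tt s)) * (‖a₀ - a₂‖ ^ 2 + ‖bet i hs a₁ - bet i hs a₂‖ ^ 2) := by positivity
    linarith
  · intro h
    have h5 : (5 / 2 * (s / tt s)) * (‖a₀ - a₂‖ ^ 2 + ‖bet i hs a₁ - bet i hs a₂‖ ^ 2) ≤ 0 := by linarith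
    have h6 : ‖a₀ - a₂‖ ^ 2 + ‖bet i hs a₁ - bet i hs a₂‖ ^ 2 ≤ 0 := by
      by_contra h7
      push Not at h7
      have := mul_pos hpos h7
      linarith
    have h8 : ‖a₀ - a₂‖ ^ 2 = 0 := by nlinarith [sq_nonneg ‖a₀ - a₂‖, sq_nonneg ‖bet i hs a₁ - bet i hs a₂‖]
    have h9 : ‖bet i hs a₁ - bet i hs a₂‖ ^ 2 = 0 := by
      nlinarith [sq_nonneg ‖a₀ - a₂‖, sq_nonneg ‖bet i hs a₁ - bet i hs a₂‖]
    have h10 : a₀ = a₂ := by
      rw [sq_eq_zero_iff, norm_eq_zero, sub_eq_zero] at h8; exact h8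
    have h11 : bet i hs a₁ = bet i hs a₂ := by
      rw [sq_eq_zero_iff, norm_eq_zero, sub_eq_zero] at h9; exact h9
    refine ⟨h10, ?_⟩
    have h12 : (Hb i hs) a₁ = (Hb i hs) a₂ := h11
    exact (Hb i hs).injOn (hR.gb.sub h1) (hR.gb.sub h2) h12

lemma fin3_cases : ∀ k₂ k₃ : Fin 3, k₂ ≠ 0 → k₃ ≠ 0 → k₂ ≠ k₃ →
    (k₂ = 1 ∧ k₃ = 2) ∨ (k₂ = 2 ∧ k₃ = 1) := by decide

/-- contact relation -/
def Con (r : ℝ) (p₁ p₂ p₃ : V d) : Prop :=
  ∃ t k₁ k₂ k₃, k₁ ≠ k₂ ∧ k₁ ≠ k₃ ∧ k₂ ≠ k₃ ∧ ∃ a ∈ Metric.closedBall (0 : V d) r,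
    p₁ = chi i j hs r t k₁ a ∧ p₂ = chi i j hs r t k₂ a ∧ p₃ = chi i j hs r t k₃ a

lemma Con.swap12 {p₁ p₂ p₃ : V d} (h : Con i j hs r p₁ p₂ p₃) : Con i j hs r p₂ p₁ p₃ := by
  obtain ⟨t, k₁, k₂, k₃, a, b, c, x, hx, e1, e2, e3⟩ := h
  exact ⟨t, k₂, k₁, k₃, a.symm, c, b, x, hx, e2, e1, e3⟩

lemma Con.swap23 {p₁ p₂ p₃ : V d} (h : Con i j hs r p₁ p₂ p₃) : Con i j hs r p₁ p₃ p₂ := by
  obtain ⟨t, k₁, k₂, k₃, a, b, c, x, hx, e1, e2, e3⟩ := h
  exact ⟨t, k₁, k₃, k₂, b, a, c.symm, x, hx, e1, e3, e2⟩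

/-- the statement of the key inequality at a triple -/
def KeyAt (r : ℝ) (p₁ p₂ p₃ : V d) : Prop :=
  U i j hs r p₁ + U i j hs r p₂ + U i j hs r p₃ ≤ cR s p₁ p₂ p₃ ∧
  (U i j hs r p₁ + U i j hs r p₂ + U i j hs r p₃ = cR s p₁ p₂ p₃ → Con i j hs r p₁ p₂ p₃)

lemma KeyAt.swap12 {p₁ p₂ p₃ : V d} (h : KeyAt i j hs r p₂ p₁ p₃) : KeyAt i j hs r p₁ p₂ p₃ := by
  unfold KeyAt at *
  rw [cR_swap12 s p₁ p₂ p₃]
  refine ⟨by linarith [h.1], fun he => (h.2 (by linarith)).swap12⟩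

lemma KeyAt.swap23 {p₁ p₂ p₃ : V d} (h : KeyAt i j hs r p₁ p₃ p₂) : KeyAt i j hs r p₁ p₂ p₃ := by
  unfold KeyAt at *
  rw [cR_swap23 s p₁ p₂ p₃]
  refine ⟨by linarith [h.1], fun he => (h.2 (by linarith)).swap23⟩

lemma keyAt_of_lt {p₁ p₂ p₃ : V d}
    (h : U i j hs r p₁ + U i j hs r p₂ + U i j hs r p₃ < cR s p₁ p₂ p₃) : KeyAt i j hs r p₁ p₂ p₃ :=
  ⟨h.le, fun he => absurd he h.ne⟩

/-- two points in the same cluster -/
lemma key_same (hij : i ≠ j) {η : ℝ} (hη : Eta s η) (hR : Rad i hs η r) {t₁ t₂ t₃ : Fin 2}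
    {k₁ k₂ k₃ : Fin 3} {a₁ a₂ a₃ : V d} (h1 : a₁ ∈ Metric.closedBall (0 : V d) r)
    (h2 : a₂ ∈ Metric.closedBall (0 : V d) r) (h3 : a₃ ∈ Metric.closedBall (0 : V d) r)
    (hk : k₁ = k₂) (ht : k₁ = 0 ∨ t₁ = t₂)
    (hne : chi i j hs r t₁ k₁ a₁ ≠ chi i j hs r t₂ k₂ a₂) :
    KeyAt i j hs r (chi i j hs r t₁ k₁ a₁) (chi i j hs r t₂ k₂ a₂) (chi i j hs r t₃ k₃ a₃) := by
  apply keyAt_of_lt
  have u1 := U_le i j hs hij hη hR (t := t₁) (k := k₁) h1
  have u2 := U_le i j hs hij hη hR (t := t₂) (k := k₂) h2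
  have u3 := U_le i j hs hij hη hR (t := t₃) (k := k₃) h3
  have n1 := chi_near i j hs hR (t := t₁) (k := k₁) h1
  have n2 := chi_near i j hs hR (t := t₂) (k := k₂) h2
  have hz := zc_same (i := i) (j := j) hk ht
  have hd : ‖chi i j hs r t₁ k₁ a₁ - chi i j hs r t₂ k₂ a₂‖ ≤ 2 * η := by
    calc _ = ‖(chi i j hs r t₁ k₁ a₁ - zc i j t₁ k₁) - (chi i j hs r t₂ k₂ a₂ - zc i j t₂ k₂)‖ := by
          rw [hz]; congr 1; abel
      _ ≤ _ := (norm_sub_le _ _).trans (by linarith)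
  have hf := f_ge hs (sub_ne_zero.2 hne) hd
  have f1 := f_nonneg s (chi i j hs r t₁ k₁ a₁ - chi i j hs r t₃ k₃ a₃)
  have f2 := f_nonneg s (chi i j hs r t₂ k₂ a₂ - chi i j hs r t₃ k₃ a₃)
  have := hη.h1
  have := x0_ge s
  unfold cR
  linarith

/-- no point in the central cluster -/
lemma key_noncentral (hij : i ≠ j) {η : ℝ} (hη : Eta s η) (hR : Rad i hs η r) {t₁ t₂ t₃ : Fin 2}
    {k₁ k₂ k₃ : Fin 3} {a₁ a₂ a₃ : V d} (h1 : a₁ ∈ Metric.closedBall (0 : V d) r)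
    (h2 : a₂ ∈ Metric.closedBall (0 : V d) r) (h3 : a₃ ∈ Metric.closedBall (0 : V d) r)
    (hk1 : k₁ ≠ 0) (hk2 : k₂ ≠ 0) (hk3 : k₃ ≠ 0)
    (hne : chi i j hs r t₁ k₁ a₁ ≠ chi i j hs r t₂ k₂ a₂) :
    KeyAt i j hs r (chi i j hs r t₁ k₁ a₁) (chi i j hs r t₂ k₂ a₂) (chi i j hs r t₃ k₃ a₃) := by
  apply keyAt_of_lt
  have u1 := U_le' i j hs hij hη hR (t := t₁) hk1 h1
  have u2 := U_le' i j hs hij hη hR (t := t₂) hk2 h2
  have u3 := U_le' i j hs hij hη hR (t := t₃) hk3 h3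
  have n1 := chi_near i j hs hR (t := t₁) (k := k₁) h1
  have n2 := chi_near i j hs hR (t := t₂) (k := k₂) h2
  have hz := norm_zc_sub_le i j t₁ t₂ hk1 hk2
  have hl := hη.lt
  have hd : ‖chi i j hs r t₁ k₁ a₁ - chi i j hs r t₂ k₂ a₂‖ ≤ 3 := by
    calc _ = ‖(chi i j hs r t₁ k₁ a₁ - zc i j t₁ k₁) - (chi i j hs r t₂ k₂ a₂ - zc i j t₂ k₂) +
          (zc i j t₁ k₁ - zc i j t₂ k₂)‖ := by congr 1; abel
      _ ≤ ‖chi i j hs r t₁ k₁ a₁ - zc i j t₁ k₁‖ + ‖chi i j hs r t₂ k₂ a₂ - zc i j t₂ k₂‖ +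
          ‖zc i j t₁ k₁ - zc i j t₂ k₂‖ := (norm_add_le _ _).trans (by gcongr; exact norm_sub_le _ _)
      _ ≤ _ := by linarith
  have hf := f_ge hs (sub_ne_zero.2 hne) hd
  have f1 := f_nonneg s (chi i j hs r t₁ k₁ a₁ - chi i j hs r t₃ k₃ a₃)
  have f2 := f_nonneg s (chi i j hs r t₂ k₂ a₂ - chi i j hs r t₃ k₃ a₃)
  have := hη.h3
  unfold cR
  linarith

/-- first point central, other two not. -/
lemma key_central (hij : i ≠ j) {η : ℝ} (hη : Eta s η) (hR : Rad i hs η r) {t₁ t₂ t₃ : Fin 2}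
    {k₂ k₃ : Fin 3} {a₁ a₂ a₃ : V d} (h1 : a₁ ∈ Metric.closedBall (0 : V d) r)
    (h2 : a₂ ∈ Metric.closedBall (0 : V d) r) (h3 : a₃ ∈ Metric.closedBall (0 : V d) r)
    (hk2 : k₂ ≠ 0) (hk3 : k₃ ≠ 0)
    (hne12 : chi i j hs r t₁ 0 a₁ ≠ chi i j hs r t₂ k₂ a₂)
    (hne13 : chi i j hs r t₁ 0 a₁ ≠ chi i j hs r t₃ k₃ a₃)
    (hne23 : chi i j hs r t₂ k₂ a₂ ≠ chi i j hs r t₃ k₃ a₃) :
    KeyAt i j hs r (chi i j hs r t₁ 0 a₁) (chi i j hs r t₂ k₂ a₂) (chi i j hs r t₃ k₃ a₃) := by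
  by_cases ht : t₂ = t₃
  · subst ht
    by_cases hk : k₂ = k₃
    · -- same cluster
      have := key_same i j hs hij hη hR (t₁ := t₂) (t₂ := t₂) (t₃ := t₁) (k₁ := k₂) (k₂ := k₃)
        (k₃ := 0) h2 h3 h1 hk (Or.inr rfl) hne23
      exact (this.swap23).swap12
    · -- contact
      have hchi1 : chi i j hs r t₁ 0 a₁ = chi i j hs r t₂ 0 a₁ := by rw [chi_zero, chi_zero]
      rw [hchi1] at hne12 hne13 ⊢
      -- the two orders
      have main : ∀ {b₁ b₂ b₃ : V d}, b₁ ∈ Metric.closedBall (0 : V d) r →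
          b₂ ∈ Metric.closedBall (0 : V d) r → b₃ ∈ Metric.closedBall (0 : V d) r →
          chi i j hs r t₂ 0 b₁ ≠ chi i j hs r t₂ 1 b₂ → chi i j hs r t₂ 0 b₁ ≠ chi i j hs r t₂ 2 b₃ →
          chi i j hs r t₂ 1 b₂ ≠ chi i j hs r t₂ 2 b₃ →
          KeyAt i j hs r (chi i j hs r t₂ 0 b₁) (chi i j hs r t₂ 1 b₂) (chi i j hs r t₂ 2 b₃) := by
        intro b₁ b₂ b₃ g1 g2 g3 n12 n13 n23
        have q1 := Rt_mem i j (t := t₂) g1
        have q2 := Rt_mem i j (t := t₂) g2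
        have q3 := Rt_mem i j (t := t₂) g3
        rw [chi_eq_Rt, chi_eq_Rt i j hs t₂ 1] at n12
        rw [chi_eq_Rt, chi_eq_Rt i j hs t₂ 2] at n13
        rw [chi_eq_Rt, chi_eq_Rt i j hs t₂ 2] at n23
        have m12 : chi0 i hs r 0 (Rt i j t₂ b₁) ≠ chi0 i hs r 1 (Rt i j t₂ b₂) := fun h => n12 (by rw [h])
        have m13 : chi0 i hs r 0 (Rt i j t₂ b₁) ≠ chi0 i hs r 2 (Rt i j t₂ b₃) := fun h => n13 (by rw [h])
        have m23 : chi0 i hs r 1 (Rt i j t₂ b₂) ≠ chi0 i hs r 2 (Rt i j t₂ b₃) := fun h => n23 (by rw [h])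
        rw [chi0_zero, chi0_one, betM_eq i hs q2] at m12
        rw [chi0_zero, chi0_two, gamM_eq i hs q3] at m13
        rw [chi0_one, chi0_two, betM_eq i hs q2, gamM_eq i hs q3] at m23
        have hc := contact0 i hs hη hR q2 q3 m12 m13 m23
        have hcR : cR s (chi i j hs r t₂ 0 b₁) (chi i j hs r t₂ 1 b₂) (chi i j hs r t₂ 2 b₃) =
            cR s (Rt i j t₂ b₁) (bet i hs (Rt i j t₂ b₂)) (gam i hs (Rt i j t₂ b₃)) := by
          rw [chi_eq_Rt, chi_eq_Rt i j hs t₂ 1, chi_eq_Rt i j hs t₂ 2, cR_Rt, chi0_zero, chi0_one,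
            chi0_two, betM_eq i hs q2, gamM_eq i hs q3]
        have hU1 : U i j hs r (chi i j hs r t₂ 0 b₁) = W0 s (Rt i j t₂ b₁) := by
          rw [U_chi i j hs hij hη.lt hR g1]; unfold wv; rw [if_pos rfl]
        have hU2 : U i j hs r (chi i j hs r t₂ 1 b₂) = UB i s (bet i hs (Rt i j t₂ b₂)) := by
          rw [U_chi i j hs hij hη.lt hR g2]; unfold wv; rw [if_neg (by decide), if_pos rfl]
        have hU3 : U i j hs r (chi i j hs r t₂ 2 b₃) = W2 i hs (Rt i j t₂ b₃) := by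
          rw [U_chi i j hs hij hη.lt hR g3]; unfold wv; rw [if_neg (by decide), if_neg (by decide)]
        unfold KeyAt
        rw [hcR, hU1, hU2, hU3]
        refine ⟨hc.1, fun he => ?_⟩
        obtain ⟨z1, z2⟩ := hc.2 he
        have y1 : b₁ = b₃ := by rw [← Rt_Rt i j t₂ b₁, z1, Rt_Rt]
        have y2 : b₂ = b₃ := by rw [← Rt_Rt i j t₂ b₂, z2, Rt_Rt]
        subst y1; subst y2
        exact ⟨t₂, 0, 1, 2, by decide, by decide, by decide, _, g1, rfl, rfl, rfl⟩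
      have hcases : (k₂ = 1 ∧ k₃ = 2) ∨ (k₂ = 2 ∧ k₃ = 1) := fin3_cases k₂ k₃ hk2 hk3 hk
      rcases hcases with ⟨e2, e3⟩ | ⟨e2, e3⟩
      · subst e2; subst e3
        exact main h1 h2 h3 hne12 hne13 hne23
      · subst e2; subst e3
        exact (main h1 h3 h2 hne13 hne12 hne23.symm).swap23
  · -- adjacent clusters
    apply keyAt_of_lt
    have u1 := U_le i j hs hij hη hR (t := t₁) (k := 0) h1
    have u2 := U_le' i j hs hij hη hR (t := t₂) hk2 h2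
    have u3 := U_le' i j hs hij hη hR (t := t₃) hk3 h3
    have n1 := chi_near i j hs hR (t := t₁) (k := 0) h1
    have n2 := chi_near i j hs hR (t := t₂) (k := k₂) h2
    have n3 := chi_near i j hs hR (t := t₃) (k := k₃) h3
    rw [zc_zero, sub_zero] at n1
    have z2 := norm_zc i j t₂ hk2
    have z3 := norm_zc i j t₃ hk3
    have z23 := norm_zc_sub_adj hij ht hk2 hk3
    have d12 : ‖chi i j hs r t₁ 0 a₁ - chi i j hs r t₂ k₂ a₂‖ ≤ 1 + 2 * η := by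
      calc _ = ‖chi i j hs r t₁ 0 a₁ - (chi i j hs r t₂ k₂ a₂ - zc i j t₂ k₂) - zc i j t₂ k₂‖ := by
            congr 1; abel
        _ ≤ ‖chi i j hs r t₁ 0 a₁‖ + ‖chi i j hs r t₂ k₂ a₂ - zc i j t₂ k₂‖ + ‖zc i j t₂ k₂‖ :=
          (norm_sub_le _ _).trans (by gcongr; exact norm_sub_le _ _)
        _ ≤ _ := by linarith
    have d13 : ‖chi i j hs r t₁ 0 a₁ - chi i j hs r t₃ k₃ a₃‖ ≤ 1 + 2 * η := by
      calc _ = ‖chi i j hs r t₁ 0 a₁ - (chi i j hs r t₃ k₃ a₃ - zc i j t₃ k₃) - zc i j t₃ k₃‖ := by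
            congr 1; abel
        _ ≤ ‖chi i j hs r t₁ 0 a₁‖ + ‖chi i j hs r t₃ k₃ a₃ - zc i j t₃ k₃‖ + ‖zc i j t₃ k₃‖ :=
          (norm_sub_le _ _).trans (by gcongr; exact norm_sub_le _ _)
        _ ≤ _ := by linarith
    have d23 : ‖chi i j hs r t₂ k₂ a₂ - chi i j hs r t₃ k₃ a₃‖ ≤ Real.sqrt 2 + 2 * η := by
      calc _ = ‖(chi i j hs r t₂ k₂ a₂ - zc i j t₂ k₂) - (chi i j hs r t₃ k₃ a₃ - zc i j t₃ k₃) +
            (zc i j t₂ k₂ - zc i j t₃ k₃)‖ := by congr 1; abel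
        _ ≤ ‖chi i j hs r t₂ k₂ a₂ - zc i j t₂ k₂‖ + ‖chi i j hs r t₃ k₃ a₃ - zc i j t₃ k₃‖ +
            ‖zc i j t₂ k₂ - zc i j t₃ k₃‖ := (norm_add_le _ _).trans (by gcongr; exact norm_sub_le _ _)
        _ ≤ _ := by rw [z23]; linarith
    have f1 := f_ge hs (sub_ne_zero.2 hne12) d12
    have f2 := f_ge hs (sub_ne_zero.2 hne13) d13
    have f3 := f_ge hs (sub_ne_zero.2 hne23) d23
    have := hη.h2
    unfold cR
    linarith

/-- **Key inequality for all triples of points in the clusters.** -/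
lemma key_all (hij : i ≠ j) {η : ℝ} (hη : Eta s η) (hR : Rad i hs η r) {t₁ t₂ t₃ : Fin 2}
    {k₁ k₂ k₃ : Fin 3} {a₁ a₂ a₃ : V d} (h1 : a₁ ∈ Metric.closedBall (0 : V d) r)
    (h2 : a₂ ∈ Metric.closedBall (0 : V d) r) (h3 : a₃ ∈ Metric.closedBall (0 : V d) r)
    (hne12 : chi i j hs r t₁ k₁ a₁ ≠ chi i j hs r t₂ k₂ a₂)
    (hne13 : chi i j hs r t₁ k₁ a₁ ≠ chi i j hs r t₃ k₃ a₃)
    (hne23 : chi i j hs r t₂ k₂ a₂ ≠ chi i j hs r t₃ k₃ a₃) :
    KeyAt i j hs r (chi i j hs r t₁ k₁ a₁) (chi i j hs r t₂ k₂ a₂) (chi i j hs r t₃ k₃ a₃) := by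
  by_cases c1 : k₁ = 0
  · subst c1
    by_cases c2 : k₂ = 0
    · exact key_same i j hs hij hη hR h1 h2 h3 c2.symm (Or.inl rfl) hne12
    by_cases c3 : k₃ = 0
    · exact (key_same i j hs hij hη hR (t₃ := t₂) (k₃ := k₂) h1 h3 h2 c3.symm (Or.inl rfl) hne13).swap23
    exact key_central i j hs hij hη hR h1 h2 h3 c2 c3 hne12 hne13 hne23
  · by_cases c2 : k₂ = 0
    · subst c2
      by_cases c3 : k₃ = 0
      · exact ((key_same i j hs hij hη hR (t₁ := t₂) (t₂ := t₃) (t₃ := t₁) (k₁ := 0) (k₂ := k₃)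
          (k₃ := k₁) h2 h3 h1 c3.symm (Or.inl rfl) hne23).swap23).swap12
      · exact (key_central i j hs hij hη hR h2 h1 h3 c1 c3 hne12.symm hne23 hne13).swap12
    · by_cases c3 : k₃ = 0
      · subst c3
        exact ((key_central i j hs hij hη hR h3 h1 h2 c1 c2 hne13.symm hne23.symm hne12).swap12).swap23
      · exact key_noncentral i j hs hij hη hR h1 h2 h3 c1 c2 c3 hne12

end pot

end Crest.Agent.H1.MM
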