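import Mathlib
import Crest.Prelude.Def_MultiMarginal
import Crest.Agent.H1.MM12
import Crest.Agent.H1.MM8

set_option autoImplicit false
open scoped ENNReal ContDiff RealInnerProductSpace Topology
open MeasureTheory Crest.AnalysisR.OT

namespace Crest.Agent.H1.MM

variable {d : ℕ}

/-! ### the cost as a real number -/

lemma pairCost_self {s : ℝ} (hs : 0 < s) (x : V d) : pairCost s x x = ⊤ := by
  unfold pairCost
  rw [sub_self, norm_zero, ENNReal.ofReal_zero, ENNReal.zero_rpow_of_neg (by linarith)]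

lemma pairCost_eq (s : ℝ) {x y : V d} (h : x ≠ y) :
    pairCost s x y = ENNReal.ofReal (f s (x - y)) := by
  unfold pairCost f
  rw [ENNReal.ofReal_rpow_of_pos (norm_pos_iff.2 (sub_ne_zero.2 h))]

lemma cR_nonneg (s : ℝ) (x y z : V d) : 0 ≤ cR s x y z := by
  unfold cR
  exact add_nonneg (add_nonneg (f_nonneg _ _) (f_nonneg _ _)) (f_nonneg _ _)

lemma tc_eq (s : ℝ) {x y z : V d} (h1 : x ≠ y) (h2 : x ≠ z) (h3 : y ≠ z) :
    tripleCost s (x, y, z) = ENNReal.ofReal (cR s x y z) := by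
  unfold tripleCost cR
  simp only
  rw [pairCost_eq s h1, pairCost_eq s h2, pairCost_eq s h3,
    ← ENNReal.ofReal_add (f_nonneg _ _) (f_nonneg _ _),
    ← ENNReal.ofReal_add (add_nonneg (f_nonneg _ _) (f_nonneg _ _)) (f_nonneg _ _)]

lemma tc_top {s : ℝ} (hs : 0 < s) {x y z : V d} (h : x = y ∨ x = z ∨ y = z) :
    tripleCost s (x, y, z) = ⊤ := by
  unfold tripleCost
  rcases h with h | h | h <;> subst h <;> simp [pairCost_self hs]

/-! ### the ENNReal potential -/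

section pot

variable (i j : Fin d) {s : ℝ} (hs : 0 < s) (r : ℝ)

noncomputable def vE (x : V d) : ℝ≥0∞ :=
  ENNReal.ofReal (min (U i j hs r x + MM s) (2 * MM s))

variable {r}

lemma measurable_vE {η : ℝ} (hR : Rad i hs η r) : Measurable (vE i j hs r) := by
  unfold vE
  have := measurable_U i j hs hR
  fun_prop

lemma vE_le (x : V d) : vE i j hs r x ≤ ENNReal.ofReal (2 * MM s) := by
  unfold vE
  exact ENNReal.ofReal_le_ofReal (min_le_right _ _)

lemma vE_chi (hij : i ≠ j) {η : ℝ} (hη : Eta s η) (hR : Rad i hs η r) {t : Fin 2} {k : Fin 3}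
    {a : V d} (ha : a ∈ Metric.closedBall (0 : V d) r) :
    vE i j hs r (chi i j hs r t k a) = ENNReal.ofReal (U i j hs r (chi i j hs r t k a) + MM s) ∧
    0 ≤ U i j hs r (chi i j hs r t k a) + MM s := by
  have h := abs_le.1 (abs_U_le i j hs hij hη hR (t := t) (k := k) ha)
  refine ⟨?_, by linarith⟩
  unfold vE
  rw [min_eq_left (by linarith)]

lemma exists_perm3 : ∀ k₁ k₂ k₃ : Fin 3, k₁ ≠ k₂ → k₁ ≠ k₃ → k₂ ≠ k₃ →
    ∃ σ : Equiv.Perm (Fin 3), σ 0 = k₁ ∧ σ 1 = k₂ ∧ σ 2 = k₃ := by decide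

lemma chi_ne (hij : i ≠ j) {η : ℝ} (hη : Eta s η) (hR : Rad i hs η r) {t : Fin 2} {k k' : Fin 3}
    (hk : k ≠ k') {a a' : V d} (ha : a ∈ Metric.closedBall (0 : V d) r)
    (ha' : a' ∈ Metric.closedBall (0 : V d) r) : chi i j hs r t k a ≠ chi i j hs r t k' a' := by
  intro h
  have h1 := chi_mem_OO i j hs hη.lt hR (t := t) (k := k) ha
  have h2 := chi_mem_OO i j hs hη.lt hR (t := t) (k := k') ha'
  rw [h] at h1
  exact hk (OO_disj i j hij h1 h2).1

lemma sum_wv (a : V d) : wv i hs 0 a + wv i hs 1 a + wv i hs 2 a =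
    cR s a (bet i hs a) (gam i hs a) := by
  have h0 : wv i hs 0 a = W0 s a := by unfold wv; rw [if_pos rfl]
  have h1 : wv i hs 1 a = UB i s (bet i hs a) := by
    unfold wv; rw [if_neg (by decide), if_pos rfl]
  have h2 : wv i hs 2 a = W2 i hs a := by
    unfold wv; rw [if_neg (by decide), if_neg (by decide)]
  rw [h0, h1, h2]; unfold W2; ring

/-- `F₀`, the gap function -/
noncomputable def gap (p : V d × V d × V d) : ℝ :=
  cR s p.1 (bet i hs p.2.1) (gam i hs p.2.2) - (wv i hs 0 p.1 + wv i hs 1 p.2.1 + wv i hs 2 p.2.2)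

lemma gap_diag (a : V d) : gap i hs (a, a, a) = 0 := by
  unfold gap; simp only; rw [sum_wv]; ring

lemma cR_chi {η : ℝ} {t : Fin 2} {a₀ a₁ a₂ : V d}
    (h1 : a₁ ∈ Metric.closedBall (0 : V d) r) (h2 : a₂ ∈ Metric.closedBall (0 : V d) r) :
    cR s (chi i j hs r t 0 a₀) (chi i j hs r t 1 a₁) (chi i j hs r t 2 a₂) =
    cR s (Rt i j t a₀) (bet i hs (Rt i j t a₁)) (gam i hs (Rt i j t a₂)) := by
  rw [chi_eq_Rt, chi_eq_Rt i j hs t 1, chi_eq_Rt i j hs t 2, cR_Rt, chi0_zero, chi0_one,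
    chi0_two, betM_eq i hs (Rt_mem i j h1), gamM_eq i hs (Rt_mem i j h2)]

lemma gap_chi (hij : i ≠ j) {η : ℝ} (hη : Eta s η) (hR : Rad i hs η r) {t : Fin 2} {a₀ a₁ a₂ : V d}
    (h0 : a₀ ∈ Metric.closedBall (0 : V d) r)
    (h1 : a₁ ∈ Metric.closedBall (0 : V d) r) (h2 : a₂ ∈ Metric.closedBall (0 : V d) r) :
    cR s (chi i j hs r t 0 a₀) (chi i j hs r t 1 a₁) (chi i j hs r t 2 a₂) =
      U i j hs r (chi i j hs r t 0 a₀) + U i j hs r (chi i j hs r t 1 a₁) +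
      U i j hs r (chi i j hs r t 2 a₂) +
      gap i hs (Rt i j t a₀, Rt i j t a₁, Rt i j t a₂) := by
  rw [U_chi i j hs hij hη.lt hR h0, U_chi i j hs hij hη.lt hR h1, U_chi i j hs hij hη.lt hR h2,
    cR_chi i j hs (η := η) h1 h2]
  unfold gap; simp only; ring

lemma continuousOn_W2 (hij : i ≠ j) {η : ℝ} (hη : Eta s η) (hR : Rad i hs η r) :
    ContinuousOn (W2 i hs) (Metric.closedBall (0 : V d) r) := by
  intro a ha
  refine (continuousAt_W2 i hs (hR.gb.smooth a ha).continuousAt (hR.gg.smooth a ha).continuousAt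
    ?_ ?_ ?_).continuousWithinAt
  · obtain ⟨d1, d2, d3⟩ := dist_bounds i hs hη hR ha
    exact norm_pos_iff.1 (by linarith)
  · obtain ⟨d1, d2, d3⟩ := dist_bounds i hs hη hR ha
    exact norm_pos_iff.1 (by linarith)
  · obtain ⟨d1, d2, d3⟩ := dist_bounds i hs hη hR ha
    exact norm_pos_iff.1 (by linarith)

lemma continuousOn_gap (hij : i ≠ j) {η : ℝ} (hη : Eta s η) (hR : Rad i hs η r) :
    ContinuousOn (gap i hs) (Metric.closedBall (0 : V d) r ×ˢ (Metric.closedBall (0 : V d) r ×ˢ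
      Metric.closedBall (0 : V d) r)) := by
  set A := Metric.closedBall (0 : V d) r
  have p1 : ContinuousOn (fun p : V d × V d × V d => p.1) (A ×ˢ (A ×ˢ A)) := continuous_fst.continuousOn
  have p2 : ContinuousOn (fun p : V d × V d × V d => bet i hs p.2.1) (A ×ˢ (A ×ˢ A)) :=
    (continuousOn_bet i hs hR).comp (by fun_prop) (fun p hp => hp.2.1)
  have p3 : ContinuousOn (fun p : V d × V d × V d => gam i hs p.2.2) (A ×ˢ (A ×ˢ A)) :=
    (continuousOn_gam i hs hR).comp (by fun_prop) (fun p hp => hp.2.2)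
  have hf : ∀ {u v : V d × V d × V d → V d}, ContinuousOn u (A ×ˢ (A ×ˢ A)) →
      ContinuousOn v (A ×ˢ (A ×ˢ A)) → (∀ p ∈ (A ×ˢ (A ×ˢ A)), u p ≠ v p) →
      ContinuousOn (fun p => f s (u p - v p)) (A ×ˢ (A ×ˢ A)) := by
    intro u v hu hv hne p hp
    have h1 : ContinuousWithinAt (fun p => u p - v p) (A ×ˢ (A ×ˢ A)) p := (hu p hp).sub (hv p hp)
    exact ContinuousAt.comp_continuousWithinAt (g := f s) (f := fun p => u p - v p)
      (continuousAt_f s (sub_ne_zero.2 (hne p hp))) h1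
  have hchi : ∀ {k k' : Fin 3}, k ≠ k' → ∀ a ∈ A, ∀ a' ∈ A, chi0 i hs r k a ≠ chi0 i hs r k' a' := by
    intro k k' hk a ha a' ha'
    exact chi_ne i j hs hij hη hR (t := 0) hk ha ha'
  have n1 : ∀ p ∈ (A ×ˢ (A ×ˢ A)), p.1 ≠ bet i hs p.2.1 := by
    intro p hp
    have := hchi (k := 0) (k' := 1) (by decide) p.1 hp.1 p.2.1 hp.2.1
    rwa [chi0_zero, chi0_one, betM_eq i hs hp.2.1] at this
  have n2 : ∀ p ∈ (A ×ˢ (A ×ˢ A)), p.1 ≠ gam i hs p.2.2 := by
    intro p hp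
    have := hchi (k := 0) (k' := 2) (by decide) p.1 hp.1 p.2.2 hp.2.2
    rwa [chi0_zero, chi0_two, gamM_eq i hs hp.2.2] at this
  have n3 : ∀ p ∈ (A ×ˢ (A ×ˢ A)), bet i hs p.2.1 ≠ gam i hs p.2.2 := by
    intro p hp
    have := hchi (k := 1) (k' := 2) (by decide) p.2.1 hp.2.1 p.2.2 hp.2.2
    rwa [chi0_one, chi0_two, betM_eq i hs hp.2.1, gamM_eq i hs hp.2.2] at this
  have w0 : ContinuousOn (fun p : V d × V d × V d => wv i hs 0 p.1) (A ×ˢ (A ×ˢ A)) := by
    have : (fun p : V d × V d × V d => wv i hs 0 p.1) = fun p => W0 s p.1 := by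
      ext1 p; unfold wv; rw [if_pos rfl]
    rw [this]
    unfold W0; fun_prop
  have w1 : ContinuousOn (fun p : V d × V d × V d => wv i hs 1 p.2.1) (A ×ˢ (A ×ˢ A)) := by
    have : (fun p : V d × V d × V d => wv i hs 1 p.2.1) = fun p => UB i s (bet i hs p.2.1) := by
      ext1 p; unfold wv; rw [if_neg (by decide), if_pos rfl]
    rw [this]
    exact (continuous_UB i).comp_continuousOn p2
  have w2 : ContinuousOn (fun p : V d × V d × V d => wv i hs 2 p.2.2) (A ×ˢ (A ×ˢ A)) := by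
    have : (fun p : V d × V d × V d => wv i hs 2 p.2.2) = fun p => W2 i hs p.2.2 := by
      ext1 p; unfold wv; rw [if_neg (by decide), if_neg (by decide)]
    rw [this]
    exact (continuousOn_W2 i j hs hij hη hR).comp (by fun_prop) (fun p hp => hp.2.2)
  unfold gap cR
  exact (((hf p1 p2 n1).add (hf p1 p3 n2)).add (hf p2 p3 n3)).sub ((w0.add w1).add w2)

lemma gap_near (hij : i ≠ j) {η : ℝ} (hη : Eta s η) (hR : Rad i hs η r) {ε : ℝ} (hε : 0 < ε) :
    ∃ δ : ℝ, 0 < δ ∧ ∀ a₀ ∈ Metric.closedBall (0 : V d) r, ∀ a₁ ∈ Metric.closedBall (0 : V d) r,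
      ∀ a₂ ∈ Metric.closedBall (0 : V d) r, dist a₀ a₁ < δ → dist a₀ a₂ < δ →
      gap i hs (a₀, a₁, a₂) < ε := by
  have hK : IsCompact (Metric.closedBall (0 : V d) r ×ˢ (Metric.closedBall (0 : V d) r ×ˢ
      Metric.closedBall (0 : V d) r)) :=
    (isCompact_closedBall _ _).prod ((isCompact_closedBall _ _).prod (isCompact_closedBall _ _))
  have hU := hK.uniformContinuousOn_of_continuous (continuousOn_gap i j hs hij hη hR)
  rw [Metric.uniformContinuousOn_iff] at hU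
  obtain ⟨δ, hδ, h⟩ := hU ε hε
  refine ⟨δ, hδ, fun a₀ h0 a₁ h1 a₂ h2 d1 d2 => ?_⟩
  have h3 := h (a₀, a₁, a₂) ⟨h0, h1, h2⟩ (a₀, a₀, a₀) ⟨h0, h0, h0⟩ (by
    rw [Prod.dist_eq, Prod.dist_eq]
    simp only [dist_self]
    exact max_lt hδ (max_lt (by rwa [dist_comm]) (by rwa [dist_comm])))
  rw [gap_diag, Real.dist_eq, sub_zero] at h3
  exact lt_of_le_of_lt (le_abs_self _) h3

lemma dist_Rt (t : Fin 2) (a b : V d) : dist (Rt i j t a) (Rt i j t b) = dist a b := by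
  unfold Rt; split_ifs
  · rfl
  · exact (Rsw i j).dist_map a b

end pot

end Crest.Agent.H1.MM
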