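import Mathlib
import Crest.Prelude.Def_MultiMarginal
import Crest.Agent.H1.MM13

set_option autoImplicit false
open scoped ENNReal ContDiff RealInnerProductSpace Topology
open MeasureTheory Crest.AnalysisR.OT

namespace Crest.Agent.H1.MM

variable {d : ℕ}

/-- radial bump -/
noncomputable def gB (r : ℝ) (x : V d) : ℝ := expNegInvGlue (r ^ 2 - ‖x‖ ^ 2)

lemma gB_nonneg (r : ℝ) (x : V d) : 0 ≤ gB r x := expNegInvGlue.nonneg _

lemma gB_zero {r : ℝ} (hr : 0 < r) (x : V d) (hx : x ∉ Metric.closedBall (0 : V d) r) :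
    gB r x = 0 := by
  rw [mem_closedBall_zero_iff, not_le] at hx
  exact expNegInvGlue.zero_of_nonpos (by nlinarith)

lemma gB_contDiff (r : ℝ) : ContDiff ℝ ∞ (gB r : V d → ℝ) := by
  unfold gB
  exact expNegInvGlue.contDiff.comp (contDiff_const.sub (contDiff_norm_sq ℝ))

lemma gB_pos {r : ℝ} (hr : 0 < r) : 0 < gB r (0 : V d) :=
  expNegInvGlue.pos_of_pos (by simp; positivity)

lemma gB_cs {r : ℝ} (hr : 0 < r) : HasCompactSupport (gB r : V d → ℝ) :=
  HasCompactSupport.intro (isCompact_closedBall (0 : V d) r) (fun x hx => gB_zero hr x hx)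

noncomputable def kap (d : ℕ) (r : ℝ) : ℝ := (6 * ∫ x : V d, gB r x ^ 2)⁻¹

lemma integral_gB_pos {r : ℝ} (hr : 0 < r) : 0 < ∫ x : V d, gB r x ^ 2 := by
  have hc : Continuous (fun x : V d => gB r x ^ 2) := (gB_contDiff r).continuous.pow 2
  have hcs : HasCompactSupport (fun x : V d => gB r x ^ 2) := by
    have := (gB_cs (d := d) hr).comp_left (g := fun t : ℝ => t ^ 2) (by simp)
    exact this
  rw [integral_pos_iff_support_of_nonneg (fun x => sq_nonneg _) (hc.integrable_of_hasCompactSupport hcs)]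
  refine (hc.isOpen_support).measure_pos _ ⟨0, ?_⟩
  rw [Function.mem_support]
  exact pow_ne_zero 2 (gB_pos hr).ne'

lemma kap_pos {r : ℝ} (hr : 0 < r) : 0 < kap d r := by
  unfold kap
  have := integral_gB_pos (d := d) hr
  positivity

noncomputable def mB (d : ℕ) (r : ℝ) : Measure (V d) := measOfDensity (fun x => kap d r * gB r x ^ 2)

lemma mB_univ {r : ℝ} (hr : 0 < r) : mB d r Set.univ = 6⁻¹ := by
  have hc : Continuous (fun x : V d => gB r x ^ 2) := (gB_contDiff r).continuous.pow 2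
  have hcs : HasCompactSupport (fun x : V d => gB r x ^ 2) := by
    have := (gB_cs (d := d) hr).comp_left (g := fun t : ℝ => t ^ 2) (by simp)
    exact this
  have hi := (hc.integrable_of_hasCompactSupport (μ := volume) hcs).const_mul (kap d r)
  unfold mB measOfDensity
  rw [withDensity_apply _ MeasurableSet.univ, setLIntegral_univ,
    ← ofReal_integral_eq_lintegral_ofReal hi
      (Filter.Eventually.of_forall (fun x => mul_nonneg (kap_pos hr).le (sq_nonneg _))),
    integral_const_mul]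
  have h1 := integral_gB_pos (d := d) hr
  have h2 : kap d r * ∫ x : V d, gB r x ^ 2 = 6⁻¹ := by
    unfold kap
    field_simp
  rw [h2, ENNReal.ofReal_inv_of_pos (by norm_num)]
  norm_num

lemma mB_ae {r : ℝ} (hr : 0 < r) : ∀ᵐ a ∂(mB d r), a ∈ Metric.closedBall (0 : V d) r := by
  unfold mB measOfDensity
  have hm : Measurable (fun x : V d => ENNReal.ofReal (kap d r * gB r x ^ 2)) := by
    have := (gB_contDiff (d := d) r).continuous.measurable
    fun_prop
  rw [ae_withDensity_iff hm]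
  refine Filter.Eventually.of_forall (fun x hx => ?_)
  by_contra h
  apply hx
  rw [gB_zero hr x h]; simp

/-! ### the instance -/

section inst

variable (i j : Fin d) {s : ℝ} (hs : 0 < s) {r : ℝ}

noncomputable def XX (r : ℝ) : Set (V d) :=
  ⋃ t : Fin 2, ⋃ k : Fin 3, chi i j hs r t k '' Metric.closedBall (0 : V d) r

lemma isClosed_XX {η : ℝ} (hR : Rad i hs η r) : IsClosed (XX i j hs r) := by
  unfold XX
  refine isClosed_iUnion_of_finite (fun t => isClosed_iUnion_of_finite (fun k => ?_))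
  exact ((isCompact_closedBall (0 : V d) r).image_of_continuousOn
    (continuousOn_chi i j hs hR t k)).isClosed

lemma mem_XX {x : V d} : x ∈ XX i j hs r ↔
    ∃ t k, ∃ a ∈ Metric.closedBall (0 : V d) r, x = chi i j hs r t k a := by
  unfold XX
  simp only [Set.mem_iUnion, Set.mem_image]
  constructor
  · rintro ⟨t, k, a, ha, rfl⟩; exact ⟨t, k, a, ha, rfl⟩
  · rintro ⟨t, k, a, ha, rfl⟩; exact ⟨t, k, a, ha, rfl⟩

noncomputable def mkData (hij : i ≠ j) {η : ℝ} (hη : Eta s η) (hR : Rad i hs η r) : Data d s where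
  m := mB d r
  fin := ⟨by rw [mB_univ hR.hr]; simp⟩
  A := Metric.closedBall 0 r
  hA := Metric.isClosed_closedBall.measurableSet
  hmA := mB_ae hR.hr
  hm := withDensity_absolutelyContinuous _ _
  hm1 := mB_univ hR.hr
  χ := chi i j hs r
  hχ := measurable_chi i j hs hR
  χ0 := fun t a => chi_zero i j hs t a
  ψ := psi i j hs
  hψ := measurable_psi i j hs
  hψχ := fun t k a ha => psi_chi i j hs hij hη.lt hR ha
  O := OO i j
  hO := measurable_OO i j
  hχO := fun t k a ha => chi_mem_OO i j hs hη.lt hR ha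
  hdisj := fun t k t' k' x h h' => OO_disj i j hij h h'
  X := XX i j hs r
  hX := (isClosed_XX i j hs hR).measurableSet
  hX_iff := fun x => mem_XX i j hs
  v := vE i j hs r
  hv := measurable_vE i j hs hR
  B := ENNReal.ofReal (2 * MM s)
  hB := ENNReal.ofReal_ne_top
  hvB := vE_le i j hs
  c3 := ENNReal.ofReal (3 * MM s)
  hc3 := ENNReal.ofReal_ne_top
  key := by
    intro x₁ h1 x₂ h2 x₃ h3
    rw [mem_XX] at h1 h2 h3
    obtain ⟨t₁, k₁, a₁, ha₁, rfl⟩ := h1
    obtain ⟨t₂, k₂, a₂, ha₂, rfl⟩ := h2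
    obtain ⟨t₃, k₃, a₃, ha₃, rfl⟩ := h3
    by_cases hc : chi i j hs r t₁ k₁ a₁ = chi i j hs r t₂ k₂ a₂ ∨
      chi i j hs r t₁ k₁ a₁ = chi i j hs r t₃ k₃ a₃ ∨ chi i j hs r t₂ k₂ a₂ = chi i j hs r t₃ k₃ a₃
    · rw [tc_top hs hc, top_add]; exact le_top
    · push Not at hc
      obtain ⟨n12, n13, n23⟩ := hc
      have hk := (key_all i j hs hij hη hR ha₁ ha₂ ha₃ n12 n13 n23).1
      obtain ⟨e1, p1⟩ := vE_chi i j hs hij hη hR (t := t₁) (k := k₁) ha₁
      obtain ⟨e2, p2⟩ := vE_chi i j hs hij hη hR (t := t₂) (k := k₂) ha₂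
      obtain ⟨e3, p3⟩ := vE_chi i j hs hij hη hR (t := t₃) (k := k₃) ha₃
      have hM := MM_pos hs
      rw [tc_eq s n12 n13 n23, e1, e2, e3, ← ENNReal.ofReal_add p1 p2,
        ← ENNReal.ofReal_add (add_nonneg p1 p2) p3, ← ENNReal.ofReal_add (cR_nonneg _ _ _ _) (by linarith)]
      exact ENNReal.ofReal_le_ofReal (by linarith)
  key_eq := by
    intro x₁ h1 x₂ h2 x₃ h3 heq
    rw [mem_XX] at h1 h2 h3
    obtain ⟨t₁, k₁, a₁, ha₁, rfl⟩ := h1
    obtain ⟨t₂, k₂, a₂, ha₂, rfl⟩ := h2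
    obtain ⟨t₃, k₃, a₃, ha₃, rfl⟩ := h3
    obtain ⟨e1, p1⟩ := vE_chi i j hs hij hη hR (t := t₁) (k := k₁) ha₁
    obtain ⟨e2, p2⟩ := vE_chi i j hs hij hη hR (t := t₂) (k := k₂) ha₂
    obtain ⟨e3, p3⟩ := vE_chi i j hs hij hη hR (t := t₃) (k := k₃) ha₃
    rw [e1, e2, e3, ← ENNReal.ofReal_add p1 p2, ← ENNReal.ofReal_add (add_nonneg p1 p2) p3] at heq
    by_cases hc : chi i j hs r t₁ k₁ a₁ = chi i j hs r t₂ k₂ a₂ ∨
      chi i j hs r t₁ k₁ a₁ = chi i j hs r t₃ k₃ a₃ ∨ chi i j hs r t₂ k₂ a₂ = chi i j hs r t₃ k₃ a₃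
    · rw [tc_top hs hc, top_add] at heq
      exact absurd heq ENNReal.ofReal_ne_top
    · push Not at hc
      obtain ⟨n12, n13, n23⟩ := hc
      have hM := MM_pos hs
      rw [tc_eq s n12 n13 n23, ← ENNReal.ofReal_add (cR_nonneg _ _ _ _) (by linarith),
        ENNReal.ofReal_eq_ofReal_iff (add_nonneg (add_nonneg p1 p2) p3)
          (add_nonneg (cR_nonneg _ _ _ _) (by linarith))] at heq
      obtain ⟨t, l₁, l₂, l₃, q12, q13, q23, a, ha, z1, z2, z3⟩ :=
        (key_all i j hs hij hη hR ha₁ ha₂ ha₃ n12 n13 n23).2 (by linarith)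
      obtain ⟨σ, s1, s2, s3⟩ := exists_perm3 l₁ l₂ l₃ q12 q13 q23
      refine ⟨t, σ, a, ha, ?_, ?_, ?_⟩
      · rw [s1]; exact z1
      · rw [s2]; exact z2
      · rw [s3]; exact z3
  contact := by
    intro t a ha
    have n12 := chi_ne i j hs hij hη hR (t := t) (k := 0) (k' := 1) (by decide) ha ha
    have n13 := chi_ne i j hs hij hη hR (t := t) (k := 0) (k' := 2) (by decide) ha ha
    have n23 := chi_ne i j hs hij hη hR (t := t) (k := 1) (k' := 2) (by decide) ha ha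
    obtain ⟨e1, p1⟩ := vE_chi i j hs hij hη hR (t := t) (k := 0) ha
    obtain ⟨e2, p2⟩ := vE_chi i j hs hij hη hR (t := t) (k := 1) ha
    obtain ⟨e3, p3⟩ := vE_chi i j hs hij hη hR (t := t) (k := 2) ha
    have hM := MM_pos hs
    have hg := gap_chi i j hs hij hη hR (t := t) ha ha ha
    rw [gap_diag, add_zero] at hg
    rw [tc_eq s n12 n13 n23, e1, e2, e3, ← ENNReal.ofReal_add p1 p2,
      ← ENNReal.ofReal_add (add_nonneg p1 p2) p3, ← ENNReal.ofReal_add (cR_nonneg _ _ _ _) (by linarith)]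
    congr 1
    rw [hg]; ring
  near := by
    intro ε hε
    obtain ⟨ε', hε'0, hε'⟩ : ∃ ε' : ℝ, 0 < ε' ∧ ENNReal.ofReal ε' ≤ ε := by
      by_cases htop : ε = ⊤
      · exact ⟨1, one_pos, by rw [htop]; exact le_top⟩
      · exact ⟨ε.toReal, ENNReal.toReal_pos hε.ne' htop, by rw [ENNReal.ofReal_toReal htop]⟩
    obtain ⟨δ, hδ, h⟩ := gap_near i j hs hij hη hR hε'0
    refine ⟨δ, hδ, fun t a₀ h0 a₁ h1 a₂ h2 d1 d2 _ => ?_⟩
    have n12 := chi_ne i j hs hij hη hR (t := t) (k := 0) (k' := 1) (by decide) h0 h1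
    have n13 := chi_ne i j hs hij hη hR (t := t) (k := 0) (k' := 2) (by decide) h0 h2
    have n23 := chi_ne i j hs hij hη hR (t := t) (k := 1) (k' := 2) (by decide) h1 h2
    obtain ⟨e1, p1⟩ := vE_chi i j hs hij hη hR (t := t) (k := 0) h0
    obtain ⟨e2, p2⟩ := vE_chi i j hs hij hη hR (t := t) (k := 1) h1
    obtain ⟨e3, p3⟩ := vE_chi i j hs hij hη hR (t := t) (k := 2) h2
    have hM := MM_pos hs
    have hg := gap_chi i j hs hij hη hR (t := t) h0 h1 h2
    have hlt := h _ (Rt_mem i j (t := t) h0) _ (Rt_mem i j (t := t) h1) _ (Rt_mem i j (t := t) h2)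
      (by rw [dist_Rt]; exact d1) (by rw [dist_Rt]; exact d2)
    refine le_trans ?_ (add_le_add_right hε' _)
    rw [tc_eq s n12 n13 n23, e1, e2, e3, ← ENNReal.ofReal_add p1 p2,
      ← ENNReal.ofReal_add (add_nonneg p1 p2) p3, ← ENNReal.ofReal_add (cR_nonneg _ _ _ _) (by linarith),
      ← ENNReal.ofReal_add (add_nonneg (add_nonneg p1 p2) p3) hε'0.le]
    exact ENNReal.ofReal_le_ofReal (by linarith)

end inst

end Crest.Agent.H1.MM
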