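import Mathlib
import Crest.Prelude.Def_MultiMarginal
import Crest.Agent.H1.MM7
import Crest.Agent.H1.MM14

set_option autoImplicit false
open scoped ENNReal ContDiff RealInnerProductSpace Topology
open MeasureTheory Crest.AnalysisR.OT

namespace Crest.Agent.H1.MM

variable {d : ℕ}

lemma measOfDensity_add {h₁ h₂ : V d → ℝ} (n1 : ∀ x, 0 ≤ h₁ x) (n2 : ∀ x, 0 ≤ h₂ x)
    (m1 : Measurable h₁) :
    measOfDensity (fun x => h₁ x + h₂ x) = measOfDensity h₁ + measOfDensity h₂ := by
  unfold measOfDensity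
  rw [← withDensity_add_left m1.ennreal_ofReal]
  congr 1
  ext1 x
  exact ENNReal.ofReal_add (n1 x) (n2 x)

lemma measOfDensity_zero : measOfDensity (fun _ : V d => (0 : ℝ)) = 0 := by
  unfold measOfDensity; simp

lemma measOfDensity_sum {ι : Type*} [Fintype ι] {h : ι → V d → ℝ} (hn : ∀ i x, 0 ≤ h i x)
    (hm : ∀ i, Measurable (h i)) :
    measOfDensity (fun x => ∑ i, h i x) = ∑ i, measOfDensity (h i) := by
  classical
  have key : ∀ S : Finset ι, measOfDensity (fun x => ∑ i ∈ S, h i x) = ∑ i ∈ S, measOfDensity (h i) := by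
    intro S
    induction S using Finset.induction_on with
    | empty => simp [measOfDensity_zero]
    | insert a S ha ih =>
      rw [Finset.sum_insert ha, ← ih, ← measOfDensity_add (hn a)
        (fun x => Finset.sum_nonneg (fun i _ => hn i x)) (hm a)]
      congr 1
      ext1 x
      rw [Finset.sum_insert ha]
  exact key Finset.univ

lemma measOfDensity_map_R (i j : Fin d) (h : V d → ℝ) :
    (measOfDensity h).map (Rsw i j) = measOfDensity (fun x => h (Rsw i j x)) := by
  ext S hS
  have hRm : Measurable (Rsw i j) := (Rsw i j).continuous.measurable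
  rw [Measure.map_apply hRm hS, measOfDensity, measOfDensity, withDensity_apply _ (hRm hS),
    withDensity_apply _ hS]
  have hmp : MeasurePreserving (Rsw i j) (volume : Measure (V d)) volume := (Rsw i j).measurePreserving
  have he : MeasurableEmbedding (Rsw i j) := (Rsw i j).toHomeomorph.measurableEmbedding
  have := hmp.setLIntegral_comp_preimage_emb he (fun x => ENNReal.ofReal (h (Rsw i j x))) S
  rw [← this]
  apply lintegral_congr
  intro x
  rw [Rsw_Rsw]

section fin

variable (i j : Fin d) {s : ℝ} (hs : 0 < s) {r : ℝ}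

noncomputable def gb (r : ℝ) : V d → ℝ := gpush (Hb i hs) (gB r)
noncomputable def gg (r : ℝ) : V d → ℝ := gpush (Hg i hs) (gB r)

lemma gb_nonneg (x : V d) : 0 ≤ gb i hs r x := gpush_nonneg (gB_nonneg r) x
lemma gg_nonneg (x : V d) : 0 ≤ gg i hs r x := gpush_nonneg (gB_nonneg r) x

lemma gb_cd {η : ℝ} (hR : Rad i hs η r) : ContDiff ℝ ∞ (gb i hs r) :=
  gpush_contDiff hR.gb (gB_contDiff r) (gB_zero hR.hr)
lemma gg_cd {η : ℝ} (hR : Rad i hs η r) : ContDiff ℝ ∞ (gg i hs r) :=
  gpush_contDiff hR.gg (gB_contDiff r) (gB_zero hR.hr)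

lemma gb_cs {η : ℝ} (hR : Rad i hs η r) : HasCompactSupport (gb i hs r) :=
  HasCompactSupport.intro hR.gb.isCompact_image (fun _ hx => gpush_eq_zero (gB_zero hR.hr) hx)
lemma gg_cs {η : ℝ} (hR : Rad i hs η r) : HasCompactSupport (gg i hs r) :=
  HasCompactSupport.intro hR.gg.isCompact_image (fun _ hx => gpush_eq_zero (gB_zero hR.hr) hx)

/-- the five root densities -/
noncomputable def piece (r : ℝ) (t : Fin 2) (k : Fin 3) (x : V d) : ℝ :=
  if k = 0 then gB r x else if k = 1 then gb i hs r (Rt i j t x) else gg i hs r (Rt i j t x)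

lemma piece_nonneg (t : Fin 2) (k : Fin 3) (x : V d) : 0 ≤ piece i j hs r t k x := by
  unfold piece; split_ifs
  · exact gB_nonneg r x
  · exact gb_nonneg i hs _
  · exact gg_nonneg i hs _

lemma Rt_continuous (t : Fin 2) : Continuous (Rt i j t : V d → V d) := by
  fin_cases t
  · exact continuous_id
  · exact (Rsw i j).continuous

lemma Rt_cd (t : Fin 2) : ContDiff ℝ ∞ (Rt i j t : V d → V d) := by
  fin_cases t
  · exact contDiff_id
  · exact (Rsw i j).contDiff

lemma piece_cd {η : ℝ} (hR : Rad i hs η r) (t : Fin 2) (k : Fin 3) :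
    ContDiff ℝ ∞ (piece i j hs r t k) := by
  unfold piece; split_ifs
  · exact gB_contDiff r
  · exact (gb_cd i hs hR).comp (Rt_cd i j t)
  · exact (gg_cd i hs hR).comp (Rt_cd i j t)

noncomputable def RtH (t : Fin 2) : V d ≃ₜ V d :=
  if t = 0 then Homeomorph.refl _ else (Rsw i j).toHomeomorph

lemma RtH_coe (t : Fin 2) : (RtH i j t : V d → V d) = Rt i j t := by
  fin_cases t <;> rfl

lemma piece_cs {η : ℝ} (hR : Rad i hs η r) (t : Fin 2) (k : Fin 3) :
    HasCompactSupport (piece i j hs r t k) := by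
  unfold piece; split_ifs
  · exact gB_cs hR.hr
  · rw [← RtH_coe]; exact (gb_cs i hs hR).comp_homeomorph (RtH i j t)
  · rw [← RtH_coe]; exact (gg_cs i hs hR).comp_homeomorph (RtH i j t)

/-- support of the pieces -/
lemma piece_mem {η : ℝ} (hη : η < 1 / 8) (hR : Rad i hs η r) {t : Fin 2} {k : Fin 3} {x : V d}
    (hx : piece i j hs r t k x ≠ 0) : x ∈ OO i j t k := by
  have key : ∀ k : Fin 3, ∀ y, y ∈ OO i j 0 k → Rt i j t y ∈ OO i j t k := by
    intro k y hy
    fin_cases t
    · exact hy
    · change Rsw i j y ∈ OO i j 1 k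
      rw [mem_OO] at hy ⊢
      rwa [← R_zc, ← map_sub, LinearIsometryEquiv.norm_map]
  unfold piece at hx
  split_ifs at hx with h0 h1
  · subst h0
    have hx' : x ∈ Metric.closedBall (0 : V d) r := by
      by_contra h; exact hx (gB_zero hR.hr x h)
    have := chi_mem_OO i j hs hη hR (t := t) (k := 0) hx'
    rwa [chi_zero] at this
  · subst h1
    have : Rt i j t x ∈ (Hb i hs) '' Metric.closedBall (0 : V d) r := by
      by_contra h; exact hx (gpush_eq_zero (gB_zero hR.hr) h)
    obtain ⟨a, ha, hax⟩ := this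
    have h2 := chi_mem_OO i j hs hη hR (t := 0) (k := 1) ha
    have h3 : chi i j hs r 0 1 a = Rt i j t x := by
      rw [← hax]
      change chi0 i hs r 1 a = _
      rw [chi0_one, betM_eq i hs ha]; rfl
    rw [h3] at h2
    have h4 := key 1 _ h2
    rwa [Rt_Rt] at h4
  · have hk : k = 2 := by
      have : ∀ k : Fin 3, k ≠ 0 → k ≠ 1 → k = 2 := by decide
      exact this k h0 h1
    subst hk
    have : Rt i j t x ∈ (Hg i hs) '' Metric.closedBall (0 : V d) r := by
      by_contra h; exact hx (gpush_eq_zero (gB_zero hR.hr) h)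
    obtain ⟨a, ha, hax⟩ := this
    have h2 := chi_mem_OO i j hs hη hR (t := 0) (k := 2) ha
    have h3 : chi i j hs r 0 2 a = Rt i j t x := by
      rw [← hax]
      change chi0 i hs r 2 a = _
      rw [chi0_two, gamM_eq i hs ha]; rfl
    rw [h3] at h2
    have h4 := key 2 _ h2
    rwa [Rt_Rt] at h4

lemma piece_mul (hij : i ≠ j) {η : ℝ} (hη : η < 1 / 8) (hR : Rad i hs η r) {t t' : Fin 2}
    {k k' : Fin 3} (h : ¬ (k = k' ∧ (k = 0 ∨ t = t'))) (x : V d) :
    piece i j hs r t k x * piece i j hs r t' k' x = 0 := by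
  by_contra hne
  obtain ⟨h1, h2⟩ := mul_ne_zero_iff.1 hne
  exact h (OO_disj i j hij (piece_mem i j hs hη hR h1) (piece_mem i j hs hη hR h2))

/-- the root density -/
noncomputable def qq (r : ℝ) (x : V d) : ℝ :=
  Real.sqrt 2 * piece i j hs r 0 0 x + piece i j hs r 0 1 x + piece i j hs r 0 2 x +
    piece i j hs r 1 1 x + piece i j hs r 1 2 x

lemma qq_nonneg (x : V d) : 0 ≤ qq i j hs r x := by
  unfold qq
  have := piece_nonneg i j hs (r := r)
  have h0 := this 0 0 x
  have h1 := this 0 1 x
  have h2 := this 0 2 x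
  have h3 := this 1 1 x
  have h4 := this 1 2 x
  positivity

lemma qq_cd {η : ℝ} (hR : Rad i hs η r) : ContDiff ℝ ∞ (qq i j hs r) := by
  unfold qq
  have := piece_cd i j hs hR
  exact ((((contDiff_const.mul (this 0 0)).add (this 0 1)).add (this 0 2)).add (this 1 1)).add (this 1 2)

lemma qq_cs {η : ℝ} (hR : Rad i hs η r) : HasCompactSupport (qq i j hs r) := by
  unfold qq
  have := piece_cs i j hs hR
  exact ((((this 0 0).mul_left.add (this 0 1)).add (this 0 2)).add (this 1 1)).add (this 1 2)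

lemma qq_sq (hij : i ≠ j) {η : ℝ} (hη : η < 1 / 8) (hR : Rad i hs η r) (x : V d) :
    qq i j hs r x ^ 2 = ∑ t : Fin 2, ∑ k : Fin 3, piece i j hs r t k x ^ 2 := by
  have h := fun t t' k k' h => piece_mul i j hs hij hη hR (t := t) (t' := t') (k := k) (k' := k') h x
  have e00 : piece i j hs r 1 0 x = piece i j hs r 0 0 x := rfl
  have a1 := h 0 0 0 1 (by decide)
  have a2 := h 0 0 0 2 (by decide)
  have a3 := h 0 1 0 1 (by decide)
  have a4 := h 0 1 0 2 (by decide)
  have b1 := h 0 0 1 2 (by decide)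
  have b2 := h 0 1 1 1 (by decide)
  have b3 := h 0 1 1 2 (by decide)
  have c1 := h 0 1 2 1 (by decide)
  have c2 := h 0 1 2 2 (by decide)
  have d1 := h 1 1 1 2 (by decide)
  have hs2 : Real.sqrt 2 ^ 2 = 2 := Real.sq_sqrt (by norm_num)
  simp only [Fin.sum_univ_two, Fin.sum_univ_three]
  rw [e00]
  unfold qq
  generalize piece i j hs r 0 0 x = p at *
  generalize piece i j hs r 0 1 x = q1 at *
  generalize piece i j hs r 0 2 x = q2 at *
  generalize piece i j hs r 1 1 x = q3 at *
  generalize piece i j hs r 1 2 x = q4 at *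
  linear_combination p ^ 2 * hs2 + 2 * Real.sqrt 2 * (a1 + a2 + a3 + a4) + 2 * (b1 + b2 + b3 + c1 + c2 + d1)

/-- the density -/
noncomputable def rho (r : ℝ) (x : V d) : ℝ := kap d r * qq i j hs r x ^ 2

lemma piece_map {η : ℝ} (hR : Rad i hs η r) (t : Fin 2) (k : Fin 3) :
    (mB d r).map (chi i j hs r t k) =
      measOfDensity (fun x => kap d r * piece i j hs r t k x ^ 2) := by
  have hg := (gB_contDiff (d := d) r).continuous
  -- k = 0
  by_cases hk0 : k = 0
  · subst hk0
    have : chi i j hs r t 0 = id := by ext1 a; exact chi_zero i j hs t a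
    rw [this, Measure.map_id]
    rfl
  -- t = 0
  have base : (mB d r).map (chi0 i hs r k) =
      measOfDensity (fun x => kap d r * piece i j hs r 0 k x ^ 2) := by
    by_cases hk1 : k = 1
    · subst hk1
      have := gpush_map hR.gb hg (gB_zero hR.hr) (kap d r) (chi0 i hs r 1) (measurable_chi0 i hs hR 1)
        (fun a ha => by rw [chi0_one, betM_eq i hs ha]; rfl)
      unfold mB
      rw [this]
      rfl
    · have hk : k = 2 := by
        have : ∀ k : Fin 3, k ≠ 0 → k ≠ 1 → k = 2 := by decide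
        exact this k hk0 hk1
      subst hk
      have := gpush_map hR.gg hg (gB_zero hR.hr) (kap d r) (chi0 i hs r 2) (measurable_chi0 i hs hR 2)
        (fun a ha => by rw [chi0_two, gamM_eq i hs ha]; rfl)
      unfold mB
      rw [this]
      rfl
  fin_cases t
  · exact base
  · have e1 : chi i j hs r 1 k = (Rsw i j) ∘ (chi0 i hs r k ∘ (Rsw i j)) := by
      ext1 a; rfl
    have hRm : Measurable (Rsw i j) := (Rsw i j).continuous.measurable
    have hmR : (mB d r).map (Rsw i j) = mB d r := by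
      unfold mB
      rw [measOfDensity_map_R]
      congr 1
      ext1 x
      unfold gB
      rw [LinearIsometryEquiv.norm_map]
    change (mB d r).map (chi i j hs r 1 k) = _
    rw [e1, ← Measure.map_map hRm ((measurable_chi0 i hs hR k).comp hRm),
      ← Measure.map_map (measurable_chi0 i hs hR k) hRm, hmR, base, measOfDensity_map_R]
    congr 1
    ext1 x
    unfold piece
    simp only [hk0, if_false]
    rfl

lemma mu_eq (hij : i ≠ j) {η : ℝ} (hη : Eta s η) (hR : Rad i hs η r) :
    (mkData i j hs hij hη hR).mu = measOfDensity (rho i j hs r) := by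
  have h1 : (mkData i j hs hij hη hR).mu = ∑ t, ∑ k, (mB d r).map (chi i j hs r t k) := rfl
  rw [h1]
  simp only [piece_map i j hs hR]
  have hm : ∀ t k, Measurable (fun x => kap d r * piece i j hs r t k x ^ 2) := by
    intro t k
    exact (((piece_cd i j hs hR t k).continuous.pow 2).const_mul _).measurable
  have hn : ∀ t k x, 0 ≤ kap d r * piece i j hs r t k x ^ 2 :=
    fun t k x => mul_nonneg (kap_pos hR.hr).le (sq_nonneg _)
  have h2 : rho i j hs r = fun x => ∑ t : Fin 2, ∑ k : Fin 3, kap d r * piece i j hs r t k x ^ 2 := by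
    ext1 x
    unfold rho
    rw [qq_sq i j hs hij hη.lt hR]
    simp only [Fin.sum_univ_two, Fin.sum_univ_three]
    ring
  rw [h2, measOfDensity_sum (fun t x => Finset.sum_nonneg (fun k _ => hn t k x))
    (fun t => Finset.measurable_sum _ (fun k _ => hm t k))]
  refine Finset.sum_congr rfl (fun t _ => ?_)
  rw [measOfDensity_sum (hn t) (hm t)]

lemma rho_nonneg {η : ℝ} (hR : Rad i hs η r) (x : V d) : 0 ≤ rho i j hs r x :=
  mul_nonneg (kap_pos hR.hr).le (sq_nonneg _)

lemma rho_cd {η : ℝ} (hR : Rad i hs η r) : ContDiff ℝ ∞ (rho i j hs r) := by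
  unfold rho
  exact contDiff_const.mul ((qq_cd i j hs hR).pow 2)

lemma rho_cs {η : ℝ} (hR : Rad i hs η r) : HasCompactSupport (rho i j hs r) := by
  have h := (qq_cs i j hs hR).comp_left (g := fun t : ℝ => kap d r * t ^ 2) (by simp)
  exact h

lemma sqrt_rho {η : ℝ} (hR : Rad i hs η r) :
    (fun x => Real.sqrt (rho i j hs r x)) = fun x => Real.sqrt (kap d r) * qq i j hs r x := by
  ext1 x
  unfold rho
  rw [Real.sqrt_mul (kap_pos hR.hr).le, Real.sqrt_sq (qq_nonneg i j hs x)]

lemma sqrt_rho_cd {η : ℝ} (hR : Rad i hs η r) :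
    ContDiff ℝ ∞ (fun x => Real.sqrt (rho i j hs r x)) := by
  rw [sqrt_rho i j hs hR]
  exact contDiff_const.mul (qq_cd i j hs hR)

lemma integral_rho (hij : i ≠ j) {η : ℝ} (hη : Eta s η) (hR : Rad i hs η r) :
    ∫ x, rho i j hs r x = 1 := by
  have h : (mkData i j hs hij hη hR).mu Set.univ = 1 := measure_univ
  rw [mu_eq, measOfDensity, withDensity_apply _ MeasurableSet.univ, setLIntegral_univ] at h
  rw [integral_eq_lintegral_of_nonneg_ae (Filter.Eventually.of_forall (rho_nonneg i j hs hR))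
    (rho_cd i j hs hR).continuous.aestronglyMeasurable, h]
  simp

end fin

end Crest.Agent.H1.MM
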