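import Mathlib
import Crest.Prelude.Def_QuadraticTransport

set_option autoImplicit false
open MeasureTheory
open scoped ENNReal NNReal
open Crest.AnalysisR.OT

namespace Crest.Agent.H1.OTCube

abbrev E (d : ℕ) := EuclideanSpace ℝ (Fin d)

/-- the cube -/
def cube (d : ℕ) : Set (E d) := {x | ∀ i, |x i| ≤ 1}

variable {d : ℕ}

lemma meas_box (I : Fin d → Set ℝ) (hI : ∀ k, MeasurableSet (I k)) :
    MeasurableSet {x : E d | ∀ k, x k ∈ I k} := by
  have : {x : E d | ∀ k, x k ∈ I k} = ⋂ k, (fun x : E d => x k) ⁻¹' (I k) := by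
    ext x; simp
  rw [this]
  refine MeasurableSet.iInter (fun k => ?_)
  exact (by fun_prop : Measurable (fun x : E d => x k)) (hI k)

lemma volume_box (I : Fin d → Set ℝ) (hI : ∀ k, MeasurableSet (I k)) :
    volume {x : E d | ∀ k, x k ∈ I k} = ∏ k, volume (I k) := by
  have h := (PiLp.volume_preserving_ofLp (Fin d)).measure_preimage
    (MeasurableSet.univ_pi hI).nullMeasurableSet
  rw [volume_pi, Measure.pi_pi] at h
  rw [← h]
  congr 1
  ext x
  simp

lemma cube_eq : cube d = {x : E d | ∀ k, x k ∈ Set.Icc (-1 : ℝ) 1} := by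
  ext x; simp [cube, abs_le]

lemma meas_cube : MeasurableSet (cube d) := by
  rw [cube_eq]; exact meas_box _ (fun _ => measurableSet_Icc)

lemma volume_cube : volume (cube d) = 2 ^ d := by
  rw [cube_eq, volume_box _ (fun _ => measurableSet_Icc)]
  have : (1 : ℝ) - -1 = 2 := by norm_num
  simp [Real.volume_Icc, this]

/-- the uniform measure -/
noncomputable def rho (d : ℕ) : Measure (E d) := uniformProbOn (cube d)

lemma rho_apply (s : Set (E d)) (hs : MeasurableSet s) :
    rho d s = (2 ^ d)⁻¹ * volume (s ∩ cube d) := by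
  rw [rho, uniformProbOn, Measure.smul_apply, Measure.restrict_apply hs, volume_cube]
  rfl

lemma rho_box (I : Fin d → Set ℝ) (hI : ∀ k, MeasurableSet (I k)) (hI' : ∀ k, I k ⊆ Set.Icc (-1) 1) :
    rho d {x : E d | ∀ k, x k ∈ I k} = ∏ k, (volume (I k) / 2) := by
  have hsub : {x : E d | ∀ k, x k ∈ I k} ∩ cube d = {x : E d | ∀ k, x k ∈ I k} := by
    apply Set.inter_eq_left.2
    intro x hx
    rw [cube_eq]
    exact fun k => hI' k (hx k)
  rw [rho_apply _ (meas_box I hI), hsub, volume_box I hI]
  simp only [div_eq_mul_inv]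
  rw [Finset.prod_mul_distrib]
  simp only [Finset.prod_const, Finset.card_univ, Fintype.card_fin]
  rw [mul_comm, ENNReal.inv_pow]

instance : IsProbabilityMeasure (rho d) := by
  constructor
  rw [rho_apply _ MeasurableSet.univ, Set.univ_inter, volume_cube]
  exact ENNReal.inv_mul_cancel (by simp) (by simp)

lemma rho_compl_cube : rho d (cube d)ᶜ = 0 := by
  rw [rho_apply _ meas_cube.compl]
  simp

lemma ae_cube : ∀ᵐ x ∂(rho d), x ∈ cube d := by
  rw [ae_iff]
  exact rho_compl_cube

/-- `ρ {|x_i| ≤ t} = t`. -/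
lemma rho_slab (i : Fin d) {t : ℝ} (ht0 : 0 ≤ t) (ht1 : t ≤ 1) :
    rho d {x : E d | |x i| ≤ t} = ENNReal.ofReal t := by
  classical
  have h1 : rho d {x : E d | |x i| ≤ t} =
      rho d {x : E d | ∀ k, x k ∈ (if k = i then Set.Icc (-t) t else Set.Icc (-1) 1)} := by
    apply measure_congr
    filter_upwards [ae_cube (d := d)] with x hx
    apply propext
    change (|x i| ≤ t) ↔ (∀ k, x k ∈ (if k = i then Set.Icc (-t) t else Set.Icc (-1 : ℝ) 1))
    constructor
    · intro h k
      by_cases hk : k = i
      · subst hk; simpa [abs_le] using h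
      · have := hx k
        simpa [hk, abs_le] using this
    · intro h
      have := h i
      simpa [abs_le] using this
  rw [h1, rho_box]
  · rw [Fintype.prod_eq_single i]
    · simp only [if_true, Real.volume_Icc]
      rw [show t - -t = t * 2 by ring, ENNReal.ofReal_mul ht0]
      rw [show ENNReal.ofReal 2 = 2 by simp]
      rw [mul_div_assoc, ENNReal.div_self (by simp) (by simp), mul_one]
    · intro k hk
      simp only [hk, if_false, Real.volume_Icc]
      rw [show (1 : ℝ) - -1 = 2 by norm_num, show ENNReal.ofReal 2 = 2 by simp]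
      exact ENNReal.div_self (by simp) (by simp)
  · intro k; split_ifs <;> exact measurableSet_Icc
  · intro k; split_ifs
    · exact Set.Icc_subset_Icc (by linarith) ht1
    · exact subset_rfl

/-- lower bound for a box in two coordinates. -/
lemma rho_box2 (i j : Fin d) (hij : i ≠ j) {a b c e : ℝ} (ha : -1 ≤ a) (hab : a ≤ b) (hb : b ≤ 1)
    (hc : -1 ≤ c) (hce : c ≤ e) (he : e ≤ 1) :
    rho d {x : E d | x i ∈ Set.Ioo a b ∧ x j ∈ Set.Ioo c e} =
      ENNReal.ofReal ((b - a) / 2 * ((e - c) / 2)) := by
  classical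
  have h1 : rho d {x : E d | x i ∈ Set.Ioo a b ∧ x j ∈ Set.Ioo c e} =
      rho d {x : E d | ∀ k, x k ∈ (if k = i then Set.Ioo a b else if k = j then Set.Ioo c e
        else Set.Icc (-1) 1)} := by
    apply measure_congr
    filter_upwards [ae_cube (d := d)] with x hx
    apply propext
    change (x i ∈ Set.Ioo a b ∧ x j ∈ Set.Ioo c e) ↔ (∀ k, x k ∈ (if k = i then Set.Ioo a b else if k = j then Set.Ioo c e
        else Set.Icc (-1) 1))
    constructor
    · intro h k
      by_cases hk : k = i
      · subst hk; simpa using h.1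
      · by_cases hk' : k = j
        · subst hk'; simpa [hk] using h.2
        · have := hx k
          simpa [hk, hk', abs_le] using this
    · intro h
      refine ⟨by simpa using h i, by simpa [hij.symm] using h j⟩
  rw [h1, rho_box]
  · rw [Fintype.prod_eq_mul i j hij]
    · simp only [if_true, if_neg hij.symm, Real.volume_Ioo]
      rw [ENNReal.ofReal_mul (by linarith), ENNReal.ofReal_div_of_pos (by norm_num),
        ENNReal.ofReal_div_of_pos (by norm_num)]
      simp
    · intro k hk
      simp only [hk.1, hk.2, if_false, Real.volume_Icc]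
      rw [show (1 : ℝ) - -1 = 2 by norm_num, show ENNReal.ofReal 2 = 2 by simp]
      exact ENNReal.div_self (by simp) (by simp)
  · intro k; split_ifs
    · exact measurableSet_Ioo
    · exact measurableSet_Ioo
    · exact measurableSet_Icc
  · intro k; split_ifs
    · exact Set.Ioo_subset_Icc_self.trans (Set.Icc_subset_Icc ha hb)
    · exact Set.Ioo_subset_Icc_self.trans (Set.Icc_subset_Icc hc he)
    · exact subset_rfl

/-- the reflection `x_j ↦ -x_j`. -/
noncomputable def refl (j : Fin d) : E d ≃ₗᵢ[ℝ] E d :=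
  LinearIsometryEquiv.piLpCongrRight 2
    (fun k => if k = j then LinearIsometryEquiv.neg ℝ else LinearIsometryEquiv.refl ℝ ℝ)

lemma refl_apply_self (j : Fin d) (x : E d) : refl j x j = - x j := by
  simp [refl, LinearIsometryEquiv.piLpCongrRight_apply]

lemma refl_apply_ne (j k : Fin d) (hk : k ≠ j) (x : E d) : refl j x k = x k := by
  simp [refl, LinearIsometryEquiv.piLpCongrRight_apply, hk]

lemma abs_refl_apply (j k : Fin d) (x : E d) : |refl j x k| = |x k| := by
  by_cases hk : k = j
  · subst hk; rw [refl_apply_self, abs_neg]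
  · rw [refl_apply_ne _ _ hk]

lemma refl_preimage_cube (j : Fin d) : (refl j) ⁻¹' (cube d) = cube d := by
  ext x
  simp only [cube, Set.mem_preimage, Set.mem_setOf_eq, abs_refl_apply]

lemma rho_map_refl (j : Fin d) : (rho d).map (refl j) = rho d := by
  have h1 : MeasurePreserving (refl j) (volume : Measure (E d)) volume :=
    (refl j).measurePreserving
  have h2 := h1.restrict_preimage (meas_cube (d := d))
  rw [refl_preimage_cube] at h2
  rw [rho, uniformProbOn, Measure.map_smul, h2.map_eq]

end Crest.Agent.H1.OTCube
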