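import Mathlib
import Crest.Prelude.Def_QuadraticTransport
import Crest.Agent.H1.OTCube

set_option autoImplicit false
open MeasureTheory
open scoped ENNReal NNReal
open Crest.AnalysisR.OT

namespace Crest.Agent.H1.OTCube

variable {d : ℕ}

/-- the map -/
noncomputable def T (i j : Fin d) (h s : ℝ) (x : E d) : E d :=
  if |x i| ≤ 2 * h + s * x j then EuclideanSpace.single j s
  else if x i < 0 then EuclideanSpace.single i (-1) else EuclideanSpace.single i 1

lemma meas_T (i j : Fin d) (h s : ℝ) : Measurable (T i j h s) := by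
  unfold T
  refine Measurable.ite ?_ measurable_const (Measurable.ite ?_ measurable_const measurable_const)
  · exact measurableSet_le (by fun_prop) (by fun_prop)
  · exact measurableSet_lt (by fun_prop) (by fun_prop)

/-- the dual cost -/
noncomputable def cst (j : Fin d) (h s : ℝ) (y : E d) : ℝ :=
  open Classical in if y = EuclideanSpace.single j s then 1 - 4 * h - s ^ 2 else 0

lemma sub_sq_single (i : Fin d) (x : E d) (a : ℝ) :
    ‖x - EuclideanSpace.single i a‖ ^ 2 = ‖x‖ ^ 2 - 2 * a * x i + a ^ 2 := by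
  rw [norm_sub_sq_real]
  rw [EuclideanSpace.inner_single_right]
  simp [EuclideanSpace.norm_single]
  ring

lemma single_ne {i j : Fin d} (hij : i ≠ j) {a b : ℝ} (ha : a ≠ 0) :
    EuclideanSpace.single i a ≠ EuclideanSpace.single j b := by
  intro h
  have := congrArg (fun v : E d => v i) h
  simp [hij] at this
  exact ha this

lemma single_ne' {i : Fin d} {a b : ℝ} (hab : a ≠ b) :
    (EuclideanSpace.single i a : E d) ≠ EuclideanSpace.single i b := by
  intro h
  have := congrArg (fun v : E d => v i) h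
  simp at this
  exact hab this

/-- `‖x-y‖² + c(y)` at the three atoms. -/
lemma G_mid (j : Fin d) (h s : ℝ) (x : E d) :
    ‖x - EuclideanSpace.single j s‖ ^ 2 + cst j h s (EuclideanSpace.single j s) =
      ‖x‖ ^ 2 + 1 - 2 * (2 * h + s * x j) := by
  rw [sub_sq_single, cst, if_pos rfl]; ring

lemma G_side (i j : Fin d) (hij : i ≠ j) (h s : ℝ) (x : E d) (a : ℝ) (ha : a ^ 2 = 1) :
    ‖x - EuclideanSpace.single i a‖ ^ 2 + cst j h s (EuclideanSpace.single i a) =
      ‖x‖ ^ 2 + 1 - 2 * (a * x i) := by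
  have ha0 : a ≠ 0 := by rintro rfl; norm_num at ha
  rw [sub_sq_single, cst, if_neg (single_ne hij ha0)]; rw [ha]; ring

/-- The three atoms. -/
def atoms (i j : Fin d) (s : ℝ) : Set (E d) :=
  {EuclideanSpace.single j s, EuclideanSpace.single i (-1), EuclideanSpace.single i 1}

lemma T_mem (i j : Fin d) (h s : ℝ) (x : E d) : T i j h s x ∈ atoms i j s := by
  unfold T atoms
  split_ifs <;> simp

lemma G_T (i j : Fin d) (hij : i ≠ j) (h s : ℝ) (x : E d) :
    ‖x - T i j h s x‖ ^ 2 + cst j h s (T i j h s x) =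
      ‖x‖ ^ 2 + 1 - 2 * max |x i| (2 * h + s * x j) := by
  unfold T
  split_ifs with h1 h2
  · rw [G_mid, max_eq_right h1]
  · rw [G_side i j hij _ _ _ _ (by norm_num), max_eq_left (not_le.1 h1).le, abs_of_neg h2]; ring
  · rw [G_side i j hij _ _ _ _ (by norm_num), max_eq_left (not_le.1 h1).le,
      abs_of_nonneg (not_lt.1 h2)]; ring

lemma G_le (i j : Fin d) (hij : i ≠ j) (h s : ℝ) (x y : E d) (hy : y ∈ atoms i j s) :
    ‖x‖ ^ 2 + 1 - 2 * max |x i| (2 * h + s * x j) ≤ ‖x - y‖ ^ 2 + cst j h s y := by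
  have m1 := le_max_left |x i| (2 * h + s * x j)
  have m2 := le_max_right |x i| (2 * h + s * x j)
  rcases hy with rfl | rfl | rfl
  · rw [G_mid]; linarith
  · rw [G_side i j hij _ _ _ _ (by norm_num)]
    have := neg_abs_le (x i); linarith
  · rw [G_side i j hij _ _ _ _ (by norm_num)]
    have := le_abs_self (x i); linarith

/-- ENNReal-valued -/
noncomputable def cstE (j : Fin d) (h s : ℝ) (y : E d) : ℝ≥0∞ := ENNReal.ofReal (cst j h s y)

lemma meas_cstE (j : Fin d) (h s : ℝ) : Measurable (cstE j h s) := by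
  classical
  unfold cstE cst
  refine ENNReal.measurable_ofReal.comp ?_
  refine Measurable.ite ?_ measurable_const measurable_const
  exact measurableSet_eq

lemma cst_nonneg (j : Fin d) {h s : ℝ} (hs : 0 ≤ 1 - 4 * h - s ^ 2) (y : E d) :
    0 ≤ cst j h s y := by
  unfold cst; split_ifs
  · exact hs
  · exact le_rfl

lemma cst_le (j : Fin d) {h s : ℝ} (hh : 0 < h) (y : E d) :
    cst j h s y ≤ 1 := by
  unfold cst; split_ifs
  · nlinarith [sq_nonneg s]
  · exact zero_le_one

lemma G_ofReal (j : Fin d) {h s : ℝ} (hs : 0 ≤ 1 - 4 * h - s ^ 2) (x y : E d) :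
    ‖x - y‖ₑ ^ 2 + cstE j h s y = ENNReal.ofReal (‖x - y‖ ^ 2 + cst j h s y) := by
  rw [ENNReal.ofReal_add (by positivity) (cst_nonneg j hs y), cstE,
    ENNReal.ofReal_pow (norm_nonneg _), ofReal_norm_eq_enorm]

lemma ae_mem_atoms (i j : Fin d) (h s : ℝ) (S : E d → E d) (hS : Measurable S)
    (hmap : (rho d).map S = (rho d).map (T i j h s)) : ∀ᵐ x ∂(rho d), S x ∈ atoms i j s := by
  have hA : MeasurableSet (atoms i j s) := by
    unfold atoms; exact (Set.toFinite _).measurableSet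
  have h1 : (rho d).map S (atoms i j s)ᶜ = 0 := by
    rw [hmap, Measure.map_apply (meas_T i j h s) hA.compl]
    convert measure_empty (μ := rho d)
    ext x
    simp [T_mem]
  rw [Measure.map_apply hS hA.compl] at h1
  rw [ae_iff]
  exact h1

lemma lintegral_cstE_eq (i j : Fin d) (h s : ℝ) (S : E d → E d) (hS : Measurable S)
    (hmap : (rho d).map S = (rho d).map (T i j h s)) :
    ∫⁻ x, cstE j h s (S x) ∂(rho d) = ∫⁻ x, cstE j h s (T i j h s x) ∂(rho d) := by
  rw [← lintegral_map (meas_cstE j h s) hS, hmap, lintegral_map (meas_cstE j h s) (meas_T i j h s)]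

lemma lintegral_cstE_ne_top (i j : Fin d) {h s : ℝ} (hh : 0 < h) :
    ∫⁻ x, cstE j h s (T i j h s x) ∂(rho d) ≠ ∞ := by
  refine ne_top_of_le_ne_top (b := ∫⁻ x, 1 ∂(rho d)) (by simp) (lintegral_mono (fun x => ?_))
  unfold cstE
  exact ENNReal.ofReal_le_one.2 (cst_le j hh _)

lemma norm_sq_le_cube {x : E d} (hx : x ∈ cube d) : ‖x‖ ^ 2 ≤ d := by
  rw [EuclideanSpace.norm_sq_eq]
  calc ∑ k, ‖x k‖ ^ 2 ≤ ∑ _k : Fin d, (1 : ℝ) := by
        apply Finset.sum_le_sum
        intro k _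
        have := hx k
        rw [Real.norm_eq_abs]
        nlinarith [abs_nonneg (x k)]
    _ = d := by simp

lemma lintegral_G (j : Fin d) (h s : ℝ) (S : E d → E d) (hS : Measurable S) :
    ∫⁻ x, (‖x - S x‖ₑ ^ 2 + cstE j h s (S x)) ∂(rho d) =
      ∫⁻ x, ‖x - S x‖ₑ ^ 2 ∂(rho d) + ∫⁻ x, cstE j h s (S x) ∂(rho d) := by
  rw [lintegral_add_left]
  fun_prop

lemma ae_G_le (i j : Fin d) (hij : i ≠ j) {h s : ℝ} (hs : 0 ≤ 1 - 4 * h - s ^ 2)
    (S : E d → E d) (hS : Measurable S)
    (hmap : (rho d).map S = (rho d).map (T i j h s)) :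
    ∀ᵐ x ∂(rho d), ‖x - T i j h s x‖ₑ ^ 2 + cstE j h s (T i j h s x) ≤
      ‖x - S x‖ₑ ^ 2 + cstE j h s (S x) := by
  filter_upwards [ae_mem_atoms i j h s S hS hmap] with x hx
  rw [G_ofReal j hs, G_ofReal j hs]
  apply ENNReal.ofReal_le_ofReal
  rw [G_T i j hij]
  exact G_le i j hij h s x _ hx

theorem T_optimal (i j : Fin d) (hij : i ≠ j) {h s : ℝ} (hh : 0 < h) (hs : 0 ≤ 1 - 4 * h - s ^ 2) :
    IsOptimalMap (rho d) ((rho d).map (T i j h s)) (T i j h s) := by
  refine ⟨meas_T i j h s, rfl, fun S hS hmap => ?_⟩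
  have h1 := lintegral_mono_ae (ae_G_le i j hij hs S hS hmap)
  rw [lintegral_G j h s _ (meas_T i j h s), lintegral_G j h s _ hS,
    lintegral_cstE_eq i j h s S hS hmap] at h1
  exact (ENNReal.add_le_add_iff_right (lintegral_cstE_ne_top i j hh)).1 h1

theorem optimal_ae (i j : Fin d) (hij : i ≠ j) {h s : ℝ} (hh : 0 < h) (hs : 0 ≤ 1 - 4 * h - s ^ 2)
    (S : E d → E d) (hS : IsOptimalMap (rho d) ((rho d).map (T i j h s)) S) :
    ∀ᵐ x ∂(rho d), S x ∈ atoms i j s ∧ ‖x - S x‖ ^ 2 + cst j h s (S x) =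
      ‖x‖ ^ 2 + 1 - 2 * max |x i| (2 * h + s * x j) := by
  obtain ⟨hSm, hmap, hopt⟩ := hS
  have hle := hopt (T i j h s) (meas_T i j h s) rfl
  have key := ae_eq_of_ae_le_of_lintegral_le (ae_G_le i j hij hs S hSm hmap) ?_ ?_ ?_
  · filter_upwards [key, ae_mem_atoms i j h s S hSm hmap] with x hx hx'
    refine ⟨hx', ?_⟩
    rw [G_ofReal j hs, G_ofReal j hs] at hx
    rw [← G_T i j hij]
    have := (ENNReal.ofReal_eq_ofReal_iff ?_ ?_).1 hx
    · exact this.symm
    · exact add_nonneg (by positivity) (cst_nonneg j hs _)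
    · exact add_nonneg (by positivity) (cst_nonneg j hs _)
  · -- finiteness
    refine ne_top_of_le_ne_top (b := ∫⁻ x, ENNReal.ofReal (d + 1 + 4 * |h| + 4 * |s|) ∂(rho d))
      (by simp) (lintegral_mono_ae ?_)
    filter_upwards [ae_cube (d := d)] with x hx
    rw [G_ofReal j hs]
    apply ENNReal.ofReal_le_ofReal
    rw [G_T i j hij]
    have h1 := norm_sq_le_cube hx
    have h2 := le_max_left |x i| (2 * h + s * x j)
    have h3 := abs_nonneg (x i)
    have h4 := abs_nonneg h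
    have h5 := abs_nonneg s
    linarith
  · have := (meas_cstE j h s).comp hSm
    have h2 : Measurable fun x => cstE j h s (S x) := this
    fun_prop
  · rw [lintegral_G j h s _ (meas_T i j h s), lintegral_G j h s _ hSm,
      lintegral_cstE_eq i j h s S hSm hmap]
    gcongr

/-- on the strict cell 1 -/
lemma mem_mid (i j : Fin d) (hij : i ≠ j) {h s : ℝ} {x y : E d} (hy : y ∈ atoms i j s)
    (hG : ‖x - y‖ ^ 2 + cst j h s y = ‖x‖ ^ 2 + 1 - 2 * max |x i| (2 * h + s * x j))
    (hx : |x i| < 2 * h + s * x j) : y = EuclideanSpace.single j s := by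
  rw [max_eq_right hx.le] at hG
  rcases hy with rfl | rfl | rfl
  · rfl
  · rw [G_side i j hij _ _ _ _ (by norm_num)] at hG
    have := neg_abs_le (x i); linarith
  · rw [G_side i j hij _ _ _ _ (by norm_num)] at hG
    have := le_abs_self (x i); linarith

lemma mem_right (i j : Fin d) (hij : i ≠ j) {h s : ℝ} {x y : E d} (hy : y ∈ atoms i j s)
    (hG : ‖x - y‖ ^ 2 + cst j h s y = ‖x‖ ^ 2 + 1 - 2 * max |x i| (2 * h + s * x j))
    (hx : 2 * h + s * x j < x i) (hx0 : 0 < x i) : y = EuclideanSpace.single i 1 := by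
  rw [abs_of_pos hx0, max_eq_left hx.le] at hG
  rcases hy with rfl | rfl | rfl
  · rw [G_mid] at hG; linarith
  · rw [G_side i j hij _ _ _ _ (by norm_num)] at hG
    linarith
  · rfl

end Crest.Agent.H1.OTCube
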