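import Mathlib
import Crest.Prelude.Def_QuadraticTransport
import Crest.Agent.H1.OTMap

set_option autoImplicit false
open MeasureTheory
open scoped ENNReal NNReal
open Crest.AnalysisR.OT

namespace Crest.Agent.H1.OTCube

variable {d : ℕ}

lemma single_mem_cube (i : Fin d) {a : ℝ} (ha : |a| ≤ 1) :
    (EuclideanSpace.single i a : E d) ∈ cube d := by
  intro k
  by_cases hk : k = i
  · subst hk; simpa using ha
  · simp [hk]

lemma T_mem_cube (i j : Fin d) {h s : ℝ} (hs1 : |s| ≤ 1) (x : E d) : T i j h s x ∈ cube d := by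
  unfold T
  split_ifs
  · exact single_mem_cube j hs1
  · exact single_mem_cube i (by norm_num)
  · exact single_mem_cube i (by norm_num)

lemma isProb (i j : Fin d) {h s : ℝ} (hs1 : |s| ≤ 1) :
    IsProbabilityOn (cube d) ((rho d).map (T i j h s)) := by
  refine ⟨Measure.isProbabilityMeasure_map (meas_T i j h s).aemeasurable, ?_⟩
  rw [Measure.map_apply (meas_T i j h s) meas_cube.compl]
  convert measure_empty (μ := rho d)
  ext x
  simp [T_mem_cube i j hs1]

/-- general fact : push-forward under a map with finitely many values -/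
lemma map_eq_sum {α β : Type*} [MeasurableSpace α] [MeasurableSpace β] [MeasurableSingletonClass β]
    (μ : Measure α) (f : α → β) (hf : Measurable f) {n : ℕ} (y : Fin n → β)
    (hy : Function.Injective y) (hfy : ∀ x, ∃ k, f x = y k) :
    μ.map f = ∑ k, μ (f ⁻¹' {y k}) • Measure.dirac (y k) := by
  classical
  ext s hs
  rw [Measure.map_apply hf hs]
  simp only [Measure.finsetSum_apply, Measure.smul_apply, smul_eq_mul]
  have h1 : f ⁻¹' s = ⋃ k ∈ (Finset.univ.filter (fun k => y k ∈ s)), f ⁻¹' {y k} := by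
    ext x
    simp only [Set.mem_preimage, Finset.mem_filter, Finset.mem_univ, true_and, Set.mem_iUnion,
      Set.mem_singleton_iff, exists_prop]
    constructor
    · intro hx
      obtain ⟨k, hk⟩ := hfy x
      exact ⟨k, hk ▸ hx, hk⟩
    · rintro ⟨k, hk, hk'⟩
      rw [hk']; exact hk
  rw [h1, measure_biUnion_finset]
  · rw [Finset.sum_filter]
    refine Finset.sum_congr rfl (fun k _ => ?_)
    rw [Measure.dirac_apply' _ hs]
    by_cases hk : y k ∈ s <;> simp [hk]
  · intro k _ l _ hkl
    refine Set.disjoint_left.2 (fun x hx hx' => hkl (hy ?_))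
    simp only [Set.mem_preimage, Set.mem_singleton_iff] at hx hx'
    rw [← hx, ← hx']
  · intro k _
    exact hf (measurableSet_singleton _)

/-- The three atoms as a function. -/
noncomputable def atomF (i j : Fin d) (s : ℝ) : Fin 3 → E d :=
  ![EuclideanSpace.single j s, EuclideanSpace.single i (-1), EuclideanSpace.single i 1]

lemma atomF_inj (i j : Fin d) (hij : i ≠ j) (s : ℝ) : Function.Injective (atomF i j s) := by
  have h1 : (EuclideanSpace.single i (-1) : E d) ≠ EuclideanSpace.single j s :=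
    single_ne hij (by norm_num)
  have h2 : (EuclideanSpace.single i 1 : E d) ≠ EuclideanSpace.single j s :=
    single_ne hij (by norm_num)
  have h3 : (EuclideanSpace.single i (-1) : E d) ≠ EuclideanSpace.single i 1 :=
    single_ne' (by norm_num)
  intro a b hab
  fin_cases a <;> fin_cases b <;> simp [atomF] at hab ⊢ <;>
    first | exact h1 hab | exact h1 hab.symm | exact h2 hab | exact h2 hab.symm |
      exact h3 hab | exact h3 hab.symm

lemma rho_pos_of_box (i j : Fin d) (hij : i ≠ j) {a b c e : ℝ} (ha : -1 ≤ a) (hab : a < b)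
    (hb : b ≤ 1) (hc : -1 ≤ c) (hce : c < e) (he : e ≤ 1) {s : Set (E d)}
    (hs : ∀ x : E d, x i ∈ Set.Ioo a b → x j ∈ Set.Ioo c e → x ∈ s) : 0 < rho d s := by
  have h1 := rho_box2 i j hij ha hab.le hb hc hce.le he
  refine lt_of_lt_of_le ?_ (measure_mono (μ := rho d)
    (s := {x : E d | x i ∈ Set.Ioo a b ∧ x j ∈ Set.Ioo c e}) (fun x hx => hs x hx.1 hx.2))
  rw [h1, ENNReal.ofReal_pos]
  have : 0 < b - a := by linarith
  have : 0 < e - c := by linarith
  positivity

lemma isThree (i j : Fin d) (hij : i ≠ j) {h s : ℝ} (hh : 0 < h) (hh2 : 3 * h < 1) (hs : |s| ≤ h) :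
    IsThreeAtomic ((rho d).map (T i j h s)) := by
  have hs' := abs_le.1 hs
  refine ⟨atomF i j s, atomF_inj i j hij s, fun k => (rho d ((T i j h s) ⁻¹' {atomF i j s k})).toReal,
    ?_, ?_⟩
  · intro k
    refine ENNReal.toReal_pos ?_ (measure_ne_top _ _)
    refine ne_of_gt ?_
    fin_cases k
    · apply rho_pos_of_box i j hij (a := 0) (b := h) (c := -1) (e := 1) <;> try linarith
      intro x hx hx'
      simp only [Set.mem_Ioo] at hx hx'
      simp only [Set.mem_preimage, Set.mem_singleton_iff, atomF]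
      have : |x i| ≤ 2 * h + s * x j := by
        rw [abs_of_pos hx.1]; nlinarith
      simp [T, this]
    · apply rho_pos_of_box i j hij (a := -1) (b := -3 * h) (c := -1) (e := 1) <;> try linarith
      intro x hx hx'
      simp only [Set.mem_Ioo] at hx hx'
      simp only [Set.mem_preimage, Set.mem_singleton_iff, atomF]
      have h0 : x i < 0 := by linarith
      have : ¬ |x i| ≤ 2 * h + s * x j := by
        rw [abs_of_neg h0, not_le]; nlinarith
      simp [T, this, h0]
    · apply rho_pos_of_box i j hij (a := 3 * h) (b := 1) (c := -1) (e := 1) <;> try linarith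
      intro x hx hx'
      simp only [Set.mem_Ioo] at hx hx'
      simp only [Set.mem_preimage, Set.mem_singleton_iff, atomF]
      have h0 : 0 < x i := by linarith
      have : ¬ |x i| ≤ 2 * h + s * x j := by
        rw [abs_of_pos h0, not_le]; nlinarith
      simp [T, this, h0.le]
  · rw [map_eq_sum (rho d) (T i j h s) (meas_T i j h s) (atomF i j s) (atomF_inj i j hij s)]
    · refine Finset.sum_congr rfl (fun k _ => ?_)
      rw [ENNReal.ofReal_toReal (measure_ne_top _ _)]
    · intro x
      have := T_mem i j h s x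
      rcases this with h1 | h1 | h1
      · exact ⟨0, by simpa [atomF] using h1⟩
      · exact ⟨1, by simpa [atomF] using h1⟩
      · exact ⟨2, by simpa [atomF] using h1⟩

/-- the coupling -/
noncomputable def cpl (i j : Fin d) (h : ℝ) : Measure (E d × E d) :=
  (rho d).map (fun x => (T i j h h x, T i j h (-h) (refl j x)))

lemma meas_pair (i j : Fin d) (h : ℝ) :
    Measurable (fun x : E d => (T i j h h x, T i j h (-h) (refl j x))) :=
  (meas_T i j h h).prodMk ((meas_T i j h (-h)).comp (refl j).continuous.measurable)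

lemma cpl_isPair (i j : Fin d) (h : ℝ) :
    IsPairCoupling ((rho d).map (T i j h h)) ((rho d).map (T i j h (-h))) (cpl i j h) := by
  constructor
  · rw [cpl, Measure.map_map measurable_fst (meas_pair i j h)]; rfl
  · rw [cpl, Measure.map_map measurable_snd (meas_pair i j h)]
    have : (Prod.snd ∘ fun x : E d => (T i j h h x, T i j h (-h) (refl j x))) =
      (T i j h (-h)) ∘ (refl j) := rfl
    rw [this, ← Measure.map_map (meas_T i j h (-h)) (refl j).continuous.measurable, rho_map_refl]

lemma pair_dist (i j : Fin d) (hij : i ≠ j) (h : ℝ) (x : E d) :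
    ‖T i j h h x - T i j h (-h) (refl j x)‖ₑ ^ 2 =
      Set.indicator {x : E d | |x i| ≤ 2 * h + h * x j} (fun _ => ENNReal.ofReal (4 * h ^ 2)) x := by
  unfold T
  rw [refl_apply_ne j i hij, refl_apply_self]
  have : 2 * h + -h * -(x j) = 2 * h + h * x j := by ring
  rw [this]
  by_cases h1 : |x i| ≤ 2 * h + h * x j
  · rw [if_pos h1, if_pos h1, Set.indicator_of_mem (by exact h1)]
    rw [show (EuclideanSpace.single j h : E d) - EuclideanSpace.single j (-h) =
      EuclideanSpace.single j (2 * h) by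
        ext k; by_cases hk : k = j
        · subst hk; simp; ring
        · simp [hk]]
    rw [← ofReal_norm_eq_enorm, ← ENNReal.ofReal_pow (norm_nonneg _)]
    congr 1
    simp only [PiLp.norm_single, Real.norm_eq_abs, sq_abs]
    ring
  · rw [if_neg h1, if_neg h1, Set.indicator_of_notMem (by exact h1)]
    simp

lemma cpl_cost (i j : Fin d) (hij : i ≠ j) {h : ℝ} (hh : 0 < h) (hh2 : 3 * h < 1) :
    quadCost (cpl i j h) ≤ ENNReal.ofReal (12 * h ^ 3) := by
  rw [quadCost, cpl, lintegral_map (by fun_prop) (meas_pair i j h)]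
  simp only [pair_dist i j hij]
  rw [lintegral_indicator_const]
  · have h1 : rho d {x : E d | |x i| ≤ 2 * h + h * x j} ≤ ENNReal.ofReal (3 * h) := by
      rw [← rho_slab i (by linarith) (by linarith : 3 * h ≤ 1)]
      apply measure_mono_ae
      filter_upwards [ae_cube (d := d)] with x hx hx'
      have h2 := (abs_le.1 (hx j)).2
      change |x i| ≤ 3 * h
      have h3 : |x i| ≤ 2 * h + h * x j := hx'
      nlinarith
    calc ENNReal.ofReal (4 * h ^ 2) * rho d {x : E d | |x i| ≤ 2 * h + h * x j}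
        ≤ ENNReal.ofReal (4 * h ^ 2) * ENNReal.ofReal (3 * h) := by gcongr
      _ = ENNReal.ofReal (12 * h ^ 3) := by
        rw [← ENNReal.ofReal_mul (by positivity)]; congr 1; ring
  · exact measurableSet_le (by fun_prop) (by fun_prop)

lemma lower (i j : Fin d) (hij : i ≠ j) {h : ℝ} (hh : 0 < h) (hh2 : 3 * h < 1)
    (hs : 0 ≤ 1 - 4 * h - h ^ 2) (S S' : E d → E d)
    (hS : IsOptimalMap (rho d) ((rho d).map (T i j h h)) S)
    (hS' : IsOptimalMap (rho d) ((rho d).map (T i j h (-h))) S') :
    ENNReal.ofReal (h / 8) ≤ ∫⁻ x, ‖S x - S' x‖ₑ ^ 2 ∂(rho d) := by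
  have e1 := optimal_ae i j hij hh hs S hS
  have e2 := optimal_ae i j hij hh (by simpa using hs) S' hS'
  have hb := rho_box2 i j hij (a := 3 * h / 2) (b := 5 * h / 2) (c := -1) (e := -1 / 2)
    (by linarith) (by linarith) (by linarith) (by linarith) (by linarith) (by linarith)
  set B := {x : E d | x i ∈ Set.Ioo (3 * h / 2) (5 * h / 2) ∧ x j ∈ Set.Ioo (-1 : ℝ) (-1 / 2)}
    with hB
  have hBm : MeasurableSet B := by
    apply MeasurableSet.inter
    · exact (by fun_prop : Measurable (fun x : E d => x i)) measurableSet_Ioo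
    · exact (by fun_prop : Measurable (fun x : E d => x j)) measurableSet_Ioo
  have h1 : ENNReal.ofReal (h / 8) = ∫⁻ x, B.indicator (fun _ => 1) x ∂(rho d) := by
    rw [lintegral_indicator_const hBm, one_mul, hb]
    congr 1; ring
  rw [h1]
  apply lintegral_mono_ae
  filter_upwards [e1, e2] with x hx hx'
  by_cases hxB : x ∈ B
  · rw [Set.indicator_of_mem hxB]
    obtain ⟨⟨hi1, hi2⟩, hj1, hj2⟩ := hxB
    have hpos : 0 < x i := by linarith
    have g1 : S x = EuclideanSpace.single i 1 := by
      refine mem_right i j hij hx.1 hx.2 ?_ hpos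
      nlinarith
    have g2 : S' x = EuclideanSpace.single j (-h) := by
      refine mem_mid i j hij hx'.1 hx'.2 ?_
      rw [abs_of_pos hpos]
      nlinarith
    rw [g1, g2, ← ofReal_norm_eq_enorm, ← ENNReal.ofReal_pow (norm_nonneg _)]
    rw [ENNReal.one_le_ofReal]
    rw [sub_sq_single]
    simp [hij.symm]
    positivity
  · rw [Set.indicator_of_notMem hxB]; exact bot_le

lemma exists_h (α : ℝ) (hα : 1 / 3 < α) (C : ℝ≥0) :
    ∃ h : ℝ, 0 < h ∧ 6 * h < 1 ∧ (C : ℝ≥0∞) * ENNReal.ofReal (12 * h ^ 3) ^ α <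
      ENNReal.ofReal (h / 8) := by
  have h0 : 0 < 3 * α - 1 := by linarith
  have h1 : Filter.Tendsto (fun h : ℝ => C * 12 ^ α * h ^ (3 * α - 1)) (nhds 0) (nhds 0) := by
    have h2 : ContinuousAt (fun h : ℝ => h ^ (3 * α - 1)) 0 :=
      Real.continuousAt_rpow_const _ _ (Or.inr h0.le)
    have h3 := (h2.tendsto).const_mul ((C : ℝ) * 12 ^ α)
    simpa [Real.zero_rpow h0.ne'] using h3
  have h2 : ∀ᶠ h : ℝ in nhdsWithin 0 (Set.Ioi 0), C * 12 ^ α * h ^ (3 * α - 1) < 1 / 8 :=
    (h1.mono_left nhdsWithin_le_nhds).eventually (gt_mem_nhds (by norm_num))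
  have h3 : ∀ᶠ h : ℝ in nhdsWithin 0 (Set.Ioi 0), h < 1 / 6 :=
    nhdsWithin_le_nhds (gt_mem_nhds (by norm_num))
  have h4 : ∀ᶠ h : ℝ in nhdsWithin 0 (Set.Ioi 0), 0 < h := self_mem_nhdsWithin
  obtain ⟨h, ha, hb, hc⟩ := (h2.and (h3.and h4)).exists
  refine ⟨h, hc, by linarith, ?_⟩
  have hα0 : 0 ≤ α := by linarith
  rw [ENNReal.ofReal_rpow_of_nonneg (by positivity) hα0]
  rw [show (C : ℝ≥0∞) = ENNReal.ofReal (C : ℝ) by simp]
  rw [← ENNReal.ofReal_mul (by positivity)]
  rw [ENNReal.ofReal_lt_ofReal_iff (by positivity)]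
  have h5 : (12 * h ^ 3) ^ α = 12 ^ α * (h ^ (3 * α - 1) * h) := by
    rw [Real.mul_rpow (by norm_num) (by positivity)]
    congr 1
    rw [← Real.rpow_natCast, ← Real.rpow_mul hc.le]
    conv_rhs => rw [← Real.rpow_one h, ← Real.rpow_mul hc.le, one_mul, ← Real.rpow_add hc]
    congr 1
    push_cast; ring
  rw [h5]
  have : (C : ℝ) * (12 ^ α * (h ^ (3 * α - 1) * h)) = (C * 12 ^ α * h ^ (3 * α - 1)) * h := by ring
  rw [this]
  nlinarith

end Crest.Agent.H1.OTCube
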