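import Mathlib
import Crest.Agent.H1.AreaGram

set_option autoImplicit false

open MeasureTheory Module
open scoped ENNReal

namespace Crest.Agent.H1.Ruled

/-- Two dimensional lattice covering lemma. -/
theorem lattice_cover {β γ : ℝ} (h0 : 0 ≤ β * γ) (h1 : β * γ < 1) (x y : ℝ) :
    ∃ m n : ℤ, (0 ≤ x - m - n * β ∧ x - m - n * β ≤ 1) ∧ (0 ≤ y - m * γ - n ∧ y - m * γ - n ≤ 1) := by
  set f : ℤ → ℝ := fun n => y - (⌊x - n * β⌋ : ℤ) * γ - n with hf
  have hstep : ∀ n : ℤ, f n ≤ f (n + 1) + 1 := by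
    intro n
    simp only [hf]
    have hkey : ((⌊x - ((n + 1 : ℤ) : ℝ) * β⌋ : ℤ) : ℝ) * γ ≤ ((⌊x - (n : ℝ) * β⌋ : ℤ) : ℝ) * γ := by
      rcases mul_nonneg_iff.mp h0 with ⟨hb, hg⟩ | ⟨hb, hg⟩
      · apply mul_le_mul_of_nonneg_right _ hg
        have : ⌊x - ((n + 1 : ℤ) : ℝ) * β⌋ ≤ ⌊x - (n : ℝ) * β⌋ := by
          apply Int.floor_le_floor
          push_cast
          nlinarith
        exact_mod_cast this
      · apply mul_le_mul_of_nonpos_right _ hg
        have : ⌊x - (n : ℝ) * β⌋ ≤ ⌊x - ((n + 1 : ℤ) : ℝ) * β⌋ := by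
          apply Int.floor_le_floor
          push_cast
          nlinarith
        exact_mod_cast this
    push_cast at hkey ⊢
    linarith
  have hval : ∀ n : ℤ, f n = y - x * γ - n * (1 - β * γ) + Int.fract (x - n * β) * γ := by
    intro n
    simp only [hf]
    have : ((⌊x - (n : ℝ) * β⌋ : ℤ) : ℝ) = x - n * β - Int.fract (x - n * β) := by
      rw [Int.self_sub_fract]
    rw [this]; ring
  have hfr : ∀ n : ℤ, |Int.fract (x - n * β) * γ| ≤ |γ| := by
    intro n
    rw [abs_mul, abs_of_nonneg (Int.fract_nonneg _)]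
    exact mul_le_of_le_one_left (abs_nonneg _) (Int.fract_lt_one _).le
  have hpos : 0 < 1 - β * γ := by linarith
  -- upper bound
  have hbdd : ∃ b : ℤ, ∀ z : ℤ, 0 ≤ f z → z ≤ b := by
    obtain ⟨N, hN⟩ := exists_int_gt ((y - x * γ + |γ|) / (1 - β * γ))
    refine ⟨N, fun z hz => ?_⟩
    by_contra hcon
    push Not at hcon
    rw [hval] at hz
    have h3 := (abs_le.mp (hfr z)).2
    have h4 : (y - x * γ + |γ|) < z * (1 - β * γ) := by
      rw [div_lt_iff₀ hpos] at hN
      refine hN.trans ?_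
      have : (N : ℝ) < z := by exact_mod_cast hcon
      exact mul_lt_mul_of_pos_right this hpos
    linarith
  have hex : ∃ z : ℤ, 0 ≤ f z := by
    obtain ⟨N, hN⟩ := exists_int_lt ((y - x * γ - |γ|) / (1 - β * γ))
    refine ⟨N, ?_⟩
    rw [hval]
    have h3 := (abs_le.mp (hfr N)).1
    rw [lt_div_iff₀ hpos] at hN
    linarith
  obtain ⟨n, hn, hmax⟩ := Int.exists_greatest_of_bdd hbdd hex
  refine ⟨⌊x - n * β⌋, n, ⟨?_, ?_⟩, hn, ?_⟩
  · have := Int.floor_le (x - n * β); linarith
  · have := Int.lt_floor_add_one (x - n * β); linarith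
  · have h5 : f (n + 1) < 0 := by
      by_contra hcon
      push Not at hcon
      have := hmax _ hcon
      linarith
    have := hstep n
    linarith

abbrev E2 := EuclideanSpace ℝ (Fin 2)

theorem det_eq (A : E2 →ₗ[ℝ] E2) :
    LinearMap.det A = A (EuclideanSpace.single 0 1) 0 * A (EuclideanSpace.single 1 1) 1
      - A (EuclideanSpace.single 1 1) 0 * A (EuclideanSpace.single 0 1) 1 := by
  have h := LinearMap.det_toMatrix (EuclideanSpace.basisFun (Fin 2) ℝ).toBasis A
  rw [← h, Matrix.det_fin_two]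
  simp [LinearMap.toMatrix_apply]

theorem trace_eq (A : E2 →ₗ[ℝ] E2) :
    LinearMap.trace ℝ _ A = A (EuclideanSpace.single 0 1) 0 + A (EuclideanSpace.single 1 1) 1 := by
  rw [LinearMap.trace_eq_matrix_trace ℝ (EuclideanSpace.basisFun (Fin 2) ℝ).toBasis A,
    Matrix.trace_fin_two]
  simp [LinearMap.toMatrix_apply]

theorem apply_eq (A : E2 →ₗ[ℝ] E2) (x : E2) :
    A x = x 0 • A (EuclideanSpace.single 0 1) + x 1 • A (EuclideanSpace.single 1 1) := by
  conv_lhs => rw [show x = x 0 • EuclideanSpace.single 0 (1:ℝ) + x 1 • EuclideanSpace.single 1 (1:ℝ) by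
    ext i; fin_cases i <;> simp]
  rw [map_add, map_smul, map_smul]

/-- Traceless maps: there is an orthonormal pair in which the diagonal vanishes. -/
theorem exists_zero_diag (A : E2 →ₗ[ℝ] E2) (htr : LinearMap.trace ℝ _ A = 0) :
    ∃ (u v : E2) (β γ : ℝ), ‖u‖ = 1 ∧ ‖v‖ = 1 ∧ inner ℝ u v = 0 ∧ A u = γ • v ∧ A v = β • u ∧
      LinearMap.det A = - (β * γ) := by
  set a := A (EuclideanSpace.single 0 1) 0 with ha
  set b := A (EuclideanSpace.single 1 1) 0 with hb
  set c := A (EuclideanSpace.single 0 1) 1 with hc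
  set d := A (EuclideanSpace.single 1 1) 1 with hd
  have htr' : a + d = 0 := by rw [← trace_eq]; exact htr
  have hd' : d = -a := by linarith
  have hA0 : ∀ x : E2, A x 0 = x 0 * a + x 1 * b := by
    intro x; rw [apply_eq A x]; simp [ha, hb]
  have hA1 : ∀ x : E2, A x 1 = x 0 * c + x 1 * d := by
    intro x; rw [apply_eq A x]; simp [hc, hd]
  -- the quadratic form along the circle
  let q : ℝ → ℝ := fun θ => a * Real.cos θ ^ 2 + (b + c) * (Real.cos θ * Real.sin θ) - a * Real.sin θ ^ 2
  have hq : Continuous q := by fun_prop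
  have hex : ∃ θ : ℝ, q θ = 0 := by
    have h0 : q 0 = a := by simp [q]
    have h1 : q (Real.pi / 2) = -a := by simp [q]
    rcases le_total 0 a with h | h
    · have := intermediate_value_Icc' (show (0:ℝ) ≤ Real.pi / 2 by positivity) hq.continuousOn
      rw [h0, h1] at this
      obtain ⟨θ, _, hθ⟩ := this ⟨by linarith, h⟩
      exact ⟨θ, hθ⟩
    · have := intermediate_value_Icc (show (0:ℝ) ≤ Real.pi / 2 by positivity) hq.continuousOn
      rw [h0, h1] at this
      obtain ⟨θ, _, hθ⟩ := this ⟨h, by linarith⟩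
      exact ⟨θ, hθ⟩
  obtain ⟨θ, hθ⟩ := hex
  have hcs := Real.sin_sq_add_cos_sq θ
  set C := Real.cos θ with hC
  set S := Real.sin θ with hS
  have hθ' : a * C ^ 2 + (b + c) * (C * S) - a * S ^ 2 = 0 := hθ
  have hX : a * C + b * S = -S * (-S * (a * C + b * S) + C * (c * C + d * S)) := by
    rw [hd']; linear_combination C * hθ' - (a * C + b * S) * hcs
  have hY : c * C + d * S = C * (-S * (a * C + b * S) + C * (c * C + d * S)) := by
    rw [hd']; linear_combination S * hθ' - (c * C + -a * S) * hcs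
  have hP : -a * S + b * C = C * (C * (-a * S + b * C) + S * (-c * S + d * C)) := by
    rw [hd']; linear_combination S * hθ' - (-a * S + b * C) * hcs
  have hQ : -c * S + d * C = S * (C * (-a * S + b * C) + S * (-c * S + d * C)) := by
    rw [hd']; linear_combination (-C) * hθ' - (-c * S + -a * C) * hcs
  set γ := -S * (a * C + b * S) + C * (c * C + d * S) with hγ
  set β := C * (-a * S + b * C) + S * (-c * S + d * C) with hβ
  refine ⟨!₂[C, S], !₂[-S, C], β, γ, ?_, ?_, ?_, ?_, ?_, ?_⟩
  · rw [EuclideanSpace.norm_eq]; simp [Fin.sum_univ_two]; linarith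
  · rw [EuclideanSpace.norm_eq]; simp [Fin.sum_univ_two]; linarith
  · simp [PiLp.inner_apply, Fin.sum_univ_two]; ring
  · ext i
    fin_cases i
    · simp only [Fin.zero_eta, hA0]
      simp
      linarith
    · simp only [Fin.mk_one, hA1]
      simp
      linarith
  · ext i
    fin_cases i
    · simp only [Fin.zero_eta, hA0]
      simp
      linarith
    · simp only [Fin.mk_one, hA1]
      simp
      linarith
  · rw [det_eq]
    have h1 : (a * d - b * c) * (S ^ 2 + C ^ 2) = - (β * γ) := by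
      have h2 : (a * d - b * c) * (S ^ 2 + C ^ 2) =
          (a * C + b * S) * (-c * S + d * C) - (c * C + d * S) * (-a * S + b * C) := by ring
      rw [h2]
      calc (a * C + b * S) * (-c * S + d * C) - (c * C + d * S) * (-a * S + b * C)
          = (-S * γ) * (S * β) - (C * γ) * (C * β) := by rw [← hX, ← hQ, ← hY, ← hP]
        _ = - (β * γ) * (S ^ 2 + C ^ 2) := by ring
        _ = _ := by rw [hcs]; ring
    rw [hcs, mul_one] at h1
    exact h1

end Crest.Agent.H1.Ruled
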