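import Mathlib
import Crest.Agent.H1.Ruled1

set_option autoImplicit false

open MeasureTheory Module
open scoped ENNReal

namespace Crest.Agent.H1.Ruled

theorem exists_onb {u v : E2} (hu : ‖u‖ = 1) (hv : ‖v‖ = 1) (huv : inner ℝ u v = 0) :
    ∃ b : OrthonormalBasis (Fin 2) ℝ E2, b 0 = u ∧ b 1 = v := by
  have hon : Orthonormal ℝ ![u, v] := by
    rw [orthonormal_iff_ite]
    intro i j
    fin_cases i <;> fin_cases j <;> simp [hu, hv, huv, real_inner_comm]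
  let b' := basisOfOrthonormalOfCardEqFinrank (𝕜 := ℝ) (E := E2) hon (by simp)
  have hb' : (b' : Fin 2 → E2) = ![u, v] := coe_basisOfOrthonormalOfCardEqFinrank _ _
  have hon' : Orthonormal ℝ b' := by rw [hb']; exact hon
  refine ⟨b'.toOrthonormalBasis hon', ?_, ?_⟩
  · rw [Basis.coe_toOrthonormalBasis, hb']; rfl
  · rw [Basis.coe_toOrthonormalBasis, hb']; rfl

/-- Data: orthonormal basis with `A` anti-diagonal. -/
structure AntiDiag (A : E2 →L[ℝ] E2) (b : OrthonormalBasis (Fin 2) ℝ E2) (β γ : ℝ) : Prop where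
  h0 : A (b 0) = γ • b 1
  h1 : A (b 1) = β • b 0

theorem exists_antiDiag (A : E2 →L[ℝ] E2) (htr : LinearMap.trace ℝ _ A.toLinearMap = 0) :
    ∃ (b : OrthonormalBasis (Fin 2) ℝ E2) (β γ : ℝ), AntiDiag A b β γ ∧
      LinearMap.det A.toLinearMap = - (β * γ) := by
  obtain ⟨u, v, β, γ, hu, hv, huv, h0, h1, hdet⟩ := exists_zero_diag A.toLinearMap htr
  obtain ⟨b, hb0, hb1⟩ := exists_onb hu hv huv
  exact ⟨b, β, γ, ⟨by rw [hb0, hb1]; exact h0, by rw [hb0, hb1]; exact h1⟩, hdet⟩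

variable {A : E2 →L[ℝ] E2} {b : OrthonormalBasis (Fin 2) ℝ E2} {β γ : ℝ}

theorem onb_expand (b : OrthonormalBasis (Fin 2) ℝ E2) (x : E2) :
    x = (inner ℝ (b 0) x : ℝ) • b 0 + (inner ℝ (b 1) x : ℝ) • b 1 := by
  have h := b.sum_repr x
  simp only [Fin.sum_univ_two, OrthonormalBasis.repr_apply_apply] at h
  exact h.symm

theorem AntiDiag.sq (h : AntiDiag A b β γ) (x : E2) : A (A x) = (β * γ) • x := by
  rw [onb_expand b x]
  simp only [map_add, map_smul, h.h0, h.h1]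
  module

theorem AntiDiag.inv_bound (h : AntiDiag A b β γ) {L M c₀ s : ℝ} (hs : |s| ≤ L)
    (hM : ‖A‖ ≤ M) (hβγ : 0 ≤ β * γ) (hc : c₀ ≤ 1 - L ^ 2 * (β * γ)) (x : E2) :
    c₀ * ‖x‖ ≤ (1 + L * M) * ‖x + s • A x‖ := by
  have hL : 0 ≤ L := (abs_nonneg s).trans hs
  have hM0 : 0 ≤ M := (norm_nonneg A).trans hM
  have h1 : (x + s • A x) - s • A (x + s • A x) = (1 - s ^ 2 * (β * γ)) • x := by
    simp only [map_add, map_smul, h.sq]
    module
  have hs2 : s ^ 2 ≤ L ^ 2 := by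
    rw [← sq_abs s]; exact pow_le_pow_left₀ (abs_nonneg s) hs 2
  have h2 : c₀ ≤ 1 - s ^ 2 * (β * γ) := by nlinarith
  calc c₀ * ‖x‖ ≤ |1 - s ^ 2 * (β * γ)| * ‖x‖ :=
        mul_le_mul_of_nonneg_right (h2.trans (le_abs_self _)) (norm_nonneg _)
    _ = ‖(x + s • A x) - s • A (x + s • A x)‖ := by rw [h1, norm_smul, Real.norm_eq_abs]
    _ ≤ ‖x + s • A x‖ + ‖s • A (x + s • A x)‖ := norm_sub_le _ _
    _ ≤ ‖x + s • A x‖ + L * (M * ‖x + s • A x‖) := by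
        gcongr
        rw [norm_smul, Real.norm_eq_abs]
        have := A.le_opNorm (x + s • A x)
        have h3 : ‖A (x + s • A x)‖ ≤ M * ‖x + s • A x‖ :=
          this.trans (mul_le_mul_of_nonneg_right hM (norm_nonneg _))
        exact mul_le_mul hs h3 (norm_nonneg _) hL
    _ = _ := by ring

theorem AntiDiag.level_cover (h : AntiDiag A b β γ) {L s : ℝ} (hs : |s| ≤ L)
    (hβγ : 0 ≤ β * γ) (hc : L ^ 2 * (β * γ) < 1) {η : ℝ} (hη : 0 < η) (ξ : E2) :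
    ∃ m n : ℤ, ∃ x ∈ Set.Icc (0 : ℝ) 1, ∃ y ∈ Set.Icc (0 : ℝ) 1,
      ξ = ((η * m) • b 0 + (η * n) • b 1) + s • A ((η * m) • b 0 + (η * n) • b 1)
        + x • (η • b 0) + y • (η • b 1) := by
  have hs2 : s ^ 2 ≤ L ^ 2 := by
    rw [← sq_abs s]; exact pow_le_pow_left₀ (abs_nonneg s) hs 2
  obtain ⟨m, n, ⟨hx0, hx1⟩, hy0, hy1⟩ := lattice_cover (β := s * β) (γ := s * γ)
    (by nlinarith [sq_nonneg s]) (by nlinarith) ((inner ℝ (b 0) ξ : ℝ) / η) ((inner ℝ (b 1) ξ : ℝ) / η)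
  refine ⟨m, n, _, ⟨hx0, hx1⟩, _, ⟨hy0, hy1⟩, ?_⟩
  simp only [map_add, map_smul, h.h0, h.h1, smul_smul]
  have hη' := hη.ne'
  conv_lhs => rw [onb_expand b ξ]
  have e0 : (inner ℝ (b 0) ξ : ℝ) = η * m + s * (η * n * β) + ((inner ℝ (b 0) ξ : ℝ) / η - m - n * (s * β)) * η := by
    field_simp; ring
  have e1 : (inner ℝ (b 1) ξ : ℝ) = η * n + s * (η * m * γ) + ((inner ℝ (b 1) ξ : ℝ) / η - m * (s * γ) - n) * η := by
    field_simp; ring
  set X := (inner ℝ (b 0) ξ : ℝ)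
  set Y := (inner ℝ (b 1) ξ : ℝ)
  calc X • b 0 + Y • b 1
      = (η * m + s * (η * n * β) + (X / η - m - n * (s * β)) * η) • b 0
        + (η * n + s * (η * m * γ) + (Y / η - m * (s * γ) - n) * η) • b 1 := by rw [← e0, ← e1]
    _ = _ := by module

/-- Local covering statement. -/
theorem AntiDiag.patch (h : AntiDiag A b β γ) {L M c₀ : ℝ}
    (hM : ‖A‖ ≤ M) (hβγ : 0 ≤ β * γ) (hc₀ : 0 < c₀) (hc : c₀ ≤ 1 - L ^ 2 * (β * γ))
    {η : ℝ} (hη : 0 < η) {p₀ v₀ p Vp : E2} {e : ℝ}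
    (he : ‖Vp - v₀ - A (p - p₀)‖ ≤ e) {s : ℝ} (hs : |s| ≤ L) :
    ∃ m n : ℤ, (∃ x ∈ Set.Icc (0 : ℝ) 1, ∃ y ∈ Set.Icc (0 : ℝ) 1,
      p + s • Vp = (p₀ + ((η * m) • b 0 + (η * n) • b 1)) + x • (η • b 0) + y • (η • b 1)
        + s • (v₀ + A ((η * m) • b 0 + (η * n) • b 1))) ∧
      ‖p₀ + ((η * m) • b 0 + (η * n) • b 1) - p‖ ≤ (1 + L * M) / c₀ * (2 * η + L * e) := by
  have hL : 0 ≤ L := (abs_nonneg s).trans hs
  have hM0 : 0 ≤ M := (norm_nonneg A).trans hM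
  obtain ⟨m, n, x, hx, y, hy, hxy⟩ := h.level_cover hs hβγ (by linarith) hη
    (p + s • Vp - p₀ - s • v₀)
  set lam : E2 := (η * m) • b 0 + (η * n) • b 1 with hlam
  refine ⟨m, n, ⟨x, hx, y, hy, ?_⟩, ?_⟩
  · have : p + s • Vp = (p + s • Vp - p₀ - s • v₀) + p₀ + s • v₀ := by abel
    rw [this, hxy]
    module
  · have hkey : (p - p₀ - lam) + s • A (p - p₀ - lam) =
        (x • (η • b 0) + y • (η • b 1)) - s • (Vp - v₀ - A (p - p₀)) := by
      have e1 : A (p - p₀ - lam) = A (p - p₀) - A lam := by rw [map_sub]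
      rw [e1]
      have e2 : p + s • Vp - p₀ - s • v₀ - (lam + s • A lam) = x • (η • b 0) + y • (η • b 1) := by
        rw [hxy]; abel
      rw [← e2]
      module
    have hn : ‖(p - p₀ - lam) + s • A (p - p₀ - lam)‖ ≤ 2 * η + L * e := by
      rw [hkey]
      refine (norm_sub_le _ _).trans ?_
      have h1 : ‖x • (η • b 0) + y • (η • b 1)‖ ≤ 2 * η := by
        refine (norm_add_le _ _).trans ?_
        rw [norm_smul, norm_smul, norm_smul, norm_smul, b.norm_eq_one, b.norm_eq_one,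
          Real.norm_of_nonneg hx.1, Real.norm_of_nonneg hy.1, Real.norm_of_nonneg hη.le]
        nlinarith [hx.2, hy.2]
      have h2 : ‖s • (Vp - v₀ - A (p - p₀))‖ ≤ L * e := by
        rw [norm_smul, Real.norm_eq_abs]
        exact mul_le_mul hs he (norm_nonneg _) hL
      linarith
    have h3 := h.inv_bound hs hM hβγ hc (p - p₀ - lam)
    have h4 : ‖p₀ + lam - p‖ = ‖p - p₀ - lam‖ := by
      rw [← norm_neg]; congr 1; abel
    rw [h4, div_mul_eq_mul_div, le_div_iff₀ hc₀]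
    calc ‖p - p₀ - lam‖ * c₀ = c₀ * ‖p - p₀ - lam‖ := by ring
      _ ≤ _ := h3
      _ ≤ _ := by gcongr

end Crest.Agent.H1.Ruled
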