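import Mathlib
import Crest.Agent.H1.Ruled2

set_option autoImplicit false

open MeasureTheory Module
open scoped ENNReal

namespace Crest.Agent.H1.Ruled

/-- Closed axis-parallel square with lower-left corner `a` and side `ℓ`. -/
def cbox (a : E2) (ℓ : ℝ) : Set E2 :=
  {y | y 0 ∈ Set.Icc (a 0) (a 0 + ℓ) ∧ y 1 ∈ Set.Icc (a 1) (a 1 + ℓ)}

/-- Half-open box. -/
def hbox (a0 a1 ℓ : ℝ) : Set E2 :=
  {y | y 0 ∈ Set.Ico a0 (a0 + ℓ) ∧ y 1 ∈ Set.Ico a1 (a1 + ℓ)}

theorem volume_cbox (a : E2) {ℓ : ℝ} (hℓ : 0 ≤ ℓ) : volume (cbox a ℓ) = ENNReal.ofReal (ℓ ^ 2) := by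
  have h := volume_preserving_fstsnd.measure_preimage
    (s := Set.Icc (a 0) (a 0 + ℓ) ×ˢ Set.Icc (a 1) (a 1 + ℓ))
    (measurableSet_Icc.prod measurableSet_Icc).nullMeasurableSet
  rw [Measure.volume_eq_prod, Measure.prod_prod] at h
  simp only [Real.volume_Icc, add_sub_cancel_left] at h
  rw [← ENNReal.ofReal_mul hℓ, ← sq] at h
  rw [← h]
  rfl

theorem volume_hbox (a0 a1 : ℝ) {ℓ : ℝ} (hℓ : 0 ≤ ℓ) :
    volume (hbox a0 a1 ℓ) = ENNReal.ofReal (ℓ ^ 2) := by
  have h := volume_preserving_fstsnd.measure_preimage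
    (s := Set.Ico (a0) (a0 + ℓ) ×ˢ Set.Ico (a1) (a1 + ℓ))
    (measurableSet_Ico.prod measurableSet_Ico).nullMeasurableSet
  rw [Measure.volume_eq_prod, Measure.prod_prod] at h
  simp only [Real.volume_Ico, add_sub_cancel_left] at h
  rw [← ENNReal.ofReal_mul hℓ, ← sq] at h
  rw [← h]
  rfl

theorem measurableSet_hbox (a0 a1 ℓ : ℝ) : MeasurableSet (hbox a0 a1 ℓ) := by
  have h0 : Measurable (fun y : E2 => y 0) := by fun_prop
  have h1 : Measurable (fun y : E2 => y 1) := by fun_prop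
  exact (h0 measurableSet_Ico).inter (h1 measurableSet_Ico)

theorem abs_coord_le (y : E2) (i : Fin 2) : |y i| ≤ ‖y‖ := by
  have := PiLp.norm_apply_le y i
  simpa using this

/-- Points of `cbox` enlarged. -/
theorem cbox_enlarge {a y z : E2} {ℓ ρ : ℝ} (hy : y ∈ cbox a ℓ) (hz : ‖z - y‖ ≤ ρ) :
    z ∈ cbox (a - !₂[ρ, ρ]) (ℓ + 2 * ρ) := by
  have h0 := abs_le.mp ((abs_coord_le (z - y) 0).trans hz)
  have h1 := abs_le.mp ((abs_coord_le (z - y) 1).trans hz)
  obtain ⟨⟨hy0, hy0'⟩, hy1, hy1'⟩ := hy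
  simp only [PiLp.sub_apply] at h0 h1
  refine ⟨⟨?_, ?_⟩, ?_, ?_⟩ <;> simp <;> linarith [h0.1, h0.2, h1.1, h1.2]

/-- Counting lattice points in a square. -/
theorem count_le (b : OrthonormalBasis (Fin 2) ℝ E2) (p₀ a : E2) {η ℓ : ℝ} (hη : 0 < η) (hℓ : 0 ≤ ℓ)
    (Λ : Finset (ℤ × ℤ))
    (hΛ : ∀ k ∈ Λ, p₀ + ((η * k.1) • b 0 + (η * k.2) • b 1) ∈ cbox a ℓ) :
    Λ.card * η ^ 2 ≤ (ℓ + 4 * η) ^ 2 := by
  -- the cells
  let φ : E2 → E2 := fun y => b.repr (y - p₀)
  have hφ : MeasurePreserving φ volume volume :=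
    b.measurePreserving_repr.comp (measurePreserving_sub_right volume p₀)
  let cell : ℤ × ℤ → Set E2 := fun k => φ ⁻¹' hbox (η * k.1) (η * k.2) η
  have hcell_meas : ∀ k, MeasurableSet (cell k) := fun k =>
    hφ.measurable (measurableSet_hbox _ _ _)
  have hcell_vol : ∀ k, volume (cell k) = ENNReal.ofReal (η ^ 2) := by
    intro k
    rw [hφ.measure_preimage (measurableSet_hbox _ _ _).nullMeasurableSet, volume_hbox _ _ hη.le]
  have hdisj : Set.PairwiseDisjoint (Λ : Set (ℤ × ℤ)) cell := by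
    intro k _ k' _ hkk'
    rw [Function.onFun, Set.disjoint_left]
    intro y hy hy'
    apply hkk'
    have aux : ∀ {i j : ℤ} {t : ℝ}, t ∈ Set.Ico (η * i) (η * i + η) → t ∈ Set.Ico (η * j) (η * j + η) →
        i = j := by
      intro i j t hi hj
      have h1 : η * i < η * (j + 1) := by linarith [hi.1, hj.2]
      have h2 : η * j < η * (i + 1) := by linarith [hj.1, hi.2]
      have h3 : (i : ℝ) < j + 1 := lt_of_mul_lt_mul_left h1 hη.le
      have h4 : (j : ℝ) < i + 1 := lt_of_mul_lt_mul_left h2 hη.le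
      have h5 : i < j + 1 := by exact_mod_cast h3
      have h6 : j < i + 1 := by exact_mod_cast h4
      omega
    exact Prod.ext (aux hy.1 hy'.1) (aux hy.2 hy'.2)
  have hsub : (⋃ k ∈ Λ, cell k) ⊆ cbox (a - !₂[2 * η, 2 * η]) (ℓ + 2 * (2 * η)) := by
    intro y hy
    simp only [Set.mem_iUnion] at hy
    obtain ⟨k, hk, hyk⟩ := hy
    apply cbox_enlarge (hΛ k hk)
    have h1 : y - (p₀ + ((η * k.1) • b 0 + (η * k.2) • b 1)) =
        (φ y 0 - η * k.1) • b 0 + (φ y 1 - η * k.2) • b 1 := by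
      have h2 := b.sum_repr (y - p₀)
      rw [Fin.sum_univ_two] at h2
      have h3 : y - (p₀ + ((η * k.1) • b 0 + (η * k.2) • b 1)) =
        (y - p₀) - ((η * k.1) • b 0 + (η * k.2) • b 1) := by abel
      rw [h3]
      conv_lhs => rw [← h2]
      simp only [φ]
      module
    rw [h1]
    refine (norm_add_le _ _).trans ?_
    rw [norm_smul, norm_smul, b.norm_eq_one, b.norm_eq_one, mul_one, mul_one, Real.norm_eq_abs,
      Real.norm_eq_abs]
    obtain ⟨⟨h4, h5⟩, h6, h7⟩ := hyk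
    have h8 : |φ y 0 - η * k.1| ≤ η := by rw [abs_le]; constructor <;> linarith
    have h9 : |φ y 1 - η * k.2| ≤ η := by rw [abs_le]; constructor <;> linarith
    linarith
  have hvol := measure_mono (μ := (volume : Measure E2)) hsub
  rw [measure_biUnion_finset hdisj (fun k _ => hcell_meas k), volume_cbox _ (by positivity)] at hvol
  simp only [hcell_vol, Finset.sum_const, nsmul_eq_mul] at hvol
  rw [← ENNReal.ofReal_natCast, ← ENNReal.ofReal_mul (by positivity)] at hvol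
  have := (ENNReal.ofReal_le_ofReal_iff (by positivity)).mp hvol
  linarith [this]

/-- The set of lattice indices landing in a square is finite. -/
theorem finite_index (b : OrthonormalBasis (Fin 2) ℝ E2) (p₀ a : E2) {η ℓ : ℝ} (hη : 0 < η) :
    {k : ℤ × ℤ | p₀ + ((η * k.1) • b 0 + (η * k.2) • b 1) ∈ cbox a ℓ}.Finite := by
  obtain ⟨K, hK⟩ := exists_nat_gt ((|a 0| + |a 1| + 2 * |ℓ| + ‖p₀‖) / η)
  apply Set.Finite.subset (Finset.finite_toSet (Finset.Icc (-(K:ℤ)) K ×ˢ Finset.Icc (-(K:ℤ)) K))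
  rintro ⟨m, n⟩ hk
  have hyn : ∀ y ∈ cbox a ℓ, ‖y‖ ≤ |a 0| + |a 1| + 2 * |ℓ| := by
    intro y hy
    have h1 : |y 0| ≤ |a 0| + |ℓ| := by
      rw [abs_le]
      constructor
      · linarith [hy.1.1, neg_abs_le (a 0), abs_nonneg ℓ]
      · linarith [hy.1.2, le_abs_self (a 0), le_abs_self ℓ]
    have h2 : |y 1| ≤ |a 1| + |ℓ| := by
      rw [abs_le]
      constructor
      · linarith [hy.2.1, neg_abs_le (a 1), abs_nonneg ℓ]
      · linarith [hy.2.2, le_abs_self (a 1), le_abs_self ℓ]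
    have h3 : ‖y‖ ≤ |y 0| + |y 1| := by
      rw [EuclideanSpace.norm_eq, Fin.sum_univ_two]
      apply Real.sqrt_le_iff.mpr
      constructor
      · positivity
      · simp only [Real.norm_eq_abs]
        nlinarith [abs_nonneg (y 0), abs_nonneg (y 1)]
    linarith
  have h1 := hyn _ hk
  set lam : E2 := (η * (m : ℝ)) • b 0 + (η * (n : ℝ)) • b 1 with hlam
  have h2 : ‖lam‖ ≤ |a 0| + |a 1| + 2 * |ℓ| + ‖p₀‖ := by
    calc ‖lam‖ = ‖(p₀ + lam) - p₀‖ := by congr 1; abel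
      _ ≤ ‖p₀ + lam‖ + ‖p₀‖ := norm_sub_le _ _
      _ ≤ _ := by linarith
  have h3 : η * |(m : ℝ)| ≤ ‖lam‖ := by
    have h4 : (inner ℝ (b 0) lam : ℝ) = η * m := by
      rw [hlam, inner_add_right, real_inner_smul_right, real_inner_smul_right,
        real_inner_self_eq_norm_sq, b.norm_eq_one, b.inner_eq_zero (by simp)]
      ring
    have h5 := abs_real_inner_le_norm (b 0) lam
    rw [h4, b.norm_eq_one, abs_mul, abs_of_pos hη, one_mul] at h5
    exact h5
  have h3' : η * |(n : ℝ)| ≤ ‖lam‖ := by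
    have h4 : (inner ℝ (b 1) lam : ℝ) = η * n := by
      rw [hlam, inner_add_right, real_inner_smul_right, real_inner_smul_right,
        real_inner_self_eq_norm_sq, b.norm_eq_one, b.inner_eq_zero (by simp)]
      ring
    have h5 := abs_real_inner_le_norm (b 1) lam
    rw [h4, b.norm_eq_one, abs_mul, abs_of_pos hη, one_mul] at h5
    exact h5
  rw [div_lt_iff₀ hη] at hK
  have h6 : |(m : ℝ)| ≤ K := by
    have : η * |(m : ℝ)| ≤ η * K := by linarith
    exact le_of_mul_le_mul_left this hη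
  have h7 : |(n : ℝ)| ≤ K := by
    have : η * |(n : ℝ)| ≤ η * K := by linarith
    exact le_of_mul_le_mul_left this hη
  rw [abs_le] at h6 h7
  simp only [Finset.coe_product, Finset.coe_Icc, Set.mem_prod, Set.mem_Icc]
  refine ⟨⟨?_, ?_⟩, ?_, ?_⟩
  · exact_mod_cast h6.1
  · exact_mod_cast h6.2
  · exact_mod_cast h7.1
  · exact_mod_cast h7.2

end Crest.Agent.H1.Ruled
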