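import Mathlib
import Crest.Agent.H1.Ruled3

set_option autoImplicit false

open MeasureTheory Module
open scoped ENNReal

namespace Crest.Agent.H1.Ruled

/-- The cost density. -/
noncomputable def J (h : ℝ) (g : E2) : ℝ := 1 / Real.sqrt (1 + (g 0) ^ 2 + h ^ 2 * (g 1) ^ 2)

theorem J_arg_ge (h : ℝ) (g : E2) : 1 ≤ Real.sqrt (1 + (g 0) ^ 2 + h ^ 2 * (g 1) ^ 2) := by
  apply Real.one_le_sqrt.mpr
  nlinarith [sq_nonneg (g 0), sq_nonneg (h * g 1)]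

theorem J_nonneg (h : ℝ) (g : E2) : 0 ≤ J h g := by unfold J; positivity

theorem J_le_one (h : ℝ) (g : E2) : J h g ≤ 1 := by
  unfold J
  rw [div_le_one (by linarith [J_arg_ge h g])]
  exact J_arg_ge h g

theorem sqrt_eq_norm (h : ℝ) (g : E2) :
    Real.sqrt (1 + (g 0) ^ 2 + h ^ 2 * (g 1) ^ 2) = ‖(!₂[1, g 0, h * g 1] : EuclideanSpace ℝ (Fin 3))‖ := by
  rw [EuclideanSpace.norm_eq]
  congr 1
  simp [Fin.sum_univ_three]
  ring

theorem J_lip {h : ℝ} (hh : 0 ≤ h) (g g' : E2) : J h g ≤ J h g' + (1 + h) * ‖g - g'‖ := by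
  unfold J
  rw [sqrt_eq_norm, sqrt_eq_norm]
  have h1 : 1 ≤ ‖(!₂[1, g 0, h * g 1] : EuclideanSpace ℝ (Fin 3))‖ := by
    rw [← sqrt_eq_norm]; exact J_arg_ge h g
  have h2 : 1 ≤ ‖(!₂[1, g' 0, h * g' 1] : EuclideanSpace ℝ (Fin 3))‖ := by
    rw [← sqrt_eq_norm]; exact J_arg_ge h g'
  set w : EuclideanSpace ℝ (Fin 3) := !₂[1, g 0, h * g 1] with hw
  set w' : EuclideanSpace ℝ (Fin 3) := !₂[1, g' 0, h * g' 1] with hw'
  have h3 : ‖w'‖ - ‖w‖ ≤ (1 + h) * ‖g - g'‖ := by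
    have h4 : ‖w' - w‖ ≤ (1 + h) * ‖g - g'‖ := by
      rw [EuclideanSpace.norm_eq]
      apply Real.sqrt_le_iff.mpr
      constructor
      · positivity
      · simp only [Fin.sum_univ_three, hw, hw', Real.norm_eq_abs, sq_abs]
        simp
        have h5 : ‖g - g'‖ ^ 2 = (g 0 - g' 0) ^ 2 + (g 1 - g' 1) ^ 2 := by
          rw [EuclideanSpace.norm_sq_eq]; simp [Fin.sum_univ_two]
        rw [mul_pow, h5]
        nlinarith [sq_nonneg (g 0 - g' 0), sq_nonneg (g 1 - g' 1), mul_nonneg hh (sq_nonneg (g 0 - g' 0)),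
          mul_nonneg hh (sq_nonneg (g 1 - g' 1)), mul_nonneg (mul_nonneg hh hh) (sq_nonneg (g 0 - g' 0))]
    have := norm_sub_norm_le w' w
    linarith
  have h6 : 1 / ‖w‖ - 1 / ‖w'‖ ≤ (1 + h) * ‖g - g'‖ := by
    rw [div_sub_div _ _ (by linarith) (by linarith), div_le_iff₀ (by positivity)]
    have h7 : 0 ≤ (1 + h) * ‖g - g'‖ := by positivity
    nlinarith [mul_le_mul h1 h2 (by norm_num) (by linarith : (0:ℝ) ≤ ‖w‖)]
  linarith

/-- `Cov h Z K`: the set `Z` is covered by finitely many sheared square cylinders of cost at most `K`. -/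
def Cov (h : ℝ) (Z : Set (ℝ × E2)) (K : ℝ) : Prop :=
  ∃ (ι : Type) (_ : Fintype ι) (c a b g : ι → E2),
    (∀ i, a i ≠ 0 ∧ ‖b i‖ = ‖a i‖ ∧ inner ℝ (a i) (b i) = 0) ∧
    Z ⊆ ⋃ i, {z : ℝ × E2 | ∃ x ∈ Set.Icc (0 : ℝ) 1, ∃ y ∈ Set.Icc (0 : ℝ) 1,
          z.2 = c i + x • a i + y • b i + z.1 • g i} ∧
    ∑ i, ‖a i‖ ^ 2 * J h (g i) ≤ K

theorem Cov.mono {h : ℝ} {Z Z' : Set (ℝ × E2)} {K K' : ℝ} (hc : Cov h Z K) (hZ : Z' ⊆ Z)
    (hK : K ≤ K') : Cov h Z' K' := by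
  obtain ⟨ι, i1, c, a, b, g, h1, h2, h3⟩ := hc
  exact ⟨ι, i1, c, a, b, g, h1, hZ.trans h2, h3.trans hK⟩

theorem Cov.biUnion {h : ℝ} {κ : Type} (s : Finset κ) (Z : κ → Set (ℝ × E2)) (K : κ → ℝ)
    (hc : ∀ k ∈ s, Cov h (Z k) (K k)) : Cov h (⋃ k ∈ s, Z k) (∑ k ∈ s, K k) := by
  have hc' : ∀ k : s, Cov h (Z k) (K k) := fun k => hc k.1 k.2
  choose ι i1 c a b g h1 h2 h3 using hc'
  refine ⟨Σ k : s, ι k, inferInstance, fun i => c i.1 i.2, fun i => a i.1 i.2, fun i => b i.1 i.2,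
    fun i => g i.1 i.2, ?_, ?_, ?_⟩
  · rintro ⟨k, i⟩
    exact h1 k i
  · intro z hz
    simp only [Set.mem_iUnion] at hz
    obtain ⟨k, hk, hz⟩ := hz
    have := h2 ⟨k, hk⟩ hz
    simp only [Set.mem_iUnion] at this ⊢
    obtain ⟨i, hi⟩ := this
    exact ⟨⟨⟨k, hk⟩, i⟩, hi⟩
  · rw [Fintype.sum_sigma, ← Finset.sum_coe_sort s K]
    exact Finset.sum_le_sum fun k _ => h3 k

/-- Reindexing to `Fin k`. -/
theorem Cov.toFin {h : ℝ} {Z : Set (ℝ × E2)} {K : ℝ} (hc : Cov h Z K) :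
    ∃ (k : ℕ) (c a b g : Fin k → E2),
    (∀ i, a i ≠ 0 ∧ ‖b i‖ = ‖a i‖ ∧ inner ℝ (a i) (b i) = 0) ∧
    Z ⊆ ⋃ i, {z : ℝ × E2 | ∃ x ∈ Set.Icc (0 : ℝ) 1, ∃ y ∈ Set.Icc (0 : ℝ) 1,
          z.2 = c i + x • a i + y • b i + z.1 • g i} ∧
    ∑ i, ‖a i‖ ^ 2 * J h (g i) ≤ K := by
  obtain ⟨ι, i1, c, a, b, g, h1, h2, h3⟩ := hc
  let e := Fintype.equivFin ι
  refine ⟨Fintype.card ι, c ∘ e.symm, a ∘ e.symm, b ∘ e.symm, g ∘ e.symm, fun i => h1 _, ?_, ?_⟩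
  · intro z hz
    have := h2 hz
    simp only [Set.mem_iUnion] at this ⊢
    obtain ⟨i, hi⟩ := this
    exact ⟨e i, by simpa using hi⟩
  · refine le_trans (le_of_eq ?_) h3
    exact Equiv.sum_comp e.symm (fun i => ‖a i‖ ^ 2 * J h (g i))

/-- One patch. -/
theorem cov_patch {A : E2 →L[ℝ] E2} {b : OrthonormalBasis (Fin 2) ℝ E2} {β γ : ℝ}
    (hA : AntiDiag A b β γ) {h L M c₀ : ℝ} (hh : 0 ≤ h) (hL : 0 ≤ L)
    (hM : ‖A‖ ≤ M) (hβγ : 0 ≤ β * γ) (hc₀ : 0 < c₀) (hc : c₀ ≤ 1 - L ^ 2 * (β * γ))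
    (V : E2 → E2) (D : Set E2) (a p₀ : E2) {δ η r e : ℝ} (hη : 0 < η) (hδ : 0 ≤ δ)
    (hr : (1 + L * M) / c₀ * (2 * η + L * e) ≤ r) (hr0 : 0 ≤ r)
    (hp₀ : p₀ ∈ cbox a δ)
    (herr : ∀ p ∈ D ∩ cbox a δ, ‖V p - V p₀ - A (p - p₀)‖ ≤ e) :
    Cov h {z : ℝ × E2 | ∃ p ∈ D ∩ cbox a δ, |z.1| ≤ L ∧ z.2 = p + z.1 • V p}
      ((δ + 2 * r + 4 * η) ^ 2 * (J h (V p₀) + (1 + h) * (M * (2 * (δ + 2 * r))))) := by
  classical
  have hM0 : 0 ≤ M := (norm_nonneg A).trans hM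
  set Λ : Finset (ℤ × ℤ) := (finite_index b p₀ (a - !₂[r, r]) (ℓ := δ + 2 * r) hη).toFinset with hΛ
  have hΛmem : ∀ k, k ∈ Λ ↔ p₀ + ((η * k.1) • b 0 + (η * k.2) • b 1) ∈ cbox (a - !₂[r, r]) (δ + 2 * r) := by
    intro k; rw [hΛ, Set.Finite.mem_toFinset]; rfl
  have hcount := count_le b p₀ (a - !₂[r, r]) hη (by positivity : 0 ≤ δ + 2 * r) Λ
    (fun k hk => (hΛmem k).mp hk)
  refine ⟨Λ, inferInstance, fun k => p₀ + ((η * k.1.1) • b 0 + (η * k.1.2) • b 1),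
    fun _ => η • b 0, fun _ => η • b 1,
    fun k => V p₀ + A ((η * k.1.1) • b 0 + (η * k.1.2) • b 1), ?_, ?_, ?_⟩
  · intro k
    refine ⟨?_, ?_, ?_⟩
    · intro h0
      have := congrArg norm h0
      rw [norm_smul, b.norm_eq_one, norm_zero, mul_one, norm_eq_zero] at this
      exact hη.ne' this
    · rw [norm_smul, norm_smul, b.norm_eq_one, b.norm_eq_one]
    · rw [real_inner_smul_left, real_inner_smul_right, b.inner_eq_zero (by simp)]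
      simp
  · rintro ⟨s, ξ⟩ ⟨p, hp, hs, hξ⟩
    simp only at hs hξ
    obtain ⟨m, n, ⟨x, hx, y, hy, hxy⟩, hclose⟩ := hA.patch hM hβγ hc₀ hc hη
      (herr p hp) hs
    simp only [Set.mem_iUnion]
    have hmem : (m, n) ∈ Λ := by
      rw [hΛmem]
      exact cbox_enlarge hp.2 (hclose.trans hr)
    refine ⟨⟨(m, n), hmem⟩, x, hx, y, hy, ?_⟩
    simp only
    rw [hξ, hxy]
  · have hterm : ∀ k : Λ, ‖η • b 0‖ ^ 2 * J h (V p₀ + A ((η * k.1.1) • b 0 + (η * k.1.2) • b 1)) ≤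
        η ^ 2 * (J h (V p₀) + (1 + h) * (M * (2 * (δ + 2 * r)))) := by
      intro k
      rw [norm_smul, b.norm_eq_one, mul_one, Real.norm_of_nonneg hη.le]
      apply mul_le_mul_of_nonneg_left _ (by positivity)
      refine (J_lip hh _ (V p₀)).trans ?_
      gcongr
      rw [add_sub_cancel_left]
      refine (A.le_opNorm _).trans ?_
      gcongr
      -- both points in the big square
      have h1 := (hΛmem k.1).mp k.2
      have h2 : p₀ ∈ cbox (a - !₂[r, r]) (δ + 2 * r) := cbox_enlarge hp₀ (by simpa using hr0)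
      set lam : E2 := (η * (k.1.1 : ℝ)) • b 0 + (η * (k.1.2 : ℝ)) • b 1
      have h3 : |lam 0| ≤ δ + 2 * r := by
        have e1 := h1.1; have e2 := h2.1
        simp only [PiLp.add_apply] at e1
        rw [abs_le]
        constructor <;> linarith [e1.1, e1.2, e2.1, e2.2]
      have h4 : |lam 1| ≤ δ + 2 * r := by
        have e1 := h1.2; have e2 := h2.2
        simp only [PiLp.add_apply] at e1
        rw [abs_le]
        constructor <;> linarith [e1.1, e1.2, e2.1, e2.2]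
      have h5 : ‖lam‖ ≤ |lam 0| + |lam 1| := by
        rw [EuclideanSpace.norm_eq, Fin.sum_univ_two]
        apply Real.sqrt_le_iff.mpr
        constructor
        · positivity
        · simp only [Real.norm_eq_abs]
          nlinarith [abs_nonneg (lam 0), abs_nonneg (lam 1)]
      linarith
    calc ∑ k : Λ, ‖η • b 0‖ ^ 2 * J h (V p₀ + A ((η * k.1.1) • b 0 + (η * k.1.2) • b 1))
        ≤ ∑ _k : Λ, η ^ 2 * (J h (V p₀) + (1 + h) * (M * (2 * (δ + 2 * r)))) :=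
          Finset.sum_le_sum fun k _ => hterm k
      _ = (Λ.card * η ^ 2) * (J h (V p₀) + (1 + h) * (M * (2 * (δ + 2 * r)))) := by
          rw [Finset.sum_const, Finset.card_univ, Fintype.card_coe, nsmul_eq_mul]; ring
      _ ≤ _ := by
          apply mul_le_mul_of_nonneg_right hcount
          have := J_nonneg h (V p₀)
          positivity

end Crest.Agent.H1.Ruled
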