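import Mathlib
import Crest.Agent.H1.Ruled4

set_option autoImplicit false

open MeasureTheory Module
open scoped ENNReal

namespace Crest.Agent.H1.Ruled

/-- Uniform differentiability on a compact set. -/
theorem uniform_diff {D U : Set E2} (hD : IsCompact D) (hU : IsOpen U) (hDU : D ⊆ U) {V : E2 → E2}
    (hV : ContDiffOn ℝ 1 V U) {κ : ℝ} (hκ : 0 < κ) :
    ∃ δ₀ : ℝ, 0 < δ₀ ∧ ∀ p ∈ D, ∀ q ∈ D, ‖q - p‖ ≤ δ₀ →
      ‖V q - V p - fderiv ℝ V p (q - p)‖ ≤ κ * ‖q - p‖ := by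
  obtain ⟨r, hr, hrU⟩ := hD.exists_cthickening_subset_open hU hDU
  have hcomp : IsCompact (Metric.cthickening r D) := hD.cthickening
  have hcont : ContinuousOn (fun x => fderiv ℝ V x) (Metric.cthickening r D) :=
    (hV.continuousOn_fderiv_of_isOpen hU le_rfl).mono hrU
  have huc := hcomp.uniformContinuousOn_of_continuous hcont
  rw [Metric.uniformContinuousOn_iff] at huc
  obtain ⟨δ₁, hδ₁, huc⟩ := huc κ hκ
  refine ⟨min r (δ₁ / 2), lt_min hr (by positivity), ?_⟩
  intro p hp q hq hpq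
  have hball : Metric.closedBall p (min r (δ₁ / 2)) ⊆ Metric.cthickening r D :=
    (Metric.closedBall_subset_closedBall (min_le_left _ _)).trans
      (Metric.closedBall_subset_cthickening hp r)
  have hpB : p ∈ Metric.closedBall p (min r (δ₁ / 2)) :=
    Metric.mem_closedBall_self (by positivity)
  have hqB : q ∈ Metric.closedBall p (min r (δ₁ / 2)) := by
    rw [Metric.mem_closedBall, dist_eq_norm]; exact hpq
  refine (convex_closedBall p (min r (δ₁ / 2))).norm_image_sub_le_of_norm_hasFDerivWithin_le'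
    (f' := fun x => fderiv ℝ V x) ?_ ?_ hpB hqB
  · intro x hx
    have hxU : x ∈ U := hrU (hball hx)
    have : DifferentiableAt ℝ V x := (hV.differentiableOn one_ne_zero).differentiableAt (hU.mem_nhds hxU)
    exact this.hasFDerivAt.hasFDerivWithinAt
  · intro x hx
    have h1 := huc x (hball hx) p (hball hpB) (by
      have : dist x p ≤ δ₁ / 2 := (Metric.mem_closedBall.mp hx).trans (min_le_right _ _)
      linarith)
    rw [dist_eq_norm] at h1
    exact h1.le

/-- The grid square with index `k`. -/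
def gsq (δ : ℝ) (k : ℤ × ℤ) : Set E2 := hbox (δ * k.1) (δ * k.2) δ

theorem gsq_disjoint {δ : ℝ} (hδ : 0 < δ) : Pairwise (Function.onFun Disjoint (gsq δ)) := by
  intro k k' hkk'
  rw [Function.onFun, Set.disjoint_left]
  intro y hy hy'
  apply hkk'
  have aux : ∀ {i j : ℤ} {t : ℝ}, t ∈ Set.Ico (δ * i) (δ * i + δ) → t ∈ Set.Ico (δ * j) (δ * j + δ) →
      i = j := by
    intro i j t hi hj
    have h1 : δ * i < δ * (j + 1) := by linarith [hi.1, hj.2]
    have h2 : δ * j < δ * (i + 1) := by linarith [hj.1, hi.2]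
    have h3 : (i : ℝ) < j + 1 := lt_of_mul_lt_mul_left h1 hδ.le
    have h4 : (j : ℝ) < i + 1 := lt_of_mul_lt_mul_left h2 hδ.le
    have h5 : i < j + 1 := by exact_mod_cast h3
    have h6 : j < i + 1 := by exact_mod_cast h4
    omega
  exact Prod.ext (aux hy.1 hy'.1) (aux hy.2 hy'.2)

theorem mem_gsq_floor {δ : ℝ} (hδ : 0 < δ) (y : E2) : y ∈ gsq δ (⌊y 0 / δ⌋, ⌊y 1 / δ⌋) := by
  have aux : ∀ t : ℝ, t ∈ Set.Ico (δ * (⌊t / δ⌋ : ℤ)) (δ * (⌊t / δ⌋ : ℤ) + δ) := by
    intro t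
    constructor
    · have := Int.floor_le (t / δ)
      rw [le_div_iff₀ hδ] at this
      linarith
    · have := Int.lt_floor_add_one (t / δ)
      rw [div_lt_iff₀ hδ] at this
      linarith
  exact ⟨aux _, aux _⟩

theorem gsq_subset_cbox (δ : ℝ) (k : ℤ × ℤ) : gsq δ k ⊆ cbox !₂[δ * k.1, δ * k.2] δ := by
  rintro y ⟨⟨h1, h2⟩, h3, h4⟩
  exact ⟨⟨by simpa using h1, by simpa using h2.le⟩, ⟨by simpa using h3, by simpa using h4.le⟩⟩

theorem cbox_dist {a y z : E2} {ℓ : ℝ} (hy : y ∈ cbox a ℓ) (hz : z ∈ cbox a ℓ) : ‖y - z‖ ≤ 2 * ℓ := by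
  have h1 : |(y - z) 0| ≤ ℓ := by
    simp only [PiLp.sub_apply]
    rw [abs_le]; constructor <;> linarith [hy.1.1, hy.1.2, hz.1.1, hz.1.2]
  have h2 : |(y - z) 1| ≤ ℓ := by
    simp only [PiLp.sub_apply]
    rw [abs_le]; constructor <;> linarith [hy.2.1, hy.2.2, hz.2.1, hz.2.2]
  have h5 : ‖y - z‖ ≤ |(y - z) 0| + |(y - z) 1| := by
    rw [EuclideanSpace.norm_eq, Fin.sum_univ_two]
    apply Real.sqrt_le_iff.mpr
    constructor
    · positivity
    · simp only [Real.norm_eq_abs]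
      nlinarith [abs_nonneg ((y - z) 0), abs_nonneg ((y - z) 1)]
  linarith

/-- Only finitely many grid squares meet a bounded set. -/
theorem finite_gsq {D : Set E2} (hD : Bornology.IsBounded D) {δ : ℝ} (hδ : 0 < δ) :
    {k : ℤ × ℤ | (D ∩ gsq δ k).Nonempty}.Finite := by
  obtain ⟨R, hR⟩ := hD.exists_norm_le
  obtain ⟨K, hK⟩ := exists_nat_gt (|R| / δ + 1)
  apply Set.Finite.subset (Finset.finite_toSet (Finset.Icc (-(K:ℤ)) K ×ˢ Finset.Icc (-(K:ℤ)) K))
  rintro ⟨m, n⟩ ⟨y, hyD, hy⟩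
  have hy0 := (abs_coord_le y 0).trans ((hR y hyD).trans (le_abs_self R))
  have hy1 := (abs_coord_le y 1).trans ((hR y hyD).trans (le_abs_self R))
  have aux : ∀ {i : ℤ} {t : ℝ}, t ∈ Set.Ico (δ * i) (δ * i + δ) → |t| ≤ |R| → -(K : ℤ) ≤ i ∧ i ≤ K := by
    intro i t hi ht
    rw [abs_le] at ht
    have hK' : |R| + δ < K * δ := by
      have := mul_lt_mul_of_pos_right hK hδ
      rw [add_mul, div_mul_cancel₀ _ hδ.ne', one_mul] at this
      exact this
    constructor
    · have h1 : -((K : ℝ) * δ) < δ * i := by linarith [hi.2, ht.1]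
      have h2 : δ * (-(K : ℝ)) < δ * i := by linarith
      have h3 := lt_of_mul_lt_mul_left h2 hδ.le
      have h4 : -(K : ℤ) < i := by exact_mod_cast h3
      omega
    · have h2 : δ * (i : ℝ) < δ * K := by linarith [hi.1, ht.2]
      have h3 := lt_of_mul_lt_mul_left h2 hδ.le
      have h4 : i < (K : ℤ) := by exact_mod_cast h3
      omega
  simp only [Finset.coe_product, Finset.coe_Icc, Set.mem_prod, Set.mem_Icc]
  exact ⟨aux hy.1 hy0, aux hy.2 hy1⟩

end Crest.Agent.H1.Ruled
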