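import Mathlib
import Crest.Agent.H1.Ruled5

set_option autoImplicit false

open MeasureTheory Module
open scoped ENNReal

namespace Crest.Agent.H1.Ruled

theorem J_continuous (h : ℝ) : Continuous (J h) := by
  unfold J
  apply Continuous.div continuous_const
  · fun_prop
  · intro g
    have := J_arg_ge h g
    linarith

theorem measurableSet_gsq (δ : ℝ) (k : ℤ × ℤ) : MeasurableSet (gsq δ k) := measurableSet_hbox _ _ _

theorem main (D : Set E2) (hD : IsCompact D)
    (V : E2 → E2) (U : Set E2)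
    (hU : IsOpen U) (hDU : D ⊆ U) (hV : ContDiffOn ℝ 1 V U) (L h : ℝ) (hL : 0 < L) (hh : 0 < h)
    (htr : ∀ p ∈ D, LinearMap.trace ℝ _ (fderiv ℝ V p).toLinearMap = 0)
    (hdet : ∀ p ∈ D, -(L ^ 2)⁻¹ < LinearMap.det (fderiv ℝ V p).toLinearMap ∧
      LinearMap.det (fderiv ℝ V p).toLinearMap ≤ 0)
    (ε : ℝ) (hε : 0 < ε) :
    Cov h {z : ℝ × E2 | ∃ p ∈ D, |z.1| ≤ L ∧ z.2 = p + z.1 • V p} ((∫ p in D, J h (V p)) + ε) := by
  classical
  have hL2 : 0 < L ^ 2 := by positivity
  have hfd : ContinuousOn (fun x => fderiv ℝ V x) D :=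
    (hV.continuousOn_fderiv_of_isOpen hU le_rfl).mono hDU
  have hVc : ContinuousOn V D := hV.continuousOn.mono hDU
  -- the bound on the derivative
  obtain ⟨M₀, hM₀⟩ := hD.exists_bound_of_continuousOn hfd
  set M : ℝ := |M₀| with hMdef
  have hM0 : 0 ≤ M := abs_nonneg _
  have hM : ∀ p ∈ D, ‖fderiv ℝ V p‖ ≤ M := fun p hp => (hM₀ p hp).trans (le_abs_self _)
  -- the bound on the determinant
  have hdc : ContinuousOn (fun p => 1 + L ^ 2 * LinearMap.det (fderiv ℝ V p).toLinearMap) D := by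
    have : ContinuousOn (fun p => ContinuousLinearMap.det (fderiv ℝ V p)) D :=
      ContinuousLinearMap.continuous_det.comp_continuousOn hfd
    exact continuousOn_const.add (continuousOn_const.mul this)
  obtain ⟨c₀, hc₀, hc⟩ : ∃ c₀ : ℝ, 0 < c₀ ∧ ∀ p ∈ D,
      c₀ ≤ 1 + L ^ 2 * LinearMap.det (fderiv ℝ V p).toLinearMap := by
    apply hD.exists_forall_le' hdc
    intro p hp
    have := (hdet p hp).1
    have h1 : L ^ 2 * (-(L ^ 2)⁻¹) < L ^ 2 * LinearMap.det (fderiv ℝ V p).toLinearMap :=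
      mul_lt_mul_of_pos_left this hL2
    have h2 : L ^ 2 * (-(L ^ 2)⁻¹) = -1 := by field_simp
    linarith
  -- constants
  set C : ℝ := (1 + L * M) / c₀ with hC
  have hC0 : 0 < C := by positivity
  set I : ℝ := ∫ p in D, J h (V p) with hI
  have hJint : IntegrableOn (fun p => J h (V p)) D :=
    ((J_continuous h).comp_continuousOn hVc).integrableOn_compact hD
  have hI0 : 0 ≤ I := integral_nonneg fun p => J_nonneg h _
  set vD : ℝ := (volume D).toReal with hvD
  have hDfin : volume D ≠ ⊤ := hD.measure_lt_top.ne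
  have hvD0 : 0 ≤ vD := ENNReal.toReal_nonneg
  set τ : ℝ := min 1 (ε / (8 * (I + 1))) with hτ
  have hτ0 : 0 < τ := lt_min one_pos (by positivity)
  have hτ1 : τ ≤ 1 := min_le_left _ _
  have hτI : 3 * τ * I ≤ 3 * ε / 8 := by
    have h1 : τ ≤ ε / (8 * (I + 1)) := min_le_right _ _
    rw [le_div_iff₀ (by positivity)] at h1
    nlinarith
  set C₁ : ℝ := (1 + h) * (5 * M + 2) with hC₁
  have hC₁0 : 0 < C₁ := by positivity
  set κ : ℝ := min 1 (τ / (16 * (C * L))) with hκ
  have hκ0 : 0 < κ := lt_min one_pos (by positivity)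
  have hκ1 : κ ≤ 1 := min_le_left _ _
  have hκC : C * L * κ ≤ τ / 16 := by
    have h1 : κ ≤ τ / (16 * (C * L)) := min_le_right _ _
    rw [le_div_iff₀ (by positivity)] at h1
    linarith
  obtain ⟨δ₀, hδ₀, hdiff⟩ := uniform_diff hD hU hDU hV hκ0
  -- thickening
  have htend := tendsto_measure_cthickening_of_isCompact (μ := (volume : Measure E2)) hD
  have hev : ∀ᶠ r in nhds (0 : ℝ), volume (Metric.cthickening r D) < volume D + ENNReal.ofReal (ε / 32) := by
    apply htend.eventually_lt_const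
    exact ENNReal.lt_add_right hDfin (by simpa using hε)
  obtain ⟨r₀, hr₀, hthick⟩ := Metric.eventually_nhds_iff.mp hev
  -- choice of δ
  set δ : ℝ := min (min (δ₀ / 2) (r₀ / 4)) (min (1 / C₁) (ε / (32 * (C₁ * (vD + 1))))) with hδ
  have hδ0 : 0 < δ := by
    apply lt_min (lt_min (by positivity) (by positivity)) (lt_min (by positivity) (by positivity))
  have hδ1 : 2 * δ ≤ δ₀ := by
    have : δ ≤ δ₀ / 2 := (min_le_left _ _).trans (min_le_left _ _)
    linarith
  have hδ2 : 2 * δ < r₀ := by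
    have : δ ≤ r₀ / 4 := (min_le_left _ _).trans (min_le_right _ _)
    linarith
  have hδ3 : C₁ * δ ≤ 1 := by
    have : δ ≤ 1 / C₁ := (min_le_right _ _).trans (min_le_left _ _)
    rw [le_div_iff₀ hC₁0] at this
    linarith
  have hδ4 : C₁ * δ * vD ≤ ε / 32 := by
    have : δ ≤ ε / (32 * (C₁ * (vD + 1))) := (min_le_right _ _).trans (min_le_right _ _)
    rw [le_div_iff₀ (by positivity)] at this
    have h2 : 0 ≤ C₁ * δ := by positivity
    nlinarith
  set η : ℝ := τ * δ / (16 * (C + 1)) with hη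
  have hη0 : 0 < η := by positivity
  have hη1 : C * η ≤ τ * δ / 16 := by
    rw [hη, mul_div_assoc', div_le_div_iff₀ (by positivity) (by positivity)]
    have : 0 < τ * δ := by positivity
    nlinarith
  have hη2 : η ≤ τ * δ / 16 := by
    rw [hη]
    apply div_le_div_of_nonneg_left (by positivity) (by norm_num)
    linarith
  set r : ℝ := τ * δ / 4 with hr
  have hr0 : 0 < r := by positivity
  -- the index set
  set K : Finset (ℤ × ℤ) := (finite_gsq hD.isBounded hδ0).toFinset with hK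
  have hKmem : ∀ k, k ∈ K ↔ (D ∩ gsq δ k).Nonempty := by
    intro k; rw [hK, Set.Finite.mem_toFinset]; rfl
  have hcost : ∀ k ∈ K, Cov h {z : ℝ × E2 | ∃ p ∈ D ∩ cbox !₂[δ * k.1, δ * k.2] δ, |z.1| ≤ L ∧ z.2 = p + z.1 • V p}
      ((1 + τ) ^ 2 * ((∫ x in gsq δ k ∩ D, (J h (V x) + C₁ * δ)) + 2 * (volume (gsq δ k \ D)).toReal)) := by
    intro k hk
    obtain ⟨p₀, hp₀D, hp₀k⟩ := (hKmem k).mp hk
    obtain ⟨b, β, γ, hAD, hdetA⟩ := exists_antiDiag (fderiv ℝ V p₀) (htr p₀ hp₀D)
    have hβγ : 0 ≤ β * γ := by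
      have := (hdet p₀ hp₀D).2
      linarith
    have hcA : c₀ ≤ 1 - L ^ 2 * (β * γ) := by
      have := hc p₀ hp₀D
      rw [hdetA] at this
      linarith
    have hp₀c := gsq_subset_cbox δ k hp₀k
    have hpatch := cov_patch hAD hh.le hL.le (hM p₀ hp₀D) hβγ hc₀ hcA V D !₂[δ * k.1, δ * k.2] p₀
      (δ := δ) (η := η) (r := r) (e := κ * (2 * δ)) hη0 hδ0.le ?_ hr0.le hp₀c ?_
    · refine hpatch.mono (fun z hz => hz) ?_
      -- numerical estimate
      have hJ0 := J_nonneg h (V p₀)
      have hJ1 := J_le_one h (V p₀)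
      have h1 : (δ + 2 * r + 4 * η) ^ 2 ≤ (1 + τ) ^ 2 * δ ^ 2 := by
        have h2 : δ + 2 * r + 4 * η ≤ (1 + τ) * δ := by
          rw [hr]; nlinarith
        calc (δ + 2 * r + 4 * η) ^ 2 ≤ ((1 + τ) * δ) ^ 2 := by
              apply pow_le_pow_left₀ (by positivity) h2
          _ = _ := by ring
      set X : ℝ := J h (V p₀) + (1 + h) * (M * (2 * (δ + 2 * r))) with hX
      have hX0 : 0 ≤ X := by positivity
      have hXle : X ≤ J h (V p₀) + (1 + h) * (3 * M * δ) := by
        rw [hX]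
        have : M * (2 * (δ + 2 * r)) ≤ 3 * M * δ := by
          have h3 : 2 * (δ + 2 * r) ≤ 3 * δ := by rw [hr]; nlinarith
          nlinarith
        nlinarith
      have hXone : X ≤ 1 + C₁ * δ := by
        refine hXle.trans ?_
        rw [hC₁]
        have : 0 ≤ (1 + h) * δ := by positivity
        nlinarith [mul_nonneg this hM0]
      have hvol : δ ^ 2 = (volume (gsq δ k ∩ D)).toReal + (volume (gsq δ k \ D)).toReal := by
        have h5 := measure_inter_add_diff (μ := (volume : Measure E2)) (gsq δ k) hD.measurableSet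
        have h6 : volume (gsq δ k) = ENNReal.ofReal (δ ^ 2) := volume_hbox _ _ hδ0.le
        rw [h6] at h5
        have h7 : volume (gsq δ k ∩ D) ≠ ⊤ := measure_ne_top_of_subset Set.inter_subset_right hDfin
        have h8 : volume (gsq δ k \ D) ≠ ⊤ := by
          apply ne_top_of_le_ne_top _ (measure_mono Set.diff_subset)
          rw [h6]; exact ENNReal.ofReal_ne_top
        rw [← ENNReal.toReal_add h7 h8, h5, ENNReal.toReal_ofReal (by positivity)]
      have hint : (volume (gsq δ k ∩ D)).toReal * X ≤ ∫ x in gsq δ k ∩ D, (J h (V x) + C₁ * δ) := by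
        have h9 : (volume (gsq δ k ∩ D)).toReal * X = ∫ _x in gsq δ k ∩ D, X := by
          rw [setIntegral_const, smul_eq_mul]; rfl
        rw [h9]
        have h7 : volume (gsq δ k ∩ D) ≠ ⊤ := measure_ne_top_of_subset Set.inter_subset_right hDfin
        apply setIntegral_mono_on
        · exact integrableOn_const h7
        · exact (hJint.mono_set Set.inter_subset_right).add (integrableOn_const h7)
        · exact (measurableSet_gsq δ k).inter hD.measurableSet
        · intro x hx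
          have hxc := gsq_subset_cbox δ k hx.1
          have hd : ‖x - p₀‖ ≤ 2 * δ := cbox_dist hxc hp₀c
          have h10 := hdiff p₀ hp₀D x hx.2 (hd.trans hδ1)
          have h11 : ‖V p₀ - V x‖ ≤ (M + 1) * (2 * δ) := by
            have h12 : V p₀ - V x = -((V x - V p₀ - fderiv ℝ V p₀ (x - p₀)) + fderiv ℝ V p₀ (x - p₀)) := by abel
            rw [h12, norm_neg]
            refine (norm_add_le _ _).trans ?_
            have h13 := (fderiv ℝ V p₀).le_opNorm (x - p₀)
            have h14 : ‖fderiv ℝ V p₀‖ * ‖x - p₀‖ ≤ M * (2 * δ) :=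
              mul_le_mul (hM p₀ hp₀D) hd (norm_nonneg _) hM0
            have h15 : κ * ‖x - p₀‖ ≤ 1 * (2 * δ) := mul_le_mul hκ1 hd (norm_nonneg _) one_pos.le
            linarith
          have h16 := J_lip hh.le (V p₀) (V x)
          have h17 : (1 + h) * ‖V p₀ - V x‖ ≤ (1 + h) * ((M + 1) * (2 * δ)) := by gcongr
          have h18 : (1 + h) * ((M + 1) * (2 * δ)) + (1 + h) * (3 * M * δ) = C₁ * δ := by
            rw [hC₁]; ring
          linarith
      have hD0 : 0 ≤ (volume (gsq δ k \ D)).toReal := ENNReal.toReal_nonneg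
      calc (δ + 2 * r + 4 * η) ^ 2 * X ≤ ((1 + τ) ^ 2 * δ ^ 2) * X :=
            mul_le_mul_of_nonneg_right h1 hX0
        _ = (1 + τ) ^ 2 * ((volume (gsq δ k ∩ D)).toReal * X + (volume (gsq δ k \ D)).toReal * X) := by
            rw [hvol]; ring
        _ ≤ (1 + τ) ^ 2 * ((∫ x in gsq δ k ∩ D, (J h (V x) + C₁ * δ)) + 2 * (volume (gsq δ k \ D)).toReal) := by
            have hX2 : X ≤ 2 := by linarith
            have e1 : (volume (gsq δ k \ D)).toReal * X ≤ 2 * (volume (gsq δ k \ D)).toReal := by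
              rw [mul_comm 2]
              exact mul_le_mul_of_nonneg_left hX2 hD0
            apply mul_le_mul_of_nonneg_left _ (by positivity)
            exact add_le_add hint e1
    · -- radius
      rw [← hC, hr]
      calc C * (2 * η + L * (κ * (2 * δ))) = 2 * (C * η) + (C * L * κ) * (2 * δ) := by ring
        _ ≤ 2 * (τ * δ / 16) + (τ / 16) * (2 * δ) := by gcongr
        _ = τ * δ / 4 := by ring
    · intro p hp
      have hd : ‖p - p₀‖ ≤ 2 * δ := cbox_dist hp.2 hp₀c
      refine (hdiff p₀ hp₀D p hp.1 (hd.trans hδ1)).trans ?_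
      gcongr
  have hcov := Cov.biUnion K _ _ hcost
  refine hcov.mono ?_ ?_
  · rintro z ⟨p, hp, hz⟩
    simp only [Set.mem_iUnion]
    refine ⟨(⌊p 0 / δ⌋, ⌊p 1 / δ⌋), ?_, p, ⟨hp, gsq_subset_cbox _ _ (mem_gsq_floor hδ0 p)⟩, hz⟩
    rw [hKmem]
    exact ⟨p, hp, mem_gsq_floor hδ0 p⟩
  · rw [← Finset.mul_sum, Finset.sum_add_distrib, ← Finset.mul_sum]
    -- sum of the integrals
    have hunion : (⋃ k ∈ K, gsq δ k ∩ D) = D := by
      ext y
      simp only [Set.mem_iUnion, Set.mem_inter_iff]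
      constructor
      · rintro ⟨k, _, _, hy⟩; exact hy
      · intro hy
        refine ⟨(⌊y 0 / δ⌋, ⌊y 1 / δ⌋), ?_, mem_gsq_floor hδ0 y, hy⟩
        rw [hKmem]
        exact ⟨y, hy, mem_gsq_floor hδ0 y⟩
    have hint2 : IntegrableOn (fun x => J h (V x) + C₁ * δ) D := hJint.add (integrableOn_const hDfin)
    have hsum1 : ∑ k ∈ K, ∫ x in gsq δ k ∩ D, (J h (V x) + C₁ * δ) = I + C₁ * δ * vD := by
      rw [← integral_biUnion_finset K (fun k _ => (measurableSet_gsq δ k).inter hD.measurableSet)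
        (fun k _ k' _ hkk' => (gsq_disjoint hδ0 hkk').mono Set.inter_subset_left Set.inter_subset_left)
        (fun k _ => hint2.mono_set Set.inter_subset_right), hunion,
        integral_add hJint (integrableOn_const hDfin), setIntegral_const, smul_eq_mul]
      rw [mul_comm (C₁ * δ)]
      rfl
    have hsum2 : ∑ k ∈ K, (volume (gsq δ k \ D)).toReal ≤ ε / 32 := by
      have hfin : ∀ k, volume (gsq δ k \ D) ≠ ⊤ := by
        intro k
        apply ne_top_of_le_ne_top _ (measure_mono Set.diff_subset)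
        rw [show volume (gsq δ k) = ENNReal.ofReal (δ ^ 2) from volume_hbox _ _ hδ0.le]
        exact ENNReal.ofReal_ne_top
      rw [← ENNReal.toReal_sum (fun k _ => hfin k)]
      apply ENNReal.toReal_le_of_le_ofReal (by positivity)
      rw [← measure_biUnion_finset
        (fun k _ k' _ hkk' => (gsq_disjoint hδ0 hkk').mono Set.diff_subset Set.diff_subset)
        (fun k _ => (measurableSet_gsq δ k).diff hD.measurableSet)]
      have hsub : (⋃ k ∈ K, gsq δ k \ D) ⊆ Metric.cthickening (2 * δ) D \ D := by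
        intro y hy
        simp only [Set.mem_iUnion] at hy
        obtain ⟨k, hk, hyk, hyD⟩ := hy
        refine ⟨?_, hyD⟩
        obtain ⟨p₀, hp₀D, hp₀k⟩ := (hKmem k).mp hk
        apply Metric.mem_cthickening_of_dist_le y p₀ _ _ hp₀D
        rw [dist_eq_norm]
        exact cbox_dist (gsq_subset_cbox δ k hyk) (gsq_subset_cbox δ k hp₀k)
      refine (measure_mono hsub).trans ?_
      rw [measure_diff (Metric.self_subset_cthickening D) hD.measurableSet.nullMeasurableSet hDfin]
      apply tsub_le_iff_left.mpr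
      refine (hthick ?_).le
      rw [Real.dist_eq, sub_zero, abs_of_pos (by positivity)]
      exact hδ2
    rw [hsum1]
    have h20 : (1 + τ) ^ 2 ≤ 1 + 3 * τ := by nlinarith
    have h21 : (1 + τ) ^ 2 ≤ 4 := by nlinarith
    have h22 : (1 + τ) ^ 2 * I ≤ (1 + 3 * τ) * I := mul_le_mul_of_nonneg_right h20 hI0
    have h23 : C₁ * δ * vD + 2 * ∑ k ∈ K, (volume (gsq δ k \ D)).toReal ≤ 3 * ε / 32 := by linarith
    have h24 : 0 ≤ C₁ * δ * vD + 2 * ∑ k ∈ K, (volume (gsq δ k \ D)).toReal := by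
      have : 0 ≤ ∑ k ∈ K, (volume (gsq δ k \ D)).toReal := Finset.sum_nonneg fun k _ => ENNReal.toReal_nonneg
      positivity
    have h25 : (1 + τ) ^ 2 * (C₁ * δ * vD + 2 * ∑ k ∈ K, (volume (gsq δ k \ D)).toReal) ≤ 4 * (3 * ε / 32) :=
      mul_le_mul h21 h23 h24 (by norm_num)
    nlinarith

end Crest.Agent.H1.Ruled
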