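import Mathlib
import Crest.Agent.H1.Ruled6

set_option autoImplicit false

open MeasureTheory Module
open scoped ENNReal

namespace Crest.Agent.H1.Ruled

abbrev E3 := EuclideanSpace ℝ (Fin 3)

/-- the embedding `(ξ₀, ξ₁) ↦ (0, ξ₀, h ξ₁)`. -/
noncomputable def Phi (h : ℝ) (ξ : E2) : E3 := !₂[0, ξ 0, h * ξ 1]

/-- the axis vector. -/
noncomputable def wvec (h : ℝ) (g : E2) : E3 := !₂[1, g 0, h * g 1]

/-- the coordinate along the axis. -/
noncomputable def psi (h : ℝ) (g : E2) (x : E3) : E2 := !₂[x 1 - x 0 * g 0, x 2 / h - x 0 * g 1]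

theorem psi_continuous (h : ℝ) (g : E2) : Continuous (psi h g) := by
  unfold psi; fun_prop

theorem norm_wvec_sq (h : ℝ) (g : E2) : ‖wvec h g‖ ^ 2 = 1 + g 0 ^ 2 + h ^ 2 * g 1 ^ 2 := by
  rw [EuclideanSpace.norm_sq_eq]; simp [wvec, Fin.sum_univ_three]; ring

theorem norm_wvec_pos (h : ℝ) (g : E2) : 0 < ‖wvec h g‖ := by
  have := norm_wvec_sq h g
  have h2 : 0 < ‖wvec h g‖ ^ 2 := by rw [this]; positivity
  by_contra hcon
  have : ‖wvec h g‖ = 0 := le_antisymm (not_lt.mp hcon) (norm_nonneg _)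
  rw [this] at h2; norm_num at h2

theorem J_eq (h : ℝ) (g : E2) : J h g = 1 / ‖wvec h g‖ := by
  rw [J, sqrt_eq_norm]; rfl

/-- unit axis -/
noncomputable def uvec (h : ℝ) (g : E2) : E3 := ‖wvec h g‖⁻¹ • wvec h g

theorem norm_uvec (h : ℝ) (g : E2) : ‖uvec h g‖ = 1 := by
  rw [uvec, norm_smul, norm_inv, norm_norm, inv_mul_cancel₀ (norm_wvec_pos h g).ne']

/-- projection along `w` onto `w^⊥`. -/
noncomputable def prj (h : ℝ) (g : E2) (x : E3) : E3 := x - (inner ℝ x (uvec h g) : ℝ) • uvec h g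

theorem prj_perp (h : ℝ) (g : E2) (x : E3) : inner ℝ (prj h g x) (uvec h g) = 0 := by
  rw [prj, inner_sub_left, real_inner_smul_left, real_inner_self_eq_norm_sq, norm_uvec]; ring

theorem prj_add (h : ℝ) (g : E2) (x y : E3) : prj h g (x + y) = prj h g x + prj h g y := by
  simp only [prj, inner_add_left]; module

theorem prj_smul (h : ℝ) (g : E2) (c : ℝ) (x : E3) : prj h g (c • x) = c • prj h g x := by
  simp only [prj, real_inner_smul_left]; module

theorem prj_of_perp {h : ℝ} {g : E2} {x : E3} (hx : inner ℝ x (uvec h g) = 0) : prj h g x = x := by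
  rw [prj, hx]; simp

theorem prj_wvec (h : ℝ) (g : E2) : prj h g (wvec h g) = 0 := by
  have h1 : wvec h g = ‖wvec h g‖ • uvec h g := by
    rw [uvec, smul_smul, mul_inv_cancel₀ (norm_wvec_pos h g).ne', one_smul]
  conv_lhs => rw [h1]
  rw [prj_smul, prj, real_inner_self_eq_norm_sq, norm_uvec]
  simp

theorem Phi_add (h : ℝ) (x y : E2) : Phi h (x + y) = Phi h x + Phi h y := by
  ext i; fin_cases i <;> simp [Phi]; ring

theorem Phi_smul (h c : ℝ) (x : E2) : Phi h (c • x) = c • Phi h x := by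
  ext i; fin_cases i <;> simp [Phi]; ring

theorem decompose {h : ℝ} (hh : h ≠ 0) (g : E2) (x : E3) :
    x = Phi h (psi h g x) + x 0 • wvec h g := by
  ext i; fin_cases i <;> simp [Phi, psi, wvec]
  field_simp
  ring

theorem psi_Phi_add {h : ℝ} (hh : h ≠ 0) (g : E2) (ξ : E2) (t : ℝ) :
    psi h g (Phi h ξ + t • wvec h g) = ξ := by
  ext i; fin_cases i <;> simp [Phi, psi, wvec]
  field_simp
  ring

theorem psi_prj {h : ℝ} (hh : h ≠ 0) (g : E2) (x : E3) : psi h g (prj h g x) = psi h g x := by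
  have h1 := decompose hh g x
  have h2 : prj h g x = Phi h (psi h g x) + (x 0 - inner ℝ x (uvec h g) * ‖wvec h g‖⁻¹) • wvec h g := by
    calc prj h g x = x - (inner ℝ x (uvec h g) : ℝ) • (‖wvec h g‖⁻¹ • wvec h g) := rfl
      _ = (Phi h (psi h g x) + x 0 • wvec h g) - (inner ℝ x (uvec h g) : ℝ) • (‖wvec h g‖⁻¹ • wvec h g) := by
          rw [← h1]
      _ = _ := by module
  rw [h2, psi_Phi_add hh]

/-- Gram area of the projected parallelogram. -/
theorem gramArea_prj (h : ℝ) (hh : 0 < h) (g a b : E2) (hab : ‖b‖ = ‖a‖) (hperp : inner ℝ a b = 0) :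
    gramArea (prj h g (Phi h a)) (prj h g (Phi h b)) = h * (‖a‖ ^ 2 * J h g) := by
  have hw := norm_wvec_pos h g
  have hw2 := norm_wvec_sq h g
  -- general inner product of projections
  have hinner : ∀ x y : E3, (inner ℝ (prj h g x) (prj h g y) : ℝ) =
      inner ℝ x y - inner ℝ x (wvec h g) * inner ℝ y (wvec h g) / ‖wvec h g‖ ^ 2 := by
    intro x y
    have e1 : ∀ z : E3, (inner ℝ z (uvec h g) : ℝ) = inner ℝ z (wvec h g) / ‖wvec h g‖ := by
      intro z; rw [uvec, real_inner_smul_right]; field_simp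
    have e2 : (inner ℝ (prj h g x) (prj h g y) : ℝ) = inner ℝ (prj h g x) y := by
      conv_lhs => rw [prj]
      conv_rhs => rw [prj]
      rw [inner_sub_left, inner_sub_left]
      have e3 : (inner ℝ (uvec h g) (prj h g y) : ℝ) = 0 := by
        rw [real_inner_comm]; exact prj_perp h g y
      have e4 : (inner ℝ x (prj h g y) : ℝ) = inner ℝ x y - inner ℝ x (uvec h g) * inner ℝ y (uvec h g) := by
        rw [prj, inner_sub_right, real_inner_smul_right]; ring
      rw [real_inner_smul_left, real_inner_smul_left, e3, e4, real_inner_comm y (uvec h g)]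
      ring
    rw [e2, prj, inner_sub_left, real_inner_smul_left, e1, real_inner_comm y (uvec h g), e1]
    field_simp
  have hn : ∀ x : E3, ‖prj h g x‖ ^ 2 = ‖x‖ ^ 2 - (inner ℝ x (wvec h g)) ^ 2 / ‖wvec h g‖ ^ 2 := by
    intro x
    rw [← real_inner_self_eq_norm_sq, hinner, real_inner_self_eq_norm_sq]; ring
  rw [gramArea, hn, hn, hinner]
  have hcoord : (‖Phi h a‖ ^ 2 - (inner ℝ (Phi h a) (wvec h g)) ^ 2 / ‖wvec h g‖ ^ 2) *
      (‖Phi h b‖ ^ 2 - (inner ℝ (Phi h b) (wvec h g)) ^ 2 / ‖wvec h g‖ ^ 2) -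
      (inner ℝ (Phi h a) (Phi h b) - inner ℝ (Phi h a) (wvec h g) * inner ℝ (Phi h b) (wvec h g) / ‖wvec h g‖ ^ 2) ^ 2
      = (h * (a 0 * b 1 - a 1 * b 0) / ‖wvec h g‖) ^ 2 := by
    have hNpos : (0:ℝ) < 1 + g 0 ^ 2 + h ^ 2 * g 1 ^ 2 := by positivity
    have i1 : ∀ x y : E2, (inner ℝ (Phi h x) (Phi h y) : ℝ) = x 0 * y 0 + h ^ 2 * (x 1 * y 1) := by
      intro x y
      simp only [PiLp.inner_apply, Fin.sum_univ_three, Phi]
      simp
      ring
    have i2 : ∀ x : E2, (inner ℝ (Phi h x) (wvec h g) : ℝ) = x 0 * g 0 + h ^ 2 * (x 1 * g 1) := by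
      intro x
      simp only [PiLp.inner_apply, Fin.sum_univ_three, Phi, wvec]
      simp
      ring
    have i3 : ∀ x : E2, ‖Phi h x‖ ^ 2 = x 0 * x 0 + h ^ 2 * (x 1 * x 1) := by
      intro x; rw [← real_inner_self_eq_norm_sq, i1]
    rw [div_pow, hw2, i1, i2, i2, i3, i3]
    field_simp
    ring
  rw [hcoord, Real.sqrt_sq_eq_abs, J_eq, abs_div, abs_mul, abs_of_pos hh, abs_of_pos hw]
  have h5 : |a 0 * b 1 - a 1 * b 0| = ‖a‖ ^ 2 := by
    rw [← gramArea_fin_two, gramArea, hperp, hab]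
    rw [show ‖a‖ ^ 2 * ‖a‖ ^ 2 - 0 ^ 2 = (‖a‖ ^ 2) ^ 2 by ring, Real.sqrt_sq (by positivity)]
  rw [h5]
  ring

theorem volume_openSq {τ : ℝ} (hτ : 0 < τ) :
    volume {x : E2 | x 0 ∈ Set.Ioo (-τ) (1 + τ) ∧ x 1 ∈ Set.Ioo (-τ) (1 + τ)} = ENNReal.ofReal ((1 + 2 * τ) ^ 2) := by
  have h := volume_preserving_fstsnd.measure_preimage
    (s := Set.Ioo (-τ) (1 + τ) ×ˢ Set.Ioo (-τ) (1 + τ))
    (measurableSet_Ioo.prod measurableSet_Ioo).nullMeasurableSet
  rw [Measure.volume_eq_prod, Measure.prod_prod] at h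
  simp only [Real.volume_Ioo] at h
  rw [← ENNReal.ofReal_mul (by linarith)] at h
  rw [show (1 + 2 * τ) ^ 2 = (1 + τ - -τ) * (1 + τ - -τ) by ring, ← h]
  rfl

/-- The base of the cylinder over the slightly enlarged open square. -/
theorem exists_base {h : ℝ} (hh : 0 < h) (c a b g : E2) (ha : a ≠ 0) (hab : ‖b‖ = ‖a‖)
    (hperp : inner ℝ a b = 0) {τ : ℝ} (hτ : 0 < τ) :
    ∃ B : Set E3, Bornology.IsBounded B ∧
      (∃ O : Set E3, IsOpen O ∧ B = O ∩ {x | inner ℝ x (uvec h g) = 0}) ∧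
      (∀ x ∈ Set.Icc (0:ℝ) 1, ∀ y ∈ Set.Icc (0:ℝ) 1, ∀ t : ℝ,
        ∃ q ∈ B, ∃ s : ℝ, Phi h (c + x • a + y • b) + t • wvec h g = q + s • uvec h g) ∧
      μHE[2] B = ENNReal.ofReal ((1 + 2 * τ) ^ 2 * (h * (‖a‖ ^ 2 * J h g))) := by
  have hna : 0 < ‖a‖ := norm_pos_iff.mpr ha
  set S : Set E2 := {x : E2 | x 0 ∈ Set.Ioo (-τ) (1 + τ) ∧ x 1 ∈ Set.Ioo (-τ) (1 + τ)} with hS
  let F : E2 → E3 := fun x => prj h g (Phi h c) + x 0 • prj h g (Phi h a) + x 1 • prj h g (Phi h b)
  have hF : ∀ x : E2, F x = prj h g (Phi h (c + x 0 • a + x 1 • b)) := by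
    intro x
    simp only [F, Phi_add, Phi_smul, prj_add, prj_smul]
  -- the open set
  set O : Set E3 := {x : E3 | (inner ℝ (psi h g x - c) a : ℝ) / ‖a‖ ^ 2 ∈ Set.Ioo (-τ) (1 + τ) ∧
    (inner ℝ (psi h g x - c) b : ℝ) / ‖a‖ ^ 2 ∈ Set.Ioo (-τ) (1 + τ)} with hO
  have hOopen : IsOpen O := by
    have c1 : Continuous fun x : E3 => (inner ℝ (psi h g x - c) a : ℝ) / ‖a‖ ^ 2 :=
      (((psi_continuous h g).sub continuous_const).inner continuous_const).div_const _
    have c2 : Continuous fun x : E3 => (inner ℝ (psi h g x - c) b : ℝ) / ‖a‖ ^ 2 :=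
      (((psi_continuous h g).sub continuous_const).inner continuous_const).div_const _
    exact (isOpen_Ioo.preimage c1).inter (isOpen_Ioo.preimage c2)
  -- expansions in the plane
  have hexp : ∀ ξ : E2, ξ = (inner ℝ ξ a / ‖a‖ ^ 2 : ℝ) • a + (inner ℝ ξ b / ‖a‖ ^ 2 : ℝ) • b := by
    intro ξ
    obtain ⟨ob, hb0, hb1⟩ := exists_onb (u := ‖a‖⁻¹ • a) (v := ‖a‖⁻¹ • b)
      (by rw [norm_smul, norm_inv, norm_norm, inv_mul_cancel₀ hna.ne'])
      (by rw [norm_smul, norm_inv, norm_norm, hab, inv_mul_cancel₀ hna.ne'])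
      (by rw [real_inner_smul_left, real_inner_smul_right, hperp]; simp)
    conv_lhs => rw [onb_expand ob ξ, hb0, hb1]
    rw [real_inner_smul_left, real_inner_smul_left, real_inner_comm a ξ, real_inner_comm b ξ,
      smul_smul, smul_smul]
    congr 2 <;> field_simp
  have hcoordA : ∀ x y : ℝ, (inner ℝ (c + x • a + y • b - c) a : ℝ) / ‖a‖ ^ 2 = x := by
    intro x y
    have : c + x • a + y • b - c = x • a + y • b := by abel
    rw [this, inner_add_left, real_inner_smul_left, real_inner_smul_left, real_inner_self_eq_norm_sq,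
      real_inner_comm, hperp]
    field_simp
    ring
  have hcoordB : ∀ x y : ℝ, (inner ℝ (c + x • a + y • b - c) b : ℝ) / ‖a‖ ^ 2 = y := by
    intro x y
    have : c + x • a + y • b - c = x • a + y • b := by abel
    rw [this, inner_add_left, real_inner_smul_left, real_inner_smul_left, real_inner_self_eq_norm_sq,
      hperp, hab]
    field_simp
    ring
  have hBeq : F '' S = O ∩ {x | inner ℝ x (uvec h g) = 0} := by
    ext q
    constructor
    · rintro ⟨x, hx, rfl⟩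
      rw [hF]
      refine ⟨?_, prj_perp h g _⟩
      rw [hO]
      simp only [Set.mem_ofPred_eq]
      rw [psi_prj hh.ne']
      have e1 : psi h g (Phi h (c + x 0 • a + x 1 • b)) = c + x 0 • a + x 1 • b := by
        have := psi_Phi_add hh.ne' g (c + x 0 • a + x 1 • b) 0
        simpa using this
      rw [e1, hcoordA, hcoordB]
      exact hx
    · rintro ⟨hq, hqu⟩
      refine ⟨!₂[(inner ℝ (psi h g q - c) a : ℝ) / ‖a‖ ^ 2, (inner ℝ (psi h g q - c) b : ℝ) / ‖a‖ ^ 2],
        by simpa [hS, hO] using hq, ?_⟩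
      rw [hF]
      simp only [Matrix.cons_val_zero, Matrix.cons_val_one]
      have e2 : c + ((inner ℝ (psi h g q - c) a : ℝ) / ‖a‖ ^ 2) • a +
          ((inner ℝ (psi h g q - c) b : ℝ) / ‖a‖ ^ 2) • b = psi h g q := by
        rw [add_assoc, ← hexp (psi h g q - c)]; abel
      rw [e2]
      have e3 : prj h g q = prj h g (Phi h (psi h g q)) := by
        conv_lhs => rw [decompose hh.ne' g q]
        rw [prj_add, prj_smul, prj_wvec, smul_zero, add_zero]
      rw [← e3]
      exact prj_of_perp hqu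
  refine ⟨F '' S, ?_, ⟨O, hOopen, hBeq⟩, ?_, ?_⟩
  · -- bounded
    have hcont : Continuous F := by
      simp only [F]; fun_prop
    have hcomp : IsCompact (Metric.closedBall (0 : E2) (2 * (1 + τ))) := isCompact_closedBall _ _
    refine (hcomp.image hcont).isBounded.subset ?_
    apply Set.image_mono
    intro x hx
    rw [mem_closedBall_zero_iff]
    have h5 : ‖x‖ ≤ |x 0| + |x 1| := by
      rw [EuclideanSpace.norm_eq, Fin.sum_univ_two]
      apply Real.sqrt_le_iff.mpr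
      constructor
      · positivity
      · simp only [Real.norm_eq_abs]
        nlinarith [abs_nonneg (x 0), abs_nonneg (x 1)]
    have h6 : |x 0| ≤ 1 + τ := by rw [abs_le]; constructor <;> linarith [hx.1.1, hx.1.2]
    have h7 : |x 1| ≤ 1 + τ := by rw [abs_le]; constructor <;> linarith [hx.2.1, hx.2.2]
    linarith
  · intro x hx y hy t
    refine ⟨F !₂[x, y], ⟨!₂[x, y], ?_, rfl⟩, ?_⟩
    · simp only [hS, Set.mem_ofPred_eq, Matrix.cons_val_zero, Matrix.cons_val_one]
      exact ⟨⟨by linarith [hx.1], by linarith [hx.2]⟩, ⟨by linarith [hy.1], by linarith [hy.2]⟩⟩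
    · rw [hF]
      simp only [Matrix.cons_val_zero, Matrix.cons_val_one]
      refine ⟨inner ℝ (Phi h (c + x • a + y • b)) (uvec h g) + t * ‖wvec h g‖, ?_⟩
      rw [prj]
      have h1 : wvec h g = ‖wvec h g‖ • uvec h g := by
        rw [uvec, smul_smul, mul_inv_cancel₀ (norm_wvec_pos h g).ne', one_smul]
      conv_lhs => rw [h1]
      module
  · simp only [F]
    rw [muHE_image_affine, gramArea_prj h hh g a b hab hperp, hS, volume_openSq hτ,
      ← ENNReal.ofReal_mul (by have := J_nonneg h g; positivity)]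
    congr 1
    ring

end Crest.Agent.H1.Ruled
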