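import Mathlib
import Crest.Agent.H1.AreaGram

set_option autoImplicit false

open MeasureTheory Module
open scoped ENNReal

namespace Crest.Agent.H1.Sweep

abbrev E2 := EuclideanSpace ℝ (Fin 2)
abbrev E3 := EuclideanSpace ℝ (Fin 3)

/-- Gram determinant. -/
noncomputable def gd (a b : E3) : ℝ := ‖a‖ ^ 2 * ‖b‖ ^ 2 - inner ℝ a b ^ 2

/-- In the plane `e^⊥`, any vector is a combination of the independent vectors `a, b`. -/
theorem exists_coords {e a b : E3} (he : ‖e‖ = 1) (ha : inner ℝ a e = 0) (hb : inner ℝ b e = 0)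
    (hab : LinearIndependent ℝ ![a, b]) {v : E3} (hv : inner ℝ v e = 0) :
    ∃ x y : ℝ, v = x • a + y • b := by
  have hli : LinearIndependent ℝ ![e, a, b] := by
    rw [Fintype.linearIndependent_iff]
    intro g hg
    simp only [Fin.sum_univ_three, Matrix.cons_val_zero, Matrix.cons_val_one, Matrix.cons_val] at hg
    have h0 : g 0 = 0 := by
      have := congrArg (fun z => (inner ℝ z e : ℝ)) hg
      simp only [inner_add_left, real_inner_smul_left, ha, hb, real_inner_self_eq_norm_sq, he,
        inner_zero_left] at this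
      linarith
    rw [h0, zero_smul, zero_add] at hg
    rw [LinearIndependent.pair_iff] at hab
    have := hab _ _ hg
    intro i
    fin_cases i
    · exact h0
    · exact this.1
    · exact this.2
  have hspan : Submodule.span ℝ (Set.range ![e, a, b]) = ⊤ :=
    hli.span_eq_top_of_card_eq_finrank' (by simp)
  have hmem : v ∈ Submodule.span ℝ (Set.range ![e, a, b]) := by rw [hspan]; trivial
  rw [Submodule.mem_span_range_iff_exists_fun] at hmem
  obtain ⟨c, hc⟩ := hmem
  simp only [Fin.sum_univ_three, Matrix.cons_val_zero, Matrix.cons_val_one, Matrix.cons_val] at hc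
  have h0 : c 0 = 0 := by
    have := congrArg (fun z => (inner ℝ z e : ℝ)) hc
    simp only [inner_add_left, real_inner_smul_left, ha, hb, real_inner_self_eq_norm_sq, he, hv] at this
    linarith
  refine ⟨c 1, c 2, ?_⟩
  rw [← hc, h0]; simp

theorem gd_pos {a b : E3} (hab : LinearIndependent ℝ ![a, b]) : 0 < gd a b := by
  have h1 : inner ℝ a b ^ 2 < ‖a‖ ^ 2 * ‖b‖ ^ 2 := by
    have ha : a ≠ 0 := by
      intro h; have := hab.ne_zero 0; simp [h] at this
    have hn : 0 < ‖a‖ ^ 2 := by positivity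
    -- consider the vector ‖a‖² b - ⟨a,b⟩ a ≠ 0
    have hne : (‖a‖ ^ 2) • b - (inner ℝ a b : ℝ) • a ≠ 0 := by
      intro h
      rw [LinearIndependent.pair_iff] at hab
      have := hab (-(inner ℝ a b : ℝ)) (‖a‖ ^ 2) (by rw [← h]; module)
      exact hn.ne' this.2
    have hpos : 0 < ‖(‖a‖ ^ 2) • b - (inner ℝ a b : ℝ) • a‖ ^ 2 := by positivity
    rw [← real_inner_self_eq_norm_sq, inner_sub_left, inner_sub_right, inner_sub_right] at hpos
    simp only [real_inner_smul_left, real_inner_smul_right, real_inner_self_eq_norm_sq,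
      real_inner_comm a b] at hpos
    simp only [norm_smul, mul_pow, norm_pow, norm_norm, Real.norm_eq_abs, sq_abs] at hpos
    have h2 : 0 < ‖a‖ ^ 2 * (‖a‖ ^ 2 * ‖b‖ ^ 2 - inner ℝ a b ^ 2) := by
      nlinarith
    have := (mul_pos_iff_of_pos_left hn).mp h2
    linarith
  unfold gd; linarith

/-- dual vectors -/
noncomputable def dualA (a b : E3) : E3 := (gd a b)⁻¹ • ((‖b‖ ^ 2) • a - (inner ℝ a b : ℝ) • b)
noncomputable def dualB (a b : E3) : E3 := (gd a b)⁻¹ • ((‖a‖ ^ 2) • b - (inner ℝ a b : ℝ) • a)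

theorem dualA_inner {a b : E3} (h : gd a b ≠ 0) (x y : ℝ) :
    inner ℝ (dualA a b) (x • a + y • b) = x := by
  simp only [dualA, inner_add_right, real_inner_smul_left, real_inner_smul_right, inner_sub_left,
    real_inner_self_eq_norm_sq]
  have e1 : (inner ℝ b a : ℝ) = inner ℝ a b := real_inner_comm _ _
  rw [e1]
  field_simp
  unfold gd
  ring

theorem dualB_inner {a b : E3} (h : gd a b ≠ 0) (x y : ℝ) :
    inner ℝ (dualB a b) (x • a + y • b) = y := by
  simp only [dualB, inner_add_right, real_inner_smul_left, real_inner_smul_right, inner_sub_left,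
    real_inner_self_eq_norm_sq]
  have e1 : (inner ℝ b a : ℝ) = inner ℝ a b := real_inner_comm _ _
  rw [e1]
  field_simp
  unfold gd
  ring

/-- Orthogonal projection along a vector `u`. -/
noncomputable def proj (u x : E3) : E3 := x - (inner ℝ x u / ‖u‖ ^ 2) • u

theorem proj_add (u x y : E3) : proj u (x + y) = proj u x + proj u y := by
  simp only [proj, inner_add_left, add_div]; module

theorem proj_smul (u : E3) (c : ℝ) (x : E3) : proj u (c • x) = c • proj u x := by
  simp only [proj, real_inner_smul_left, mul_div_assoc]; module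

theorem proj_sub (u x y : E3) : proj u (x - y) = proj u x - proj u y := by
  simp only [proj, inner_sub_left, sub_div]; module

theorem proj_perp {u : E3} (hu : u ≠ 0) (x : E3) : inner ℝ (proj u x) u = 0 := by
  have : ‖u‖ ^ 2 ≠ 0 := by positivity
  rw [proj, inner_sub_left, real_inner_smul_left, real_inner_self_eq_norm_sq]
  field_simp
  ring

theorem proj_self {u : E3} (hu : u ≠ 0) : proj u u = 0 := by
  have : ‖u‖ ^ 2 ≠ 0 := by positivity
  rw [proj, real_inner_self_eq_norm_sq, div_self this]; simp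

theorem norm_axis {e w : E3} (he : ‖e‖ = 1) (hw : inner ℝ w e = 0) :
    ‖e + w‖ ^ 2 = 1 + ‖w‖ ^ 2 := by
  rw [← real_inner_self_eq_norm_sq, inner_add_left, inner_add_right, inner_add_right,
    real_inner_self_eq_norm_sq, real_inner_self_eq_norm_sq, he, hw, real_inner_comm, hw]
  ring

theorem axis_ne_zero {e w : E3} (he : ‖e‖ = 1) (hw : inner ℝ w e = 0) : e + w ≠ 0 := by
  intro h
  have := norm_axis he hw
  rw [h] at this
  simp at this
  nlinarith [sq_nonneg ‖w‖]

/-- Area factor of the projection. -/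
theorem gramArea_proj {e a b w : E3} (he : ‖e‖ = 1) (ha : inner ℝ a e = 0) (hb : inner ℝ b e = 0)
    (hab : LinearIndependent ℝ ![a, b]) (hw : inner ℝ w e = 0) :
    gramArea (proj (e + w) a) (proj (e + w) b) = gramArea a b / Real.sqrt (1 + ‖w‖ ^ 2) := by
  obtain ⟨x, y, hxy⟩ := exists_coords he ha hb hab hw
  have hN := norm_axis he hw
  have hNpos : 0 < 1 + ‖w‖ ^ 2 := by positivity
  have hinner : ∀ v z : E3, inner ℝ v e = 0 → inner ℝ z e = 0 →
      (inner ℝ (proj (e + w) v) (proj (e + w) z) : ℝ) =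
      inner ℝ v z - inner ℝ v w * inner ℝ z w / (1 + ‖w‖ ^ 2) := by
    intro v z hv hz
    simp only [proj, hN, inner_sub_left, inner_sub_right, real_inner_smul_left, real_inner_smul_right,
      inner_add_right, inner_add_left, hv, hz, real_inner_self_eq_norm_sq, he, hw]
    have e1 : (inner ℝ e w : ℝ) = 0 := by rw [real_inner_comm]; exact hw
    have e2 : (inner ℝ e z : ℝ) = 0 := by rw [real_inner_comm]; exact hz
    have e3 : (inner ℝ w z : ℝ) = inner ℝ z w := real_inner_comm _ _
    rw [e1, e2, e3]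
    field_simp
    ring
  have hnsq : ∀ v : E3, inner ℝ v e = 0 → ‖proj (e + w) v‖ ^ 2 = ‖v‖ ^ 2 - inner ℝ v w ^ 2 / (1 + ‖w‖ ^ 2) := by
    intro v hv
    rw [← real_inner_self_eq_norm_sq, hinner v v hv hv, real_inner_self_eq_norm_sq]; ring
  rw [gramArea, gramArea, ← Real.sqrt_div' _ hNpos.le, hnsq a ha, hnsq b hb, hinner a b ha hb]
  congr 1
  have haw : (inner ℝ a w : ℝ) = x * ‖a‖ ^ 2 + y * inner ℝ a b := by
    rw [hxy, inner_add_right, real_inner_smul_right, real_inner_smul_right, real_inner_self_eq_norm_sq]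
  have hbw : (inner ℝ b w : ℝ) = x * inner ℝ a b + y * ‖b‖ ^ 2 := by
    rw [hxy, inner_add_right, real_inner_smul_right, real_inner_smul_right, real_inner_self_eq_norm_sq,
      real_inner_comm]
  have hww : ‖w‖ ^ 2 = x * (x * ‖a‖ ^ 2 + y * inner ℝ a b) + y * (x * inner ℝ a b + y * ‖b‖ ^ 2) := by
    rw [← real_inner_self_eq_norm_sq]
    conv_lhs => rw [hxy]
    rw [inner_add_left, real_inner_smul_left, real_inner_smul_left, ← hxy, haw, hbw]
  rw [haw, hbw]
  set N := 1 + ‖w‖ ^ 2 with hNdef
  have hN1 : N - 1 = x * (x * ‖a‖ ^ 2 + y * inner ℝ a b) + y * (x * inner ℝ a b + y * ‖b‖ ^ 2) := by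
    rw [hNdef, ← hww]; ring
  field_simp
  set A := ‖a‖ ^ 2
  set B := ‖b‖ ^ 2
  set C := (inner ℝ a b : ℝ)
  linear_combination (N * (A * B - C ^ 2)) * hN1

end Crest.Agent.H1.Sweep
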