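import Mathlib
import Crest.Agent.H1.Sweep1

set_option autoImplicit false

open MeasureTheory Module
open scoped ENNReal

namespace Crest.Agent.H1.Sweep

theorem gramArea_comb {E : Type*} [NormedAddCommGroup E] [InnerProductSpace ℝ E] (a b : E) (x₁ y₁ x₂ y₂ : ℝ) :
    gramArea (x₁ • a + y₁ • b) (x₂ • a + y₂ • b) = |x₁ * y₂ - x₂ * y₁| * gramArea a b := by
  have hG : 0 ≤ ‖a‖ ^ 2 * ‖b‖ ^ 2 - inner ℝ a b ^ 2 := by
    have := abs_real_inner_le_norm a b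
    have h2 : inner ℝ a b ^ 2 ≤ (‖a‖ * ‖b‖) ^ 2 := by
      rw [← sq_abs]; exact pow_le_pow_left₀ (abs_nonneg _) this 2
    nlinarith
  rw [gramArea, gramArea, ← Real.sqrt_sq_eq_abs, ← Real.sqrt_mul (sq_nonneg _)]
  congr 1
  have e1 : (inner ℝ b a : ℝ) = inner ℝ a b := real_inner_comm _ _
  simp only [← real_inner_self_eq_norm_sq, inner_add_left, inner_add_right, real_inner_smul_left,
    real_inner_smul_right, e1]
  ring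

theorem affineIndependent_of_gramArea {p q r : E3} (h : gramArea (q - p) (r - p) ≠ 0) :
    AffineIndependent ℝ ![p, q, r] := by
  rw [affineIndependent_iff_not_collinear_set]
  intro hcol
  rw [collinear_iff_of_mem (p₀ := p) (by simp)] at hcol
  obtain ⟨v, hv⟩ := hcol
  obtain ⟨s, hs⟩ := hv q (by simp)
  obtain ⟨t, ht⟩ := hv r (by simp)
  apply h
  have h1 : q - p = s • v + (0:ℝ) • v := by rw [hs]; simp
  have h2 : r - p = t • v + (0:ℝ) • v := by rw [ht]; simp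
  rw [h1, h2, gramArea_comb]
  simp

/-- Data for one piece of the sweep. -/
structure Piece (e a b p₀ : E3) (w : ℝ → E3) (R : ℝ → ℝ) (L Λ ζ t₀ t₁ c : ℝ) : Prop where
  he : ‖e‖ = 1
  ha : inner ℝ a e = 0
  hb : inner ℝ b e = 0
  hp : inner ℝ p₀ e = 0
  hab : LinearIndependent ℝ ![a, b]
  hL : 0 < L
  hΛ : 0 < Λ
  hζ : 0 < ζ
  ht : t₀ < t₁
  hc : c ∈ Set.Icc t₀ t₁
  hw : ∀ τ ∈ Set.Icc t₀ t₁, inner ℝ (w τ) e = 0
  hR0 : ∀ τ ∈ Set.Icc t₀ t₁, 0 ≤ R τ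
  hR : ∀ τ ∈ Set.Icc t₀ t₁, |R τ - R c| ≤ ζ
  hd : 3 * L * Λ * (t₁ - t₀) ≤ ζ
  hco : ∀ τ ∈ Set.Icc t₀ t₁, ∃ μ ν : ℝ, w τ - w c = μ • a + ν • b ∧ |μ| ≤ Λ * (t₁ - t₀) ∧
    |ν - t₀ * μ| ≤ Λ * (t₁ - t₀) ^ 2 ∧ |t₁ * μ - ν| ≤ Λ * (t₁ - t₀) ^ 2

variable {e a b p₀ : E3} {w : ℝ → E3} {R : ℝ → ℝ} {L Λ ζ t₀ t₁ c : ℝ}

/-- The vertices of the covering triangle. -/
noncomputable def vert (e a b p₀ : E3) (w : ℝ → E3) (c X Y : ℝ) : E3 :=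
  proj (e + w c) (p₀ + X • a + Y • b)

theorem vert_eq (X Y : ℝ) : vert e a b p₀ w c X Y =
    proj (e + w c) p₀ + X • proj (e + w c) a + Y • proj (e + w c) b := by
  rw [vert, proj_add, proj_add, proj_smul, proj_smul]

theorem vert_sub (X Y X' Y' : ℝ) : vert e a b p₀ w c X Y - vert e a b p₀ w c X' Y' =
    (X - X') • proj (e + w c) a + (Y - Y') • proj (e + w c) b := by
  rw [vert_eq, vert_eq]; module

noncomputable def Xa (L Λ t₀ t₁ : ℝ) : ℝ := -2 * (L * Λ * (t₁ - t₀))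
noncomputable def kap (L Λ t₀ t₁ : ℝ) : ℝ := L * Λ * (t₁ - t₀) ^ 2
noncomputable def GG (R : ℝ → ℝ) (ζ c : ℝ) : ℝ := R c + 2 * ζ

noncomputable def P1 (e a b p₀ : E3) (w : ℝ → E3) (L Λ t₀ t₁ c : ℝ) : E3 :=
  vert e a b p₀ w c (Xa L Λ t₀ t₁) (t₀ * Xa L Λ t₀ t₁ - kap L Λ t₀ t₁)
noncomputable def P2 (e a b p₀ : E3) (w : ℝ → E3) (R : ℝ → ℝ) (L Λ ζ t₀ t₁ c : ℝ) : E3 :=
  vert e a b p₀ w c (Xa L Λ t₀ t₁ + GG R ζ c) (t₀ * Xa L Λ t₀ t₁ - kap L Λ t₀ t₁ + t₀ * GG R ζ c)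
noncomputable def P3 (e a b p₀ : E3) (w : ℝ → E3) (R : ℝ → ℝ) (L Λ ζ t₀ t₁ c : ℝ) : E3 :=
  vert e a b p₀ w c (Xa L Λ t₀ t₁ + GG R ζ c) (t₀ * Xa L Λ t₀ t₁ - kap L Λ t₀ t₁ + t₁ * GG R ζ c)

theorem Piece.hwc (h : Piece e a b p₀ w R L Λ ζ t₀ t₁ c) : inner ℝ (w c) e = 0 := h.hw c h.hc

theorem Piece.gram (h : Piece e a b p₀ w R L Λ ζ t₀ t₁ c) (x₁ y₁ x₂ y₂ : ℝ) :
    gramArea (x₁ • proj (e + w c) a + y₁ • proj (e + w c) b) (x₂ • proj (e + w c) a + y₂ • proj (e + w c) b) =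
      |x₁ * y₂ - x₂ * y₁| * (gramArea a b / Real.sqrt (1 + ‖w c‖ ^ 2)) := by
  rw [gramArea_comb, gramArea_proj h.he h.ha h.hb h.hab h.hwc]

theorem Piece.big_gram (h : Piece e a b p₀ w R L Λ ζ t₀ t₁ c) :
    gramArea (P2 e a b p₀ w R L Λ ζ t₀ t₁ c - P1 e a b p₀ w L Λ t₀ t₁ c)
      (P3 e a b p₀ w R L Λ ζ t₀ t₁ c - P1 e a b p₀ w L Λ t₀ t₁ c) =
      (GG R ζ c ^ 2 * (t₁ - t₀)) * (gramArea a b / Real.sqrt (1 + ‖w c‖ ^ 2)) := by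
  rw [P1, P2, P3, vert_sub, vert_sub, h.gram]
  congr 1
  have : (Xa L Λ t₀ t₁ + GG R ζ c - Xa L Λ t₀ t₁) *
      (t₀ * Xa L Λ t₀ t₁ - kap L Λ t₀ t₁ + t₁ * GG R ζ c - (t₀ * Xa L Λ t₀ t₁ - kap L Λ t₀ t₁)) -
      (Xa L Λ t₀ t₁ + GG R ζ c - Xa L Λ t₀ t₁) *
      (t₀ * Xa L Λ t₀ t₁ - kap L Λ t₀ t₁ + t₀ * GG R ζ c - (t₀ * Xa L Λ t₀ t₁ - kap L Λ t₀ t₁)) =
      GG R ζ c ^ 2 * (t₁ - t₀) := by ring
  rw [this, abs_of_nonneg]
  have := h.ht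
  have h2 : 0 ≤ t₁ - t₀ := by linarith
  positivity

/-- The point lies in the covering triangle after projection. -/
theorem Piece.mem_big (h : Piece e a b p₀ w R L Λ ζ t₀ t₁ c) {τ ρ s : ℝ} (hτ : τ ∈ Set.Icc t₀ t₁)
    (hρ : ρ ∈ Set.Icc 0 (R τ)) (hs : |s| ≤ L) :
    proj (e + w c) (p₀ + ρ • (a + τ • b) + s • (e + w τ)) ∈
      convexHull ℝ {P1 e a b p₀ w L Λ t₀ t₁ c, P2 e a b p₀ w R L Λ ζ t₀ t₁ c, P3 e a b p₀ w R L Λ ζ t₀ t₁ c} := by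
  obtain ⟨μ, ν, hwτ, hμ, hν1, hν2⟩ := h.hco τ hτ
  have hd : 0 < t₁ - t₀ := by linarith [h.ht]
  have hRc : 0 ≤ R c := h.hR0 c h.hc
  have hG : 0 < GG R ζ c := by unfold GG; linarith [h.hζ]
  set X : ℝ := ρ + s * μ with hX
  set Y : ℝ := ρ * τ + s * ν with hY
  have hpt : proj (e + w c) (p₀ + ρ • (a + τ • b) + s • (e + w τ)) = vert e a b p₀ w c X Y := by
    have h1 : p₀ + ρ • (a + τ • b) + s • (e + w τ) = (p₀ + X • a + Y • b) + s • (e + w c) := by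
      have h2 : w τ = w c + (μ • a + ν • b) := by rw [← hwτ]; abel
      rw [h2, hX, hY]
      module
    rw [h1, proj_add, proj_smul, proj_self (axis_ne_zero h.he h.hwc), smul_zero, add_zero, vert]
  rw [hpt, convexHull_triple_eq_image]
  -- inequalities
  have hLd : 0 ≤ L * (Λ * (t₁ - t₀) ^ 2) := by have := h.hL; have := h.hΛ; positivity
  have hsν1 : |s * (ν - t₀ * μ)| ≤ kap L Λ t₀ t₁ := by
    rw [abs_mul]
    calc |s| * |ν - t₀ * μ| ≤ L * (Λ * (t₁ - t₀) ^ 2) :=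
          mul_le_mul hs hν1 (abs_nonneg _) h.hL.le
      _ = _ := by unfold kap; ring
  have hsν2 : |s * (t₁ * μ - ν)| ≤ kap L Λ t₀ t₁ := by
    rw [abs_mul]
    calc |s| * |t₁ * μ - ν| ≤ L * (Λ * (t₁ - t₀) ^ 2) :=
          mul_le_mul hs hν2 (abs_nonneg _) h.hL.le
      _ = _ := by unfold kap; ring
  have hsμ : |s * μ| ≤ L * Λ * (t₁ - t₀) := by
    rw [abs_mul]
    calc |s| * |μ| ≤ L * (Λ * (t₁ - t₀)) := mul_le_mul hs hμ (abs_nonneg _) h.hL.le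
      _ = _ := by ring
  rw [abs_le] at hsν1 hsν2 hsμ
  have i1 : 0 ≤ Y + kap L Λ t₀ t₁ - t₀ * X := by
    have : 0 ≤ ρ * (τ - t₀) := mul_nonneg hρ.1 (by linarith [hτ.1])
    rw [hX, hY]; nlinarith [hsν1.1]
  have i2 : 0 ≤ t₁ * X + kap L Λ t₀ t₁ - Y := by
    have : 0 ≤ ρ * (t₁ - τ) := mul_nonneg hρ.1 (by linarith [hτ.2])
    rw [hX, hY]; nlinarith [hsν2.1]
  have i3 : X ≤ Xa L Λ t₀ t₁ + GG R ζ c := by
    have h5 := (abs_le.mp (h.hR τ hτ)).2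
    have h6 := h.hd
    unfold Xa GG
    rw [hX]
    nlinarith [hsμ.2, hρ.2]
  have hkap : kap L Λ t₀ t₁ = -(Xa L Λ t₀ t₁) * (t₁ - t₀) / 2 := by unfold kap Xa; ring
  refine ⟨!₂[(t₁ * X + kap L Λ t₀ t₁ - Y) / (GG R ζ c * (t₁ - t₀)),
    (Y + kap L Λ t₀ t₁ - t₀ * X) / (GG R ζ c * (t₁ - t₀))], ⟨?_, ?_, ?_⟩, ?_⟩
  · simp only [Matrix.cons_val_zero]
    exact div_nonneg i2 (by positivity)
  · simp only [Matrix.cons_val_one]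
    exact div_nonneg i1 (by positivity)
  · simp only [Matrix.cons_val_zero, Matrix.cons_val_one]
    rw [← add_div, div_le_one (by positivity)]
    rw [hkap]
    have : (X - Xa L Λ t₀ t₁) * (t₁ - t₀) ≤ GG R ζ c * (t₁ - t₀) :=
      mul_le_mul_of_nonneg_right (by linarith) hd.le
    linarith
  · simp only [Matrix.cons_val_zero, Matrix.cons_val_one]
    rw [P1, P2, P3, vert_sub, vert_sub, vert_eq, vert_eq]
    set A' := proj (e + w c) a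
    set B' := proj (e + w c) b
    set Q' := proj (e + w c) p₀
    set g := GG R ζ c
    set xa := Xa L Λ t₀ t₁
    set k := kap L Λ t₀ t₁
    have hX2 : X = xa + ((t₁ * X + k - Y) / (g * (t₁ - t₀)) + (Y + k - t₀ * X) / (g * (t₁ - t₀))) * g := by
      field_simp
      rw [hkap]; ring
    have hY2 : Y = (t₀ * xa - k) + ((t₁ * X + k - Y) / (g * (t₁ - t₀)) * t₀ + (Y + k - t₀ * X) / (g * (t₁ - t₀)) * t₁) * g := by
      field_simp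
      rw [hkap]; ring
    set x0 := (t₁ * X + k - Y) / (g * (t₁ - t₀))
    set x1 := (Y + k - t₀ * X) / (g * (t₁ - t₀))
    rw [hX2, hY2]
    module

end Crest.Agent.H1.Sweep
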