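import Mathlib
import Crest.Agent.H1.Sweep2

set_option autoImplicit false

open MeasureTheory Module
open scoped ENNReal

namespace Crest.Agent.H1.Sweep

variable {e a b p₀ : E3} {w : ℝ → E3} {R : ℝ → ℝ} {L Λ ζ t₀ t₁ c : ℝ}

/-- the piece of the swept set -/
def pieceSet (e a b p₀ : E3) (w : ℝ → E3) (R : ℝ → ℝ) (L t₀ t₁ : ℝ) : Set E3 :=
  {x : E3 | ∃ τ ∈ Set.Icc t₀ t₁, ∃ ρ ∈ Set.Icc 0 (R τ), ∃ s : ℝ, abs s ≤ L ∧
    x = p₀ + ρ • (a + τ • b) + s • (e + w τ)}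

theorem Piece.image_subset (h : Piece e a b p₀ w R L Λ ζ t₀ t₁ c) :
    proj (e + w c) '' pieceSet e a b p₀ w R L t₀ t₁ ⊆
      convexHull ℝ {P1 e a b p₀ w L Λ t₀ t₁ c, P2 e a b p₀ w R L Λ ζ t₀ t₁ c, P3 e a b p₀ w R L Λ ζ t₀ t₁ c} := by
  rintro _ ⟨x, ⟨τ, hτ, ρ, hρ, s, hs, rfl⟩, rfl⟩
  exact h.mem_big hτ hρ hs

noncomputable def rlow (R : ℝ → ℝ) (ζ c : ℝ) : ℝ := max (R c - ζ) 0

theorem Piece.subset_image (h : Piece e a b p₀ w R L Λ ζ t₀ t₁ c) :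
    convexHull ℝ {vert e a b p₀ w c 0 0, vert e a b p₀ w c (rlow R ζ c) (t₀ * rlow R ζ c),
      vert e a b p₀ w c (rlow R ζ c) (t₁ * rlow R ζ c)} ⊆
    proj (e + w c) '' pieceSet e a b p₀ w R L t₀ t₁ := by
  rw [convexHull_triple_eq_image]
  rintro _ ⟨x, ⟨hx0, hx1, hx2⟩, rfl⟩
  have hr0 : 0 ≤ rlow R ζ c := le_max_right _ _
  have ht := h.ht
  obtain ⟨τ, hτ, hτeq⟩ : ∃ τ ∈ Set.Icc t₀ t₁, x 0 * t₀ + x 1 * t₁ = (x 0 + x 1) * τ := by
    rcases eq_or_lt_of_le (add_nonneg hx0 hx1) with h0 | hpos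
    · refine ⟨t₀, ⟨le_rfl, ht.le⟩, ?_⟩
      have e0 : x 0 = 0 := by linarith
      have e1 : x 1 = 0 := by linarith
      rw [e0, e1]; ring
    · refine ⟨(x 0 * t₀ + x 1 * t₁) / (x 0 + x 1), ⟨?_, ?_⟩, ?_⟩
      · rw [le_div_iff₀ hpos]; nlinarith
      · rw [div_le_iff₀ hpos]; nlinarith
      · field_simp
  refine ⟨p₀ + ((x 0 + x 1) * rlow R ζ c) • (a + τ • b) + (0:ℝ) • (e + w τ),
    ⟨τ, hτ, (x 0 + x 1) * rlow R ζ c, ⟨by positivity, ?_⟩, 0, by simpa using h.hL.le, rfl⟩, ?_⟩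
  · have h1 : rlow R ζ c ≤ R τ := by
      apply max_le
      · have := (abs_le.mp (h.hR τ hτ)).1; linarith
      · exact h.hR0 τ hτ
    calc (x 0 + x 1) * rlow R ζ c ≤ 1 * rlow R ζ c := mul_le_mul_of_nonneg_right hx2 hr0
      _ ≤ _ := by linarith
  · have h3 : p₀ + ((x 0 + x 1) * rlow R ζ c) • (a + τ • b) + (0:ℝ) • (e + w τ) =
        p₀ + ((x 0 + x 1) * rlow R ζ c) • a + ((x 0 * t₀ + x 1 * t₁) * rlow R ζ c) • b := by
      rw [hτeq]; module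
    rw [h3]
    change vert e a b p₀ w c _ _ = _
    rw [vert_eq, vert_sub, vert_sub, vert_eq]
    module

theorem Piece.low_gram (h : Piece e a b p₀ w R L Λ ζ t₀ t₁ c) :
    gramArea (vert e a b p₀ w c (rlow R ζ c) (t₀ * rlow R ζ c) - vert e a b p₀ w c 0 0)
      (vert e a b p₀ w c (rlow R ζ c) (t₁ * rlow R ζ c) - vert e a b p₀ w c 0 0) =
      (rlow R ζ c ^ 2 * (t₁ - t₀)) * (gramArea a b / Real.sqrt (1 + ‖w c‖ ^ 2)) := by
  rw [vert_sub, vert_sub, h.gram]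
  congr 1
  have : (rlow R ζ c - 0) * (t₁ * rlow R ζ c - 0) - (rlow R ζ c - 0) * (t₀ * rlow R ζ c - 0) =
      rlow R ζ c ^ 2 * (t₁ - t₀) := by ring
  rw [this, abs_of_nonneg]
  have := h.ht
  have h2 : 0 ≤ t₁ - t₀ := by linarith
  positivity

theorem gramArea_nonneg (a b : E3) : 0 ≤ gramArea a b := Real.sqrt_nonneg _

/-- area of the big triangle -/
theorem Piece.area_big (h : Piece e a b p₀ w R L Λ ζ t₀ t₁ c) :
    μHE[2] (convexHull ℝ {P1 e a b p₀ w L Λ t₀ t₁ c, P2 e a b p₀ w R L Λ ζ t₀ t₁ c, P3 e a b p₀ w R L Λ ζ t₀ t₁ c}) =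
      ENNReal.ofReal (gramArea a b * (t₁ - t₀) * (GG R ζ c ^ 2 / (2 * Real.sqrt (1 + ‖w c‖ ^ 2)))) := by
  rw [muHE_triangle, h.big_gram]
  congr 1
  field_simp

theorem Piece.area_low (h : Piece e a b p₀ w R L Λ ζ t₀ t₁ c) :
    μHE[2] (convexHull ℝ {vert e a b p₀ w c 0 0, vert e a b p₀ w c (rlow R ζ c) (t₀ * rlow R ζ c),
      vert e a b p₀ w c (rlow R ζ c) (t₁ * rlow R ζ c)}) =
      ENNReal.ofReal (gramArea a b * (t₁ - t₀) * (rlow R ζ c ^ 2 / (2 * Real.sqrt (1 + ‖w c‖ ^ 2)))) := by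
  rw [muHE_triangle, h.low_gram]
  congr 1
  field_simp

/-- The density. -/
noncomputable def dens (w : ℝ → E3) (R : ℝ → ℝ) (τ : ℝ) : ℝ := R τ ^ 2 / (2 * Real.sqrt (1 + ‖w τ‖ ^ 2))

theorem one_le_sq (w : E3) : 1 ≤ Real.sqrt (1 + ‖w‖ ^ 2) := by
  apply Real.one_le_sqrt.mpr; nlinarith [sq_nonneg ‖w‖]

/-- Numerical bounds. -/
theorem Piece.bounds (h : Piece e a b p₀ w R L Λ ζ t₀ t₁ c) {Rm : ℝ} (hRm : R c ≤ Rm) (hζ1 : ζ ≤ 1) :
    GG R ζ c ^ 2 / (2 * Real.sqrt (1 + ‖w c‖ ^ 2)) ≤ dens w R c + ζ * (2 * (Rm + 1)) ∧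
    dens w R c - ζ * (2 * (Rm + 1)) ≤ rlow R ζ c ^ 2 / (2 * Real.sqrt (1 + ‖w c‖ ^ 2)) := by
  have hRc : 0 ≤ R c := h.hR0 c h.hc
  have hζ := h.hζ
  have h1 := one_le_sq (w c)
  set S := Real.sqrt (1 + ‖w c‖ ^ 2)
  have hS : 0 < 2 * S := by linarith
  have hRm1 : 0 ≤ Rm + 1 := by linarith
  have hpz : 0 ≤ 2 * (ζ * (2 * (Rm + 1))) := by positivity
  constructor
  · have h2 : GG R ζ c ^ 2 ≤ R c ^ 2 + 2 * (ζ * (2 * (Rm + 1))) := by
      unfold GG; nlinarith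
    calc GG R ζ c ^ 2 / (2 * S) ≤ (R c ^ 2 + 2 * (ζ * (2 * (Rm + 1)))) / (2 * S) := by gcongr
      _ = dens w R c + (2 * (ζ * (2 * (Rm + 1)))) / (2 * S) := by rw [dens, add_div]
      _ ≤ dens w R c + (2 * (ζ * (2 * (Rm + 1)))) / 2 := by
          have := div_le_div_of_nonneg_left hpz two_pos (show (2:ℝ) ≤ 2 * S by linarith)
          linarith
      _ = _ := by ring
  · have h2 : R c ^ 2 - 2 * (ζ * (2 * (Rm + 1))) ≤ rlow R ζ c ^ 2 := by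
      unfold rlow
      rcases le_total (R c - ζ) 0 with h3 | h3
      · rw [max_eq_right h3]; nlinarith
      · rw [max_eq_left h3]; nlinarith
    calc dens w R c - ζ * (2 * (Rm + 1)) = dens w R c - (2 * (ζ * (2 * (Rm + 1)))) / 2 := by ring
      _ ≤ dens w R c - (2 * (ζ * (2 * (Rm + 1)))) / (2 * S) := by
          have := div_le_div_of_nonneg_left hpz two_pos (show (2:ℝ) ≤ 2 * S by linarith)
          linarith
      _ = (R c ^ 2 - 2 * (ζ * (2 * (Rm + 1)))) / (2 * S) := by rw [dens, sub_div]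
      _ ≤ _ := by gcongr

theorem measure_image_bounds (h : Piece e a b p₀ w R L Λ ζ t₀ t₁ c) {Rm : ℝ} (hRm : R c ≤ Rm) (hζ1 : ζ ≤ 1) :
    abs ((μHE[2] (convexHull ℝ {P1 e a b p₀ w L Λ t₀ t₁ c, P2 e a b p₀ w R L Λ ζ t₀ t₁ c, P3 e a b p₀ w R L Λ ζ t₀ t₁ c})).toReal
      - gramArea a b * ((t₁ - t₀) * dens w R c)) ≤ gramArea a b * ((t₁ - t₀) * (ζ * (2 * (Rm + 1)))) ∧
    abs ((μHE[2] (proj (e + w c) '' pieceSet e a b p₀ w R L t₀ t₁)).toReal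
      - gramArea a b * ((t₁ - t₀) * dens w R c)) ≤ gramArea a b * ((t₁ - t₀) * (ζ * (2 * (Rm + 1)))) := by
  obtain ⟨hb1, hb2⟩ := h.bounds hRm hζ1
  have hg := gramArea_nonneg a b
  have hd : 0 ≤ t₁ - t₀ := by linarith [h.ht]
  have hRc : 0 ≤ R c := h.hR0 c h.hc
  have hζ := h.hζ
  have hdn : 0 ≤ dens w R c := by unfold dens; positivity
  have hgd : 0 ≤ gramArea a b * (t₁ - t₀) := mul_nonneg hg hd
  -- low ≤ dens ≤ big
  have hlowdens : rlow R ζ c ^ 2 / (2 * Real.sqrt (1 + ‖w c‖ ^ 2)) ≤ dens w R c := by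
    unfold dens
    have : rlow R ζ c ≤ R c := max_le (by linarith) hRc
    have h0 : 0 ≤ rlow R ζ c := le_max_right _ _
    gcongr
  have hbigdens : dens w R c ≤ GG R ζ c ^ 2 / (2 * Real.sqrt (1 + ‖w c‖ ^ 2)) := by
    unfold dens
    have : R c ≤ GG R ζ c := by unfold GG; linarith
    gcongr
  have hbig : (μHE[2] (convexHull ℝ {P1 e a b p₀ w L Λ t₀ t₁ c, P2 e a b p₀ w R L Λ ζ t₀ t₁ c, P3 e a b p₀ w R L Λ ζ t₀ t₁ c})).toReal
      = gramArea a b * (t₁ - t₀) * (GG R ζ c ^ 2 / (2 * Real.sqrt (1 + ‖w c‖ ^ 2))) := by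
    rw [h.area_big, ENNReal.toReal_ofReal (by positivity)]
  have himg_le : (μHE[2] (proj (e + w c) '' pieceSet e a b p₀ w R L t₀ t₁)).toReal ≤
      gramArea a b * (t₁ - t₀) * (GG R ζ c ^ 2 / (2 * Real.sqrt (1 + ‖w c‖ ^ 2))) := by
    rw [← hbig]
    apply ENNReal.toReal_mono
    · rw [h.area_big]; exact ENNReal.ofReal_ne_top
    · exact measure_mono h.image_subset
  have himg_ge : gramArea a b * (t₁ - t₀) * (rlow R ζ c ^ 2 / (2 * Real.sqrt (1 + ‖w c‖ ^ 2))) ≤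
      (μHE[2] (proj (e + w c) '' pieceSet e a b p₀ w R L t₀ t₁)).toReal := by
    have h1 : (μHE[2] (convexHull ℝ {vert e a b p₀ w c 0 0, vert e a b p₀ w c (rlow R ζ c) (t₀ * rlow R ζ c),
      vert e a b p₀ w c (rlow R ζ c) (t₁ * rlow R ζ c)})).toReal =
      gramArea a b * (t₁ - t₀) * (rlow R ζ c ^ 2 / (2 * Real.sqrt (1 + ‖w c‖ ^ 2))) := by
      rw [h.area_low, ENNReal.toReal_ofReal (by positivity)]
    rw [← h1]
    apply ENNReal.toReal_mono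
    · apply ne_top_of_le_ne_top _ (measure_mono h.image_subset)
      rw [h.area_big]; exact ENNReal.ofReal_ne_top
    · exact measure_mono h.subset_image
  have m1 := mul_le_mul_of_nonneg_left hb1 hgd
  have m2 := mul_le_mul_of_nonneg_left hb2 hgd
  have m3 := mul_le_mul_of_nonneg_left hlowdens hgd
  have m4 := mul_le_mul_of_nonneg_left hbigdens hgd
  constructor
  · rw [hbig, abs_le]
    constructor <;> nlinarith
  · rw [abs_le]
    constructor <;> nlinarith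

end Crest.Agent.H1.Sweep
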