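import Mathlib
import Crest.Agent.H1.Sweep3

set_option autoImplicit false

open MeasureTheory Module
open scoped ENNReal

namespace Crest.Agent.H1.Sweep

/-- Mean value estimate for the coordinates of `w`. -/
theorem coord_bound {a b : E3} (hg : gd a b ≠ 0) {α β : ℝ} {w : ℝ → E3} {lam : ℝ → ℝ}
    (hw' : ∀ t ∈ Set.Icc α β, HasDerivWithinAt w (lam t • (a + t • b)) (Set.Icc α β) t)
    {Λ : ℝ} (hΛ : ∀ t ∈ Set.Icc α β, |lam t| ≤ Λ) {t₀ t₁ : ℝ} (hsub : Set.Icc t₀ t₁ ⊆ Set.Icc α β)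
    {p q C : ℝ} (hC : ∀ t ∈ Set.Icc t₀ t₁, |p + q * t| ≤ C) {c τ : ℝ} (hc : c ∈ Set.Icc t₀ t₁)
    (hτ : τ ∈ Set.Icc t₀ t₁) :
    |p * inner ℝ (dualA a b) (w τ - w c) + q * inner ℝ (dualB a b) (w τ - w c)| ≤ Λ * C * (t₁ - t₀) := by
  set v : E3 := p • dualA a b + q • dualB a b with hv
  have hderiv : ∀ t ∈ Set.Icc t₀ t₁, HasDerivWithinAt (fun t => (inner ℝ v (w t) : ℝ))
      (lam t * (p + q * t)) (Set.Icc t₀ t₁) t := by
    intro t ht
    have h1 := (hw' t (hsub ht)).mono hsub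
    have h2 := (hasDerivWithinAt_const t (Set.Icc t₀ t₁) v).inner ℝ h1
    have e1 : a + t • b = (1:ℝ) • a + t • b := by rw [one_smul]
    have h3 : (inner ℝ v (lam t • (a + t • b)) : ℝ) + inner ℝ (0 : E3) (w t) = lam t * (p + q * t) := by
      rw [real_inner_smul_right, hv, inner_add_left, real_inner_smul_left, real_inner_smul_left, e1,
        dualA_inner hg, dualB_inner hg, inner_zero_left]
      ring
    rw [h3] at h2
    exact h2
  have hΛ0 : 0 ≤ Λ := (abs_nonneg _).trans (hΛ c (hsub hc))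
  have hC0 : 0 ≤ C := (abs_nonneg _).trans (hC c hc)
  have hmv := (convex_Icc t₀ t₁).norm_image_sub_le_of_norm_hasDerivWithin_le (C := Λ * C) hderiv
    (by
      intro t ht
      rw [Real.norm_eq_abs, abs_mul]
      exact mul_le_mul (hΛ t (hsub ht)) (hC t ht) (abs_nonneg _) hΛ0) hc hτ
  have h3 : (inner ℝ v (w τ) : ℝ) - inner ℝ v (w c) =
      p * inner ℝ (dualA a b) (w τ - w c) + q * inner ℝ (dualB a b) (w τ - w c) := by
    rw [← inner_sub_right, hv, inner_add_left, real_inner_smul_left, real_inner_smul_left]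
  rw [h3, Real.norm_eq_abs] at hmv
  refine hmv.trans ?_
  apply mul_le_mul_of_nonneg_left _ (by positivity)
  rw [Real.norm_eq_abs, abs_le]
  constructor <;> linarith [hc.1, hc.2, hτ.1, hτ.2]

theorem mk_piece {e a b p₀ : E3} (he : ‖e‖ = 1)
    (ha : inner ℝ a e = 0) (hb : inner ℝ b e = 0) (hp₀ : inner ℝ p₀ e = 0)
    (hab : LinearIndependent ℝ ![a, b]) {L : ℝ} (hL : 0 < L) {α β : ℝ}
    {R : ℝ → ℝ} (hR0 : ∀ t ∈ Set.Icc α β, 0 ≤ R t)
    {w : ℝ → E3} (hw : ∀ t ∈ Set.Icc α β, inner ℝ (w t) e = 0)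
    {lam : ℝ → ℝ} (hw' : ∀ t ∈ Set.Icc α β, HasDerivWithinAt w (lam t • (a + t • b)) (Set.Icc α β) t)
    {Λ : ℝ} (hΛ0 : 0 < Λ) (hΛ : ∀ t ∈ Set.Icc α β, |lam t| ≤ Λ) {ζ δ : ℝ} (hζ : 0 < ζ)
    (hRδ : ∀ x ∈ Set.Icc α β, ∀ y ∈ Set.Icc α β, |x - y| ≤ δ → |R x - R y| ≤ ζ)
    (hδ : 3 * L * Λ * δ ≤ ζ) {t₀ t₁ c : ℝ} (ht : t₀ < t₁) (hα : α ≤ t₀) (hβ : t₁ ≤ β)
    (hc : c ∈ Set.Icc t₀ t₁) (hd : t₁ - t₀ ≤ δ) :
    Piece e a b p₀ w R L Λ ζ t₀ t₁ c := by
  have hsub : Set.Icc t₀ t₁ ⊆ Set.Icc α β := Set.Icc_subset_Icc hα hβ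
  have hg : gd a b ≠ 0 := (gd_pos hab).ne'
  refine ⟨he, ha, hb, hp₀, hab, hL, hΛ0, hζ, ht, hc, fun τ hτ => hw τ (hsub hτ),
    fun τ hτ => hR0 τ (hsub hτ), ?_, ?_, ?_⟩
  · intro τ hτ
    apply hRδ τ (hsub hτ) c (hsub hc)
    rw [abs_le]; constructor <;> linarith [hc.1, hc.2, hτ.1, hτ.2]
  · refine le_trans ?_ hδ
    gcongr
  · intro τ hτ
    have hd0 : 0 ≤ t₁ - t₀ := by linarith
    have hv : inner ℝ (w τ - w c) e = 0 := by
      rw [inner_sub_left, hw τ (hsub hτ), hw c (hsub hc), sub_zero]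
    obtain ⟨μ, ν, hμν⟩ := exists_coords he ha hb hab hv
    have e1 : inner ℝ (dualA a b) (w τ - w c) = μ := by rw [hμν, dualA_inner hg]
    have e2 : inner ℝ (dualB a b) (w τ - w c) = ν := by rw [hμν, dualB_inner hg]
    refine ⟨μ, ν, hμν, ?_, ?_, ?_⟩
    · have := coord_bound hg hw' hΛ hsub (p := 1) (q := 0) (C := 1) (by intro t _; simp) hc hτ
      rw [e1, e2] at this
      simpa using this
    · have := coord_bound hg hw' hΛ hsub (p := -t₀) (q := 1) (C := t₁ - t₀) (by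
        intro t ht
        rw [abs_le]; constructor <;> linarith [ht.1, ht.2]) hc hτ
      rw [e1, e2] at this
      have h1 : -t₀ * μ + 1 * ν = ν - t₀ * μ := by ring
      rw [h1] at this
      linarith
    · have := coord_bound hg hw' hΛ hsub (p := t₁) (q := -1) (C := t₁ - t₀) (by
        intro t ht
        rw [abs_le]; constructor <;> linarith [ht.1, ht.2]) hc hτ
      rw [e1, e2] at this
      have h1 : t₁ * μ + -1 * ν = t₁ * μ - ν := by ring
      rw [h1] at this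
      linarith

/-- Additivity of the integral over a partition indexed by `Fin`. -/
theorem sum_integral_fin {N : ℕ} (t : Fin (N + 1) → ℝ) (f : ℝ → ℝ)
    (hint : ∀ i : Fin N, IntervalIntegrable f volume (t i.castSucc) (t i.succ)) :
    ∑ i : Fin N, ∫ x in (t i.castSucc)..(t i.succ), f x = ∫ x in (t 0)..(t (Fin.last N)), f x := by
  let T : ℕ → ℝ := fun k => if h : k < N + 1 then t ⟨k, h⟩ else 0
  have hT : ∀ (k : ℕ) (h : k < N + 1), T k = t ⟨k, h⟩ := fun k h => dif_pos h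
  have h1 := intervalIntegral.sum_integral_adjacent_intervals (μ := volume) (f := f) (a := T) (n := N)
    (by
      intro k hk
      rw [hT k (by omega), hT (k + 1) (by omega)]
      exact hint ⟨k, hk⟩)
  rw [Finset.sum_range] at h1
  rw [hT 0 (by omega), hT N (by omega)] at h1
  rw [show (t 0) = t ⟨0, by omega⟩ from rfl, show (t (Fin.last N)) = t ⟨N, by omega⟩ from rfl, ← h1]
  apply Finset.sum_congr rfl
  intro i _
  rw [hT i (by omega), hT (i + 1) (by omega)]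
  rfl

end Crest.Agent.H1.Sweep
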