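import Mathlib
import Crest.Agent.H1.Sweep4

set_option autoImplicit false

open MeasureTheory Module
open scoped ENNReal

namespace Crest.Agent.H1.Sweep

theorem exists_cell {N : ℕ} {t : Fin (N + 1) → ℝ} {α β τ : ℝ} (hαβ : α < β) (h0 : t 0 = α)
    (hN : t (Fin.last N) = β) (hτ : τ ∈ Set.Icc α β) :
    ∃ i : Fin N, τ ∈ Set.Icc (t i.castSucc) (t i.succ) := by
  by_contra hcon
  push Not at hcon
  have key : ∀ k : Fin (N + 1), t k ≤ τ ∧ (k ≠ 0 → t k < τ) := by
    intro k
    induction k using Fin.induction with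
    | zero => exact ⟨by rw [h0]; exact hτ.1, fun h => absurd rfl h⟩
    | succ i ih =>
      have h1 : t i.succ < τ := by
        by_contra h2
        exact hcon i ⟨ih.1, not_lt.mp h2⟩
      exact ⟨h1.le, fun _ => h1⟩
  have hlast := (key (Fin.last N)).2 (by
    intro h
    rw [h, h0] at hN
    linarith)
  rw [hN] at hlast
  linarith [hτ.2]

theorem sweep_main
    (e a b p₀ : E3) (he : ‖e‖ = 1)
    (ha : inner ℝ a e = 0) (hb : inner ℝ b e = 0) (hp₀ : inner ℝ p₀ e = 0)
    (hab : LinearIndependent ℝ ![a, b]) (L : ℝ) (hL : 0 < L) (α β : ℝ) (hαβ : α < β)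
    (R : ℝ → ℝ) (hR : ContinuousOn R (Set.Icc α β)) (hR0 : ∀ t ∈ Set.Icc α β, 0 ≤ R t)
    (w : ℝ → E3) (hw : ∀ t ∈ Set.Icc α β, inner ℝ (w t) e = 0)
    (lam : ℝ → ℝ) (hlam : ContinuousOn lam (Set.Icc α β))
    (hw' : ∀ t ∈ Set.Icc α β, HasDerivWithinAt w (lam t • (a + t • b)) (Set.Icc α β) t)
    (η : ℝ) (hη : 0 < η) :
    ∃ δ : ℝ, 0 < δ ∧ ∃ (Λ ζ : ℝ), ∀ (N : ℕ) (t : Fin (N + 1) → ℝ) (c : Fin N → ℝ),
      StrictMono t → t 0 = α → t (Fin.last N) = β →
      (∀ i : Fin N, t i.succ - t i.castSucc ≤ δ) →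
      (∀ i : Fin N, t i.castSucc ≤ c i ∧ c i ≤ t i.succ) →
      (∀ i : Fin N, Piece e a b p₀ w R L Λ ζ (t i.castSucc) (t i.succ) (c i)) ∧
      abs ((∑ i : Fin N, (μHE[2] (convexHull ℝ {P1 e a b p₀ w L Λ (t i.castSucc) (t i.succ) (c i),
          P2 e a b p₀ w R L Λ ζ (t i.castSucc) (t i.succ) (c i),
          P3 e a b p₀ w R L Λ ζ (t i.castSucc) (t i.succ) (c i)})).toReal) -
          gramArea a b * ∫ τ in α..β, dens w R τ) ≤ η ∧
      abs ((∑ i : Fin N, (μHE[2] (proj (e + w (c i)) '' pieceSet e a b p₀ w R L (t i.castSucc) (t i.succ))).toReal) -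
          gramArea a b * ∫ τ in α..β, dens w R τ) ≤ η := by
  have hcomp : IsCompact (Set.Icc α β) := isCompact_Icc
  have hg := gramArea_nonneg a b
  -- bounds
  obtain ⟨Λ₀, hΛ₀⟩ := hcomp.exists_bound_of_continuousOn hlam
  set Λ : ℝ := |Λ₀| + 1 with hΛdef
  have hΛ0 : 0 < Λ := by positivity
  have hΛ : ∀ t ∈ Set.Icc α β, |lam t| ≤ Λ := by
    intro t ht
    have := hΛ₀ t ht
    rw [Real.norm_eq_abs] at this
    linarith [le_abs_self Λ₀]
  obtain ⟨R₀, hR₀⟩ := hcomp.exists_bound_of_continuousOn hR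
  set Rm : ℝ := |R₀| with hRmdef
  have hRm0 : 0 ≤ Rm := abs_nonneg _
  have hRm : ∀ t ∈ Set.Icc α β, R t ≤ Rm := by
    intro t ht
    have := hR₀ t ht
    rw [Real.norm_eq_abs] at this
    linarith [le_abs_self R₀, le_abs_self (R t)]
  -- continuity
  have hwc : ContinuousOn w (Set.Icc α β) := fun t ht => (hw' t ht).continuousWithinAt
  have hdens : ContinuousOn (dens w R) (Set.Icc α β) := by
    unfold dens
    apply ContinuousOn.div (hR.pow 2)
    · exact continuousOn_const.mul ((continuousOn_const.add (hwc.norm.pow 2)).sqrt)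
    · intro t _
      have := one_le_sq (w t)
      linarith
  set K : ℝ := gramArea a b * (β - α) * (2 * (Rm + 1) + 1) with hK
  have hK0 : 0 ≤ K := by
    have : 0 ≤ β - α := by linarith
    positivity
  set ζ : ℝ := min 1 (η / (K + 1)) with hζdef
  have hζ : 0 < ζ := lt_min one_pos (by positivity)
  have hζ1 : ζ ≤ 1 := min_le_left _ _
  have hζK : K * ζ ≤ η := by
    have h1 : ζ ≤ η / (K + 1) := min_le_right _ _
    rw [le_div_iff₀ (by positivity)] at h1
    nlinarith
  have hucR := hcomp.uniformContinuousOn_of_continuous hR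
  have hucD := hcomp.uniformContinuousOn_of_continuous hdens
  rw [Metric.uniformContinuousOn_iff] at hucR hucD
  obtain ⟨δ₁, hδ₁, hucR⟩ := hucR ζ hζ
  obtain ⟨δ₂, hδ₂, hucD⟩ := hucD ζ hζ
  set δ : ℝ := min (min (δ₁ / 2) (δ₂ / 2)) (ζ / (3 * L * Λ)) with hδdef
  have hδ : 0 < δ := lt_min (lt_min (by positivity) (by positivity)) (by positivity)
  have hδ1 : δ < δ₁ := by
    have : δ ≤ δ₁ / 2 := (min_le_left _ _).trans (min_le_left _ _)
    linarith
  have hδ2 : δ < δ₂ := by
    have : δ ≤ δ₂ / 2 := (min_le_left _ _).trans (min_le_right _ _)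
    linarith
  have hδ3 : 3 * L * Λ * δ ≤ ζ := by
    have : δ ≤ ζ / (3 * L * Λ) := min_le_right _ _
    rw [le_div_iff₀ (by positivity)] at this
    linarith
  refine ⟨δ, hδ, Λ, ζ, ?_⟩
  intro N t c hmono h0 hN hmesh htag
  have hα : ∀ k, α ≤ t k := fun k => by rw [← h0]; exact hmono.monotone (Fin.zero_le k)
  have hβ : ∀ k, t k ≤ β := fun k => by rw [← hN]; exact hmono.monotone (Fin.le_last k)
  have hpiece : ∀ i : Fin N, Piece e a b p₀ w R L Λ ζ (t i.castSucc) (t i.succ) (c i) := by
    intro i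
    apply mk_piece (δ := δ) he ha hb hp₀ hab hL hR0 hw hw' hΛ0 hΛ hζ ?_ hδ3
      (hmono Fin.castSucc_lt_succ) (hα _) (hβ _) (htag i) (hmesh i)
    intro x hx y hy hxy
    have := hucR x hx y hy (by rw [Real.dist_eq]; linarith)
    rw [Real.dist_eq] at this
    exact this.le
  have hii : ∀ i : Fin N, IntervalIntegrable (dens w R) volume (t i.castSucc) (t i.succ) := by
    intro i
    apply ContinuousOn.intervalIntegrable
    apply hdens.mono
    rw [Set.uIcc_of_le (hmono Fin.castSucc_lt_succ).le]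
    exact Set.Icc_subset_Icc (hα _) (hβ _)
  have hsum := sum_integral_fin t (dens w R) hii
  rw [h0, hN] at hsum
  have hlen : ∑ i : Fin N, (t i.succ - t i.castSucc) = β - α := by
    have := sum_integral_fin t (fun _ => (1:ℝ)) (fun i => intervalIntegrable_const)
    simp only [intervalIntegral.integral_const, smul_eq_mul, mul_one] at this
    rw [h0, hN] at this
    exact this
  have hpi : ∀ i : Fin N, |(t i.succ - t i.castSucc) * dens w R (c i) -
      ∫ x in (t i.castSucc)..(t i.succ), dens w R x| ≤ ζ * (t i.succ - t i.castSucc) := by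
    intro i
    have hlt : t i.castSucc < t i.succ := hmono Fin.castSucc_lt_succ
    have h1 : (t i.succ - t i.castSucc) * dens w R (c i) =
        ∫ _x in (t i.castSucc)..(t i.succ), dens w R (c i) := by
      rw [intervalIntegral.integral_const, smul_eq_mul]
    rw [h1, ← intervalIntegral.integral_sub intervalIntegrable_const (hii i)]
    have h2 := intervalIntegral.norm_integral_le_of_norm_le_const (a := t i.castSucc) (b := t i.succ)
      (f := fun x => dens w R (c i) - dens w R x) (C := ζ) (by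
        intro x hx
        rw [Set.uIoc_of_le hlt.le] at hx
        have hx' : x ∈ Set.Icc (t i.castSucc) (t i.succ) := ⟨hx.1.le, hx.2⟩
        have hsub : Set.Icc (t i.castSucc) (t i.succ) ⊆ Set.Icc α β := Set.Icc_subset_Icc (hα _) (hβ _)
        have := hucD (c i) (hsub (htag i)) x (hsub hx') (by
          rw [Real.dist_eq]
          refine lt_of_le_of_lt ?_ hδ2
          refine le_trans ?_ (hmesh i)
          rw [abs_le]; constructor <;> linarith [hx'.1, hx'.2, (htag i).1, (htag i).2])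
        rw [Real.dist_eq] at this
        rw [Real.norm_eq_abs]; exact this.le)
    rw [abs_of_pos (by linarith), Real.norm_eq_abs] at h2
    exact h2
  have hfinal : ∀ f : Fin N → ℝ, (∀ i, |f i - gramArea a b * ((t i.succ - t i.castSucc) * dens w R (c i))| ≤
      gramArea a b * ((t i.succ - t i.castSucc) * (ζ * (2 * (Rm + 1))))) →
      |∑ i, f i - gramArea a b * ∫ τ in α..β, dens w R τ| ≤ η := by
    intro f hf
    rw [← hsum, Finset.mul_sum, ← Finset.sum_sub_distrib]
    refine (Finset.abs_sum_le_sum_abs _ _).trans ?_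
    have hterm : ∀ i ∈ (Finset.univ : Finset (Fin N)), |f i - gramArea a b * ∫ x in (t i.castSucc)..(t i.succ), dens w R x| ≤
        (gramArea a b * (ζ * (2 * (Rm + 1) + 1))) * (t i.succ - t i.castSucc) := by
      intro i _
      have h1 := hf i
      have h2 := hpi i
      have h3 : |gramArea a b * ((t i.succ - t i.castSucc) * dens w R (c i)) -
          gramArea a b * ∫ x in (t i.castSucc)..(t i.succ), dens w R x| ≤
          gramArea a b * (ζ * (t i.succ - t i.castSucc)) := by
        rw [← mul_sub, abs_mul, abs_of_nonneg hg]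
        exact mul_le_mul_of_nonneg_left h2 hg
      have h4 := abs_sub_le (f i) (gramArea a b * ((t i.succ - t i.castSucc) * dens w R (c i)))
        (gramArea a b * ∫ x in (t i.castSucc)..(t i.succ), dens w R x)
      nlinarith
    refine (Finset.sum_le_sum hterm).trans ?_
    rw [← Finset.mul_sum, hlen]
    calc gramArea a b * (ζ * (2 * (Rm + 1) + 1)) * (β - α) = K * ζ := by rw [hK]; ring
      _ ≤ η := hζK
  have hcm : ∀ i, c i ∈ Set.Icc α β := fun i =>
    ⟨(hα _).trans (htag i).1, (htag i).2.trans (hβ _)⟩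
  refine ⟨hpiece, ?_, ?_⟩
  · apply hfinal
    intro i
    exact (measure_image_bounds (hpiece i) (hRm _ (hcm i)) hζ1).1
  · apply hfinal
    intro i
    exact (measure_image_bounds (hpiece i) (hRm _ (hcm i)) hζ1).2

end Crest.Agent.H1.Sweep
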